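import Vale.Agent.Lib.P328Q.Basic

/-! A zero-margin integer matrix contains a simple cycle conformal to it; discrete intermediate
value theorem for the cells of a box slice. -/

namespace Vale.Agent.Lib.P328W

open Finset Vale.Agent.Lib.P328Q

variable {m n : ℕ}

theorem exists_pos_of_sum_zero {ι : Type*} [Fintype ι] {f : ι → ℤ} (h : ∑ x, f x = 0) {a : ι}
    (ha : f a < 0) : ∃ b, 0 < f b := by
  by_contra hc
  push Not at hc
  have := Finset.sum_lt_sum (s := univ) (f := f) (g := fun _ => 0) (fun b _ => hc b)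
    ⟨a, mem_univ _, ha⟩
  simp [h] at this

theorem exists_neg_of_sum_zero {ι : Type*} [Fintype ι] {f : ι → ℤ} (h : ∑ x, f x = 0) {a : ι}
    (ha : 0 < f a) : ∃ b, f b < 0 := by
  by_contra hc
  push Not at hc
  have := Finset.sum_lt_sum (s := univ) (f := fun _ => 0) (g := f) (fun b _ => hc b)
    ⟨a, mem_univ _, ha⟩
  simp [h] at this

/-- A nonzero zero-margin matrix contains a simple cycle conformal to it. -/
theorem conf_step (D : Mat m n) (hr : rowSum D = 0) (hc : colSum D = 0) (hD : D ≠ 0) :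
    ∃ χ : Mat m n, χ ≠ 0 ∧ rowSum χ = 0 ∧ colSum χ = 0 ∧
      ∀ i j, χ i j = 0 ∨ (χ i j = 1 ∧ 0 < D i j) ∨ (χ i j = -1 ∧ D i j < 0) := by
  classical
  have hrow : ∀ i, ∑ j, D i j = 0 := fun i => congrFun hr i
  have hcol : ∀ j, ∑ i, D i j = 0 := fun j => congrFun hc j
  -- a positive entry
  obtain ⟨i1, j1, h1⟩ : ∃ i j, 0 < D i j := by
    obtain ⟨i, j, hij⟩ : ∃ i j, D i j ≠ 0 := by
      by_contra hh
      push Not at hh
      exact hD (funext fun i => funext fun j => hh i j)
    rcases lt_or_gt_of_ne hij with h | h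
    · obtain ⟨b, hb⟩ := exists_pos_of_sum_zero (hrow i) h
      exact ⟨i, b, hb⟩
    · exact ⟨i, j, h⟩
  have hp0 : ∀ i, ∃ j, (∃ j', 0 < D i j') → 0 < D i j := by
    intro i
    by_cases h : ∃ j', 0 < D i j'
    · obtain ⟨j', hj'⟩ := h
      exact ⟨j', fun _ => hj'⟩
    · exact ⟨j1, fun h' => absurd h' h⟩
  have hq0 : ∀ j, ∃ i, (∃ i', D i' j < 0) → D i j < 0 := by
    intro j
    by_cases h : ∃ i', D i' j < 0
    · obtain ⟨i', hi'⟩ := h
      exact ⟨i', fun _ => hi'⟩
    · exact ⟨i1, fun h' => absurd h' h⟩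
  choose p hp using hp0
  choose q hq using hq0
  let σ : Fin m → Fin m := fun i => q (p i)
  let Pos : Fin m → Prop := fun i => ∃ j, 0 < D i j
  have hpos : ∀ i, Pos i → 0 < D i (p i) := fun i h => hp i h
  have hneg : ∀ i, Pos i → D (σ i) (p i) < 0 := by
    intro i h
    exact hq (p i) (exists_neg_of_sum_zero (f := fun i' => D i' (p i)) (hcol (p i)) (hpos i h))
  have hinv : ∀ i, Pos i → Pos (σ i) := by
    intro i h
    exact exists_pos_of_sum_zero (f := fun j => D (σ i) j) (hrow (σ i)) (hneg i h)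
  have hinvk : ∀ k i, Pos i → Pos (σ^[k] i) := by
    intro k
    induction k with
    | zero => exact fun i h => h
    | succ k ih =>
      intro i h
      rw [Function.iterate_succ_apply']
      exact hinv _ (ih i h)
  -- a periodic point
  obtain ⟨a, b, hab, hf⟩ := Finite.exists_ne_map_eq_of_infinite (fun k : ℕ => σ^[k] i1)
  wlog hlt : a < b generalizing a b
  · exact this b a hab.symm hf.symm (by omega)
  let i0 := σ^[a] i1
  have hi0 : Pos i0 := hinvk a i1 ⟨j1, h1⟩
  have hper : Function.IsPeriodicPt σ (b - a) i0 := by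
    show σ^[b - a] (σ^[a] i1) = σ^[a] i1
    rw [← Function.iterate_add_apply, Nat.sub_add_cancel hlt.le]
    exact hf.symm
  have hlpos : 0 < Function.minimalPeriod σ i0 := hper.minimalPeriod_pos (by omega)
  set l := Function.minimalPeriod σ i0 with hl
  let ρ : ℕ → Fin m := fun k => σ^[k] i0
  have hρpos : ∀ k, Pos (ρ k) := fun k => hinvk k i0 hi0
  have hρsucc : ∀ k, ρ (k + 1) = σ (ρ k) := fun k => Function.iterate_succ_apply' σ k i0
  have hρl : ρ l = ρ 0 := Function.iterate_minimalPeriod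
  have hρinj : ∀ x y, x < l → y < l → ρ x = ρ y → x = y := by
    intro x y hx hy h
    exact Function.iterate_injOn_Iio_minimalPeriod hx hy h
  have hρinj' : ∀ x y, x < l → y < l → ρ (x + 1) = ρ (y + 1) → x = y := by
    intro x y hx hy h
    by_contra hne
    wlog hxy : x < y generalizing x y
    · exact this y x hy hx h.symm (Ne.symm hne) (by omega)
    have hρadd : ∀ a b, ρ (a + b) = σ^[b] (ρ a) := fun a b => by
      show σ^[a + b] i0 = σ^[b] (σ^[a] i0)
      rw [add_comm, Function.iterate_add_apply]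
    have e1 : ρ (x + 1 + (l - 1 - y)) = ρ (y + 1 + (l - 1 - y)) := by
      rw [hρadd (x + 1), hρadd (y + 1), h]
    have e2 : y + 1 + (l - 1 - y) = l := by omega
    rw [e2, hρl] at e1
    have := hρinj _ _ (by omega : x + 1 + (l - 1 - y) < l) (by omega : 0 < l) e1
    omega
  let χ : Mat m n := fun i j => ∑ k ∈ range l,
    ((if i = ρ k ∧ j = p (ρ k) then (1:ℤ) else 0) - (if i = ρ (k + 1) ∧ j = p (ρ k) then 1 else 0))
  -- the entries
  have hent : ∀ i j, χ i j = 0 ∨ (χ i j = 1 ∧ 0 < D i j) ∨ (χ i j = -1 ∧ D i j < 0) := by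
    intro i j
    have hsplit : χ i j = (∑ k ∈ range l, (if i = ρ k ∧ j = p (ρ k) then (1:ℤ) else 0)) -
        ∑ k ∈ range l, (if i = ρ (k + 1) ∧ j = p (ρ k) then (1:ℤ) else 0) := Finset.sum_sub_distrib _ _
    have hA : ∀ k ∈ range l, (i = ρ k ∧ j = p (ρ k)) →
        ∑ k ∈ range l, (if i = ρ k ∧ j = p (ρ k) then (1:ℤ) else 0) = 1 := by
      intro k hk hh
      rw [Finset.sum_eq_single k]
      · simp [hh]
      · intro k' hk' hne
        rw [if_neg]
        rintro ⟨h1', _⟩
        exact hne (hρinj _ _ (mem_range.1 hk') (mem_range.1 hk) (h1'.symm.trans hh.1))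
      · intro h; exact absurd hk h
    have hB : ∀ k ∈ range l, (i = ρ (k + 1) ∧ j = p (ρ k)) →
        ∑ k ∈ range l, (if i = ρ (k + 1) ∧ j = p (ρ k) then (1:ℤ) else 0) = 1 := by
      intro k hk hh
      rw [Finset.sum_eq_single k]
      · simp [hh]
      · intro k' hk' hne
        rw [if_neg]
        rintro ⟨h1', _⟩
        exact hne (hρinj' _ _ (mem_range.1 hk') (mem_range.1 hk) (h1'.symm.trans hh.1))
      · intro h; exact absurd hk h
    by_cases hAex : ∃ k ∈ range l, i = ρ k ∧ j = p (ρ k)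
    · obtain ⟨k, hk, hh⟩ := hAex
      have hDpos : 0 < D i j := by
        rw [hh.1, hh.2]
        exact hpos _ (hρpos k)
      have hB0 : ∑ k ∈ range l, (if i = ρ (k + 1) ∧ j = p (ρ k) then (1:ℤ) else 0) = 0 := by
        refine Finset.sum_eq_zero fun k' _ => ?_
        rw [if_neg]
        rintro ⟨h1', h2'⟩
        have : D (σ (ρ k')) (p (ρ k')) < 0 := hneg _ (hρpos k')
        rw [← hρsucc, ← h1', ← h2'] at this
        exact absurd hDpos (not_lt.2 this.le)
      right; left
      rw [hsplit, hA k hk hh, hB0]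
      exact ⟨by norm_num, hDpos⟩
    · have hA0 : ∑ k ∈ range l, (if i = ρ k ∧ j = p (ρ k) then (1:ℤ) else 0) = 0 := by
        refine Finset.sum_eq_zero fun k' hk' => ?_
        rw [if_neg]
        exact fun hh => hAex ⟨k', hk', hh⟩
      by_cases hBex : ∃ k ∈ range l, i = ρ (k + 1) ∧ j = p (ρ k)
      · obtain ⟨k, hk, hh⟩ := hBex
        right; right
        rw [hsplit, hA0, hB k hk hh]
        refine ⟨by norm_num, ?_⟩
        rw [hh.1, hh.2, hρsucc]
        exact hneg _ (hρpos k)
      · have hB0 : ∑ k ∈ range l, (if i = ρ (k + 1) ∧ j = p (ρ k) then (1:ℤ) else 0) = 0 := by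
          refine Finset.sum_eq_zero fun k' hk' => ?_
          rw [if_neg]
          exact fun hh => hBex ⟨k', hk', hh⟩
        left
        rw [hsplit, hA0, hB0]
        norm_num
  refine ⟨χ, ?_, ?_, ?_, hent⟩
  · -- nonzero at the first cell
    intro h0
    have h1' : χ (ρ 0) (p (ρ 0)) = 0 := by rw [h0]; rfl
    rcases hent (ρ 0) (p (ρ 0)) with h | h | h
    · -- the sum has the term k = 0
      have hsplit : χ (ρ 0) (p (ρ 0)) =
          (∑ k ∈ range l, (if ρ 0 = ρ k ∧ p (ρ 0) = p (ρ k) then (1:ℤ) else 0)) -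
          ∑ k ∈ range l, (if ρ 0 = ρ (k + 1) ∧ p (ρ 0) = p (ρ k) then (1:ℤ) else 0) :=
        Finset.sum_sub_distrib _ _
      have hA1 : ∑ k ∈ range l, (if ρ 0 = ρ k ∧ p (ρ 0) = p (ρ k) then (1:ℤ) else 0) = 1 := by
        rw [Finset.sum_eq_single 0]
        · simp
        · intro k' hk' hne
          rw [if_neg]
          rintro ⟨h1'', _⟩
          exact hne (hρinj _ _ (mem_range.1 hk') hlpos h1''.symm)
        · intro h; exact absurd (mem_range.2 hlpos) h
      have hB1 : ∑ k ∈ range l, (if ρ 0 = ρ (k + 1) ∧ p (ρ 0) = p (ρ k) then (1:ℤ) else 0) = 0 := by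
        refine Finset.sum_eq_zero fun k' _ => ?_
        rw [if_neg]
        rintro ⟨h1'', h2''⟩
        have h3 : D (σ (ρ k')) (p (ρ k')) < 0 := hneg _ (hρpos k')
        rw [← hρsucc, ← h1'', ← h2''] at h3
        exact absurd (hpos _ (hρpos 0)) (not_lt.2 h3.le)
      rw [hsplit, hA1, hB1] at h
      norm_num at h
    · rw [h1'] at h; omega
    · rw [h1'] at h; omega
  · -- rows
    funext i
    show ∑ j, χ i j = 0
    have e : ∀ k ∈ range l, ∑ j, ((if i = ρ k ∧ j = p (ρ k) then (1:ℤ) else 0) -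
        (if i = ρ (k + 1) ∧ j = p (ρ k) then 1 else 0)) =
        (if i = ρ k then (1:ℤ) else 0) - (if i = ρ (k + 1) then 1 else 0) := by
      intro k _
      rw [Finset.sum_sub_distrib]
      congr 1
      · by_cases h : i = ρ k
        · simp [h]
        · simp [h]
      · by_cases h : i = ρ (k + 1)
        · simp [h]
        · simp [h]
    simp only [χ]
    rw [Finset.sum_comm, Finset.sum_congr rfl e,
      Finset.sum_range_sub' (fun k => if i = ρ k then (1:ℤ) else 0), hρl]
    simp
  · -- columns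
    funext j
    show ∑ i, χ i j = 0
    simp only [χ]
    rw [Finset.sum_comm]
    refine Finset.sum_eq_zero fun k _ => ?_
    rw [Finset.sum_sub_distrib]
    by_cases h : j = p (ρ k)
    · simp [h]
    · simp [h]

/-- The `ℓ¹` distance of matrices. -/
def l1 (X Y : Mat m n) : ℕ := ∑ i, ∑ j, (Y i j - X i j).natAbs

theorem mem_slc {lo hi : Mat m n} {r : Fin m → ℤ} {c : Fin n → ℤ} {X : Mat m n} :
    X ∈ slc lo hi r c ↔ (∀ i j, lo i j ≤ X i j ∧ X i j ≤ hi i j) ∧ rowSum X = r ∧ colSum X = c := by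
  simp only [slc, mem_filter, P328Q.box, Fintype.mem_piFinset, Finset.mem_Icc]

/-- A conformal step from `X` towards `Y` inside a slice. -/
theorem slc_step {lo hi : Mat m n} {r : Fin m → ℤ} {c : Fin n → ℤ} {X Y : Mat m n}
    (hX : X ∈ slc lo hi r c) (hY : Y ∈ slc lo hi r c) (hne : X ≠ Y) :
    ∃ W ∈ slc lo hi r c, l1 W Y < l1 X Y ∧
      ∀ i j, (W i j = X i j) ∨ (W i j = X i j + 1 ∧ X i j < Y i j) ∨
        (W i j = X i j - 1 ∧ Y i j < X i j) := by
  classical
  obtain ⟨hXb, hXr, hXc⟩ := mem_slc.1 hX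
  obtain ⟨hYb, hYr, hYc⟩ := mem_slc.1 hY
  have hDr : rowSum (Y - X) = 0 := by
    funext i
    have h1 := congrFun hXr i
    have h2 := congrFun hYr i
    simp only [rowSum, Pi.sub_apply, Finset.sum_sub_distrib, Pi.zero_apply] at *
    rw [h1, h2, sub_self]
  have hDc : colSum (Y - X) = 0 := by
    funext j
    have h1 := congrFun hXc j
    have h2 := congrFun hYc j
    simp only [colSum, Pi.sub_apply, Finset.sum_sub_distrib, Pi.zero_apply] at *
    rw [h1, h2, sub_self]
  have hD0 : Y - X ≠ 0 := fun h => hne (sub_eq_zero.1 h).symm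
  obtain ⟨χ, hχ0, hχr, hχc, hχ⟩ := conf_step (Y - X) hDr hDc hD0
  refine ⟨X + χ, ?_, ?_, ?_⟩
  · refine mem_slc.2 ⟨?_, ?_, ?_⟩
    · intro i j
      have h1 := hXb i j
      have h2 := hYb i j
      rcases hχ i j with h | ⟨h, h'⟩ | ⟨h, h'⟩
      · simp only [Pi.add_apply, h]; constructor <;> omega
      · simp only [Pi.sub_apply] at h'
        simp only [Pi.add_apply, h]; constructor <;> omega
      · simp only [Pi.sub_apply] at h'
        simp only [Pi.add_apply, h]; constructor <;> omega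
    · funext i
      have h1 := congrFun hXr i
      have h2 := congrFun hχr i
      simp only [rowSum, Pi.add_apply, Finset.sum_add_distrib, Pi.zero_apply] at *
      rw [h1, h2, add_zero]
    · funext j
      have h1 := congrFun hXc j
      have h2 := congrFun hχc j
      simp only [colSum, Pi.add_apply, Finset.sum_add_distrib, Pi.zero_apply] at *
      rw [h1, h2, add_zero]
  · -- the distance decreases
    obtain ⟨i0, j0, h0⟩ : ∃ i j, χ i j ≠ 0 := by
      by_contra hh
      push Not at hh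
      exact hχ0 (funext fun i => funext fun j => hh i j)
    unfold l1
    have hle : ∀ i j, (Y i j - (X + χ) i j).natAbs ≤ (Y i j - X i j).natAbs := by
      intro i j
      simp only [Pi.add_apply]
      rcases hχ i j with h | ⟨h, h'⟩ | ⟨h, h'⟩
      · simp only [h]; omega
      · simp only [Pi.sub_apply] at h'
        simp only [h]; omega
      · simp only [Pi.sub_apply] at h'
        simp only [h]; omega
    have hlt : (Y i0 j0 - (X + χ) i0 j0).natAbs < (Y i0 j0 - X i0 j0).natAbs := by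
      simp only [Pi.add_apply]
      rcases hχ i0 j0 with h | ⟨h, h'⟩ | ⟨h, h'⟩
      · exact absurd h h0
      · simp only [Pi.sub_apply] at h'
        simp only [h]; omega
      · simp only [Pi.sub_apply] at h'
        simp only [h]; omega
    refine Finset.sum_lt_sum (fun i _ => Finset.sum_le_sum fun j _ => hle i j) ⟨i0, mem_univ _, ?_⟩
    exact Finset.sum_lt_sum (fun j _ => hle i0 j) ⟨j0, mem_univ _, hlt⟩
  · intro i j
    simp only [Pi.add_apply]
    rcases hχ i j with h | ⟨h, h'⟩ | ⟨h, h'⟩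
    · left; rw [h, add_zero]
    · right; left
      simp only [Pi.sub_apply] at h'
      exact ⟨by rw [h], by omega⟩
    · right; right
      simp only [Pi.sub_apply] at h'
      exact ⟨by rw [h]; ring, by omega⟩

/-- The discrete intermediate value theorem. -/
theorem slc_ivt {lo hi : Mat m n} {r : Fin m → ℤ} {c : Fin n → ℤ} (i : Fin m) (j : Fin n) (v : ℤ) :
    ∀ (d : ℕ) (X Y : Mat m n), l1 X Y = d → X ∈ slc lo hi r c → Y ∈ slc lo hi r c →
      ((X i j ≤ v ∧ v ≤ Y i j) ∨ (Y i j ≤ v ∧ v ≤ X i j)) →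
      ∃ W ∈ slc lo hi r c, W i j = v := by
  intro d
  induction d using Nat.strong_induction_on with
  | _ d ih =>
    intro X Y hd hX hY hv
    by_cases hXv : X i j = v
    · exact ⟨X, hX, hXv⟩
    by_cases hne : X = Y
    · subst hne
      exfalso
      rcases hv with h | h <;> exact hXv (le_antisymm h.1 h.2)
    obtain ⟨W, hW, hWd, hWs⟩ := slc_step hX hY hne
    refine ih (l1 W Y) (hd ▸ hWd) W Y rfl hW hY ?_
    rcases hWs i j with h | ⟨h, h'⟩ | ⟨h, h'⟩ <;> rcases hv with h2 | h2 <;> omega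

end Vale.Agent.Lib.P328W
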