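import Vale.Agent.Lib.P328W.Conf

/-! The squaring lemma: the cell laws of box slices are log-concave and, on central slices,
symmetric and unimodal. -/

namespace Vale.Agent.Lib.P328W

open Finset Vale.Agent.Lib.P328Q
open scoped Pointwise

section Abstract

variable {G : Type*} [AddCommGroup G] [DecidableEq G]

/-- The number of points of `F` where `π` takes the value `v`. -/
def cnt (π : G →+ ℤ) (F : Finset G) (v : ℤ) : ℕ := (F.filter fun x => π x = v).card

/-- Pairs with prescribed values of `π`, fibred by their sum. -/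
theorem cnt_mul_cnt (π : G →+ ℤ) (F : Finset G) (v w : ℤ) :
    cnt π F v * cnt π F w =
      ∑ U ∈ (F + F).filter (fun U => π U = v + w), cnt π (fib F U) v := by
  classical
  unfold cnt
  rw [← Finset.card_product]
  have hmaps : ∀ p ∈ (F.filter fun x => π x = v) ×ˢ (F.filter fun x => π x = w),
      p.1 + p.2 ∈ (F + F).filter (fun U => π U = v + w) := by
    rintro ⟨x, y⟩ hp
    simp only [mem_product, mem_filter] at hp
    simp only [mem_filter]
    exact ⟨Finset.add_mem_add hp.1.1 hp.2.1, by rw [map_add, hp.1.2, hp.2.2]⟩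
  rw [Finset.card_eq_sum_card_fiberwise hmaps]
  refine Finset.sum_congr rfl fun U hU => ?_
  have hU' := (mem_filter.1 hU).2
  refine Finset.card_bij (fun p _ => p.1) ?_ ?_ ?_
  · rintro ⟨x, y⟩ hp
    simp only [mem_filter, mem_product] at hp
    obtain ⟨⟨⟨hx, hxv⟩, hy, hyw⟩, hxy⟩ := hp
    simp only [mem_filter, fib]
    refine ⟨⟨hx, ?_⟩, hxv⟩
    rw [← hxy, add_sub_cancel_left]
    exact hy
  · rintro ⟨x, y⟩ hp ⟨x', y'⟩ hp' h
    simp only [mem_filter, mem_product] at hp hp'
    have h' : x = x' := h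
    subst h'
    have e1 : x + y = U := hp.2
    have e2 : x + y' = U := hp'.2
    have : y = y' := by
      have : x + y = x + y' := e1.trans e2.symm
      exact add_left_cancel this
    rw [this]
  · intro x hx
    simp only [mem_filter, fib] at hx
    obtain ⟨⟨hxF, hUx⟩, hxv⟩ := hx
    refine ⟨(x, U - x), ?_, rfl⟩
    simp only [mem_filter, mem_product]
    refine ⟨⟨⟨hxF, hxv⟩, hUx, ?_⟩, by simp⟩
    rw [map_sub, hU', hxv]
    ring

/-- A nonzero translation does not preserve a nonempty finite subset of a torsion-free group. -/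
theorem translation_eq_zero [IsAddTorsionFree G] {F : Finset G} (hne : F.Nonempty) {u : G}
    (h : ∀ x ∈ F, x + u ∈ F) : u = 0 := by
  classical
  by_contra hu
  obtain ⟨x, hx⟩ := hne
  have hall : ∀ k : ℕ, x + k • u ∈ F := by
    intro k
    induction k with
    | zero => simpa using hx
    | succ k ih =>
      have := h _ ih
      rwa [add_assoc, ← succ_nsmul] at this
  have hinj : Function.Injective (fun k : ℕ => x + k • u) := by
    intro a b hab
    simp only at hab
    have hab' : a • u = b • u := add_left_cancel hab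
    by_contra hne'
    wlog hlt : a < b generalizing a b
    · exact this hab.symm hab'.symm (Ne.symm hne') (by omega)
    have : (b - a) • u = (b - a) • (0 : G) := by
      rw [smul_zero, sub_nsmul _ hlt.le, ← hab', add_neg_cancel]
    have h0 := IsAddTorsionFree.nsmul_right_injective (M := G) (by omega : b - a ≠ 0) this
    exact hu h0
  exact Set.infinite_of_injective_forall_mem hinj hall F.finite_toSet

theorem mem_fib {F : Finset G} {U x : G} : x ∈ fib F U ↔ x ∈ F ∧ U - x ∈ F := by
  simp only [fib, mem_filter]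

theorem fib_central (F : Finset G) (U : G) : ∀ x ∈ fib F U, U - x ∈ fib F U := by
  intro x hx
  obtain ⟨h1, h2⟩ := mem_fib.1 hx
  exact mem_fib.2 ⟨h2, by simpa using h1⟩

/-- Mirror symmetry of the counts of a central set. -/
theorem cnt_mirror (π : G →+ ℤ) {F : Finset G} {T : G} (hT : ∀ x ∈ F, T - x ∈ F) (v : ℤ) :
    cnt π F (π T - v) = cnt π F v := by
  unfold cnt
  refine Finset.card_bij (fun x _ => T - x) ?_ ?_ ?_
  · intro x hx
    obtain ⟨h1, h2⟩ := mem_filter.1 hx
    refine mem_filter.2 ⟨hT x h1, ?_⟩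
    rw [map_sub, h2]; ring
  · intro a _ b _ h
    exact sub_right_injective h
  · intro x hx
    obtain ⟨h1, h2⟩ := mem_filter.1 hx
    refine ⟨T - x, mem_filter.2 ⟨hT x h1, ?_⟩, by simp⟩
    rw [map_sub, h2]

/-- The center of a central family dominates its neighbours. -/
theorem center_mono [IsAddTorsionFree G] (π : G →+ ℤ) (Fam : Finset G → Prop)
    (hfib : ∀ F U, Fam F → U ∈ F + F → Fam (fib F U))
    (hivt : ∀ F, Fam F → ∀ x ∈ F, ∀ y ∈ F, ∀ v, π x ≤ v → v ≤ π y → ∃ z ∈ F, π z = v) :
    ∀ (d : ℕ) (F : Finset G), F.card = d → Fam F → ∀ T, (∀ x ∈ F, T - x ∈ F) →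
      ∀ v, π T = 2 * v → cnt π F (v + 1) ≤ cnt π F v := by
  classical
  intro d
  induction d using Nat.strong_induction_on with
  | _ d ih =>
    intro F hd hF T hT v hv
    by_cases hne : F.Nonempty
    swap
    · rw [Finset.not_nonempty_iff_eq_empty] at hne
      subst hne
      simp [cnt]
    obtain ⟨x0, hx0⟩ := hne
    have hne : F.Nonempty := ⟨x0, hx0⟩
    set a := cnt π F v with ha
    set b := cnt π F (v + 1) with hb
    have hmir : cnt π F (v - 1) = b := by
      have := cnt_mirror π hT (v + 1)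
      rw [hv] at this
      rw [hb, ← this]
      congr 1
      ring
    have hTmem : T ∈ F + F := by
      have := Finset.add_mem_add hx0 (hT x0 hx0)
      simpa using this
    have hfibT : fib F T = F := by
      ext x
      rw [mem_fib]
      exact ⟨fun h => h.1, fun h => ⟨h, hT x h⟩⟩
    let 𝓤 := (F + F).filter (fun U => π U = v + v)
    have hTU : T ∈ 𝓤 := mem_filter.2 ⟨hTmem, by rw [hv]; ring⟩
    have e1 : a * a = ∑ U ∈ 𝓤, cnt π (fib F U) v := cnt_mul_cnt π F v v
    have e2 : b * b = ∑ U ∈ 𝓤, cnt π (fib F U) (v + 1) := by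
      have := cnt_mul_cnt π F (v + 1) (v - 1)
      rw [hmir] at this
      rw [this]
      have e3 : v + 1 + (v - 1) = v + v := by ring
      rw [e3]
    have hle : ∀ U ∈ 𝓤.erase T, cnt π (fib F U) (v + 1) ≤ cnt π (fib F U) v := by
      intro U hU
      obtain ⟨hUT, hU⟩ := mem_erase.1 hU
      obtain ⟨hU1, hU2⟩ := mem_filter.1 hU
      have hsub : fib F U ⊆ F := fun x hx => (mem_fib.1 hx).1
      have hlt : (fib F U).card < d := by
        rw [← hd]
        refine Finset.card_lt_card (Finset.ssubset_iff_subset_ne.2 ⟨hsub, fun heq => hUT ?_⟩)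
        have htr : ∀ x ∈ F, x + (U - T) ∈ F := by
          intro x hx
          have h1 : T - x ∈ F := hT x hx
          rw [← heq] at h1
          have := (mem_fib.1 h1).2
          have e : U - (T - x) = x + (U - T) := by abel
          rwa [e] at this
        have := translation_eq_zero hne htr
        exact sub_eq_zero.1 this
      exact ih _ hlt (fib F U) rfl (hfib F U hF hU1) U (fib_central F U) v (by rw [hU2]; ring)
    have hsplit1 : a * a = a + ∑ U ∈ 𝓤.erase T, cnt π (fib F U) v := by
      rw [e1, ← Finset.add_sum_erase _ _ hTU, hfibT]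
    have hsplit2 : b * b = b + ∑ U ∈ 𝓤.erase T, cnt π (fib F U) (v + 1) := by
      rw [e2, ← Finset.add_sum_erase _ _ hTU, hfibT]
    have hsum := Finset.sum_le_sum hle
    by_contra hc
    push Not at hc
    -- a < b
    have hb1 : 1 ≤ b := by omega
    have ha1 : 1 ≤ a := by
      obtain ⟨x, hx⟩ : (F.filter fun x => π x = v + 1).Nonempty := by
        rw [← Finset.card_pos]
        exact hb1
      obtain ⟨hxF, hxv⟩ := mem_filter.1 hx
      have hy := hT x hxF
      obtain ⟨z, hz, hzv⟩ := hivt F hF (T - x) hy x hxF v (by rw [map_sub, hv, hxv]; omega)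
        (by rw [hxv]; omega)
      rw [ha]
      exact Finset.card_pos.2 ⟨z, mem_filter.2 ⟨hz, hzv⟩⟩
    nlinarith

/-- Log-concavity of the counts. -/
theorem log_concave [IsAddTorsionFree G] (π : G →+ ℤ) (Fam : Finset G → Prop)
    (hfib : ∀ F U, Fam F → U ∈ F + F → Fam (fib F U))
    (hivt : ∀ F, Fam F → ∀ x ∈ F, ∀ y ∈ F, ∀ v, π x ≤ v → v ≤ π y → ∃ z ∈ F, π z = v)
    (F : Finset G) (hF : Fam F) (v : ℤ) :
    cnt π F (v + 1) * cnt π F (v - 1) ≤ cnt π F v * cnt π F v := by
  rw [cnt_mul_cnt π F (v + 1) (v - 1), cnt_mul_cnt π F v v]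
  have e3 : v + 1 + (v - 1) = v + v := by ring
  rw [e3]
  refine Finset.sum_le_sum fun U hU => ?_
  obtain ⟨hU1, hU2⟩ := mem_filter.1 hU
  exact center_mono π Fam hfib hivt _ (fib F U) rfl (hfib F U hF hU1) U (fib_central F U) v
    (by rw [hU2]; ring)

/-- Unimodality on central sets: beyond the center the counts decrease. -/
theorem central_unimodal [IsAddTorsionFree G] (π : G →+ ℤ) (Fam : Finset G → Prop)
    (hfib : ∀ F U, Fam F → U ∈ F + F → Fam (fib F U))
    (hivt : ∀ F, Fam F → ∀ x ∈ F, ∀ y ∈ F, ∀ v, π x ≤ v → v ≤ π y → ∃ z ∈ F, π z = v)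
    (F : Finset G) (hF : Fam F) (T : G) (hT : ∀ x ∈ F, T - x ∈ F) :
    ∀ w : ℤ, π T ≤ 2 * w → cnt π F (w + 1) ≤ cnt π F w := by
  classical
  have step : ∀ w : ℤ, π T ≤ 2 * w → cnt π F w ≤ cnt π F (w - 1) →
      cnt π F (w + 1) ≤ cnt π F w := by
    intro w hw hprev
    by_cases h0 : cnt π F w = 0
    · -- nothing beyond a gap
      rw [h0]
      by_contra hc
      push Not at hc
      obtain ⟨x, hx⟩ : (F.filter fun x => π x = w + 1).Nonempty := by
        rw [← Finset.card_pos]
        exact hc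
      obtain ⟨hxF, hxv⟩ := mem_filter.1 hx
      obtain ⟨z, hz, hzv⟩ := hivt F hF (T - x) (hT x hxF) x hxF w
        (by rw [map_sub, hxv]; omega) (by rw [hxv]; omega)
      have : 0 < cnt π F w := Finset.card_pos.2 ⟨z, mem_filter.2 ⟨hz, hzv⟩⟩
      omega
    · have hlc := log_concave π Fam hfib hivt F hF w
      have h1 : 0 < cnt π F (w - 1) := by omega
      by_contra hc
      push Not at hc
      nlinarith
  intro w hw
  rcases Int.even_or_odd' (π T) with ⟨v, hv | hv⟩
  · -- even center
    have hbase : cnt π F (v + 1) ≤ cnt π F v :=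
      center_mono π Fam hfib hivt _ F rfl hF T hT v hv
    have hvw : v ≤ w := by omega
    induction w, hvw using Int.le_induction with
    | base => exact hbase
    | succ w hw' ih =>
      refine step (w + 1) hw ?_
      have e : w + 1 - 1 = w := by ring
      rw [e]
      exact ih (by omega)
  · -- odd center
    have hbase : cnt π F (v + 1 + 1) ≤ cnt π F (v + 1) := by
      refine step (v + 1) (by omega) ?_
      have e : v + 1 - 1 = v := by ring
      rw [e]
      have := cnt_mirror π hT v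
      have e2 : π T - v = v + 1 := by omega
      rw [e2] at this
      exact this.le
    have hvw : v + 1 ≤ w := by omega
    induction w, hvw using Int.le_induction with
    | base => exact hbase
    | succ w hw' ih =>
      refine step (w + 1) hw ?_
      have e : w + 1 - 1 = w := by ring
      rw [e]
      exact ih (by omega)

end Abstract

section Slices

variable {m n : ℕ}

/-- Evaluation at a cell. -/
def cellHom (i : Fin m) (j : Fin n) : Mat m n →+ ℤ where
  toFun X := X i j
  map_zero' := rfl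
  map_add' _ _ := rfl

@[simp] theorem cellHom_apply (i : Fin m) (j : Fin n) (X : Mat m n) : cellHom i j X = X i j := rfl

theorem rowSum_add' (X Y : Mat m n) : rowSum (X + Y) = rowSum X + rowSum Y := by
  funext i
  simp [rowSum, Finset.sum_add_distrib]

theorem colSum_add' (X Y : Mat m n) : colSum (X + Y) = colSum X + colSum Y := by
  funext j
  simp [colSum, Finset.sum_add_distrib]

theorem rowSum_sub' (X Y : Mat m n) : rowSum (X - Y) = rowSum X - rowSum Y := by
  funext i
  simp [rowSum, Finset.sum_sub_distrib]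

theorem colSum_sub' (X Y : Mat m n) : colSum (X - Y) = colSum X - colSum Y := by
  funext j
  simp [colSum, Finset.sum_sub_distrib]

/-- Fibres of slices are slices. -/
theorem sq_fib_slc {lo hi : Mat m n} {r : Fin m → ℤ} {c : Fin n → ℤ} {U : Mat m n}
    (hUr : rowSum U = r + r) (hUc : colSum U = c + c) :
    fib (slc lo hi r c) U = slc (loF lo hi U) (hiF lo hi U) r c := by
  ext X
  rw [mem_fib, mem_slc, mem_slc, mem_slc]
  simp only [loF, hiF, le_min_iff, max_le_iff]
  constructor
  · rintro ⟨⟨h1, h2, h3⟩, h4, _, _⟩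
    refine ⟨fun i j => ?_, h2, h3⟩
    have a1 := h1 i j
    have a2 := h4 i j
    simp only [Pi.sub_apply] at a2
    refine ⟨⟨a1.1, ?_⟩, a1.2, ?_⟩ <;> omega
  · rintro ⟨h1, h2, h3⟩
    refine ⟨⟨fun i j => ⟨(h1 i j).1.1, (h1 i j).2.1⟩, h2, h3⟩, fun i j => ?_, ?_, ?_⟩
    · have a1 := h1 i j
      simp only [Pi.sub_apply]
      constructor <;> omega
    · rw [rowSum_sub', hUr, h2]; simp
    · rw [colSum_sub', hUc, h3]; simp

/-- The family of slices with fixed margins. -/
def SliceFam (r : Fin m → ℤ) (c : Fin n → ℤ) (F : Finset (Mat m n)) : Prop :=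
  ∃ lo hi, F = slc lo hi r c

theorem sliceFam_fib (r : Fin m → ℤ) (c : Fin n → ℤ) :
    ∀ F U, SliceFam r c F → U ∈ F + F → SliceFam r c (fib F U) := by
  rintro F U ⟨lo, hi, rfl⟩ hU
  obtain ⟨X, hX, Y, hY, rfl⟩ := Finset.mem_add.1 hU
  obtain ⟨_, hXr, hXc⟩ := mem_slc.1 hX
  obtain ⟨_, hYr, hYc⟩ := mem_slc.1 hY
  refine ⟨_, _, sq_fib_slc ?_ ?_⟩
  · rw [rowSum_add', hXr, hYr]
  · rw [colSum_add', hXc, hYc]

theorem sliceFam_ivt (r : Fin m → ℤ) (c : Fin n → ℤ) (i : Fin m) (j : Fin n) :
    ∀ F, SliceFam r c F → ∀ x ∈ F, ∀ y ∈ F, ∀ v, cellHom i j x ≤ v → v ≤ cellHom i j y →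
      ∃ z ∈ F, cellHom i j z = v := by
  rintro F ⟨lo, hi, rfl⟩ x hx y hy v h1 h2
  exact slc_ivt i j v _ x y rfl hx hy (Or.inl ⟨h1, h2⟩)

/-- SQUARING LEMMA: the cell laws of a slice are log-concave. -/
theorem slc_log_concave (lo hi : Mat m n) (r : Fin m → ℤ) (c : Fin n → ℤ) (i : Fin m) (j : Fin n)
    (v : ℤ) :
    cnt (cellHom i j) (slc lo hi r c) (v + 1) * cnt (cellHom i j) (slc lo hi r c) (v - 1) ≤
      cnt (cellHom i j) (slc lo hi r c) v * cnt (cellHom i j) (slc lo hi r c) v :=
  log_concave _ _ (sliceFam_fib r c) (sliceFam_ivt r c i j) _ ⟨lo, hi, rfl⟩ v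

/-- Unimodality of the cell laws of a central slice. -/
theorem slc_unimodal (lo hi : Mat m n) (r : Fin m → ℤ) (c : Fin n → ℤ) (i : Fin m) (j : Fin n)
    (T : Mat m n) (hT : ∀ x ∈ slc lo hi r c, T - x ∈ slc lo hi r c) (w : ℤ) (hw : T i j ≤ 2 * w) :
    cnt (cellHom i j) (slc lo hi r c) (w + 1) ≤ cnt (cellHom i j) (slc lo hi r c) w :=
  central_unimodal _ _ (sliceFam_fib r c) (sliceFam_ivt r c i j) _ ⟨lo, hi, rfl⟩ T hT w hw

end Slices

end Vale.Agent.Lib.P328W
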