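import Vale.Agent.Lib.P328W.Defs

/-!
Birth and death dynamics on a down-closed finite set of `A → ℕ`, with mobility `w + 1`, and the
integrated Bochner inequality.
-/

set_option linter.unusedSectionVars false
set_option linter.unusedSimpArgs false
set_option linter.unusedVariables false

namespace Vale.Agent.Lib.P328W

open Finset

variable {A : Type*} [Fintype A] [DecidableEq A]

@[simp] theorem e_self (α : A) : e α α = 1 := by simp [e]

theorem e_ne {α β : A} (h : β ≠ α) : e α β = 0 := by simp [e, h]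

@[simp] theorem add_e_self (W : A → ℕ) (α : A) : (W + e α) α = W α + 1 := by simp [e]

theorem add_e_ne (W : A → ℕ) {α β : A} (h : β ≠ α) : (W + e α) β = W β := by
  simp [e, h]

@[simp] theorem add_e_sub_e (W : A → ℕ) (α : A) : W + e α - e α = W := by
  funext x
  simp

theorem sub_e_add_e (W : A → ℕ) {α : A} (h : 1 ≤ W α) : W - e α + e α = W := by
  funext x
  by_cases hx : x = α
  · subst hx
    simp
    omega
  · simp [e, hx]

theorem add_e_comm (W : A → ℕ) (α β : A) : W + e α + e β = W + e β + e α :=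
  add_right_comm _ _ _

theorem add_sub_e_ne (W : A → ℕ) {α β : A} (h : α ≠ β) : W + e α - e β = W - e β + e α := by
  funext x
  by_cases hx : x = α
  · subst hx
    simp [e, h]
  · by_cases hy : x = β
    · subst hy
      simp [e, hx]
    · simp [e, hx, hy]

/-- The data of the dynamics: a positive weight on a down-closed finite set. -/
structure Setup (S : Finset (A → ℕ)) (p : (A → ℕ) → ℝ) : Prop where
  down : ∀ W ∈ S, ∀ α, 1 ≤ W α → W - e α ∈ S
  pos : ∀ W ∈ S, 0 < p W
  zero : ∀ W, W ∉ S → p W = 0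

variable {S : Finset (A → ℕ)} {p : (A → ℕ) → ℝ}

theorem Setup.up_not_mem (h : Setup S p) {W : A → ℕ} (hW : W ∉ S) (α : A) : W + e α ∉ S := by
  intro h2
  have := h.down _ h2 α (by simp)
  rw [add_e_sub_e] at this
  exact hW this

theorem Setup.p_up_zero (h : Setup S p) {W : A → ℕ} (hW : W ∉ S) (α : A) : p (W + e α) = 0 :=
  h.zero _ (h.up_not_mem hW α)

theorem Setup.p_nonneg (h : Setup S p) (W : A → ℕ) : 0 ≤ p W := by
  by_cases hW : W ∈ S
  · exact (h.pos W hW).le
  · rw [h.zero W hW]

/-- The conductance of the edge from `W` to `W + e α`. -/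
noncomputable def cond (p : (A → ℕ) → ℝ) (W : A → ℕ) (α : A) : ℝ :=
  ((W α : ℝ) + 1) * p (W + e α)

/-- The rate of the move from `W` to `W + e α`. -/
noncomputable def rate (p : (A → ℕ) → ℝ) (W : A → ℕ) (α : A) : ℝ := cond p W α / p W

/-- The increment of `f` along a move. -/
def grad (f : (A → ℕ) → ℝ) (W : A → ℕ) (α : A) : ℝ := f (W + e α) - f W

/-- The generator. -/
noncomputable def gen (p : (A → ℕ) → ℝ) (f : (A → ℕ) → ℝ) (W : A → ℕ) : ℝ :=
  ∑ α, rate p W α * grad f W α - ∑ α, (W α : ℝ) * grad f (W - e α) α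

theorem Setup.cond_nonneg (h : Setup S p) (W : A → ℕ) (α : A) : 0 ≤ cond p W α :=
  mul_nonneg (by positivity) (h.p_nonneg _)

theorem Setup.rate_nonneg (h : Setup S p) (W : A → ℕ) (α : A) : 0 ≤ rate p W α :=
  div_nonneg (h.cond_nonneg W α) (h.p_nonneg W)

theorem Setup.cond_eq_zero (h : Setup S p) {W : A → ℕ} (hW : W ∉ S) (α : A) : cond p W α = 0 := by
  simp [cond, h.p_up_zero hW α]

theorem Setup.p_mul_rate (h : Setup S p) (W : A → ℕ) (α : A) : p W * rate p W α = cond p W α := by
  by_cases hW : W ∈ S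
  · have := (h.pos W hW).ne'
    unfold rate
    field_simp
  · rw [h.cond_eq_zero hW α, h.zero W hW]
    simp

/-- Re-indexing along one move. -/
theorem shift_sum (h : Setup S p) (α : A) (Φ : (A → ℕ) → ℝ) (hΦ : ∀ W, W ∉ S → Φ W = 0) :
    ∑ W ∈ S, (W α : ℝ) * Φ W = ∑ W ∈ S, ((W α : ℝ) + 1) * Φ (W + e α) := by
  have hl : ∑ W ∈ S, (W α : ℝ) * Φ W = ∑ W ∈ S.filter (fun W => 1 ≤ W α), (W α : ℝ) * Φ W := by
    rw [Finset.sum_filter]
    refine Finset.sum_congr rfl (fun W _ => ?_)
    by_cases hw : 1 ≤ W α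
    · simp [hw]
    · have : W α = 0 := by omega
      simp [this]
  have hr : ∑ W ∈ S, ((W α : ℝ) + 1) * Φ (W + e α) =
      ∑ W ∈ S.filter (fun W => W + e α ∈ S), ((W α : ℝ) + 1) * Φ (W + e α) := by
    rw [Finset.sum_filter]
    refine Finset.sum_congr rfl (fun W _ => ?_)
    by_cases hw : W + e α ∈ S
    · simp [hw]
    · simp [hw, hΦ _ hw]
  rw [hl, hr]
  refine Finset.sum_nbij' (fun W => W - e α) (fun W => W + e α) ?_ ?_ ?_ ?_ ?_
  · intro W hW
    rw [Finset.mem_filter] at hW ⊢
    refine ⟨h.down W hW.1 α hW.2, ?_⟩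
    rw [sub_e_add_e W hW.2]
    exact hW.1
  · intro W hW
    rw [Finset.mem_filter] at hW ⊢
    refine ⟨hW.2, by simp⟩
  · intro W hW
    rw [Finset.mem_filter] at hW
    exact sub_e_add_e W hW.2
  · intro W hW
    simp
  · intro W hW
    rw [Finset.mem_filter] at hW
    rw [sub_e_add_e W hW.2]
    have h2 : ((W - e α) α : ℕ) = W α - 1 := by simp
    rw [h2]
    have h3 : ((W α - 1 : ℕ) : ℝ) = (W α : ℝ) - 1 := by
      rw [Nat.cast_sub hW.2]
      simp
    rw [h3]
    ring

/-- The form `⟨h, L f⟩`. -/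
theorem sum_mul_gen (h : Setup S p) (f k : (A → ℕ) → ℝ) :
    ∑ W ∈ S, p W * k W * gen p f W =
      - ∑ W ∈ S, ∑ α, cond p W α * grad f W α * grad k W α := by
  have h1 : ∀ α, ∑ W ∈ S, p W * k W * ((W α : ℝ) * grad f (W - e α) α) =
      ∑ W ∈ S, cond p W α * grad f W α * k (W + e α) := by
    intro α
    have := shift_sum h α (fun W => p W * k W * grad f (W - e α) α) (fun W hW => by
      simp [h.zero W hW])
    calc ∑ W ∈ S, p W * k W * ((W α : ℝ) * grad f (W - e α) α)
        = ∑ W ∈ S, (W α : ℝ) * (p W * k W * grad f (W - e α) α) :=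
          Finset.sum_congr rfl (fun W _ => by ring)
      _ = _ := this
      _ = _ := by
          refine Finset.sum_congr rfl (fun W _ => ?_)
          simp only [add_e_sub_e, cond]
          ring
  have h2 : ∀ W ∈ S, p W * k W * gen p f W =
      ∑ α, cond p W α * grad f W α * k W -
        ∑ α, p W * k W * ((W α : ℝ) * grad f (W - e α) α) := by
    intro W hW
    unfold gen
    rw [mul_sub, Finset.mul_sum, Finset.mul_sum]
    congr 1
    refine Finset.sum_congr rfl (fun α _ => ?_)
    rw [← h.p_mul_rate W α]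
    ring
  rw [Finset.sum_congr rfl h2, Finset.sum_sub_distrib]
  rw [Finset.sum_comm (s := S) (t := univ) (f := fun W α =>
    p W * k W * ((W α : ℝ) * grad f (W - e α) α))]
  simp only [h1]
  rw [Finset.sum_comm (s := univ) (t := S), ← Finset.sum_sub_distrib, ← Finset.sum_neg_distrib]
  refine Finset.sum_congr rfl (fun W _ => ?_)
  rw [← Finset.sum_sub_distrib, ← Finset.sum_neg_distrib]
  refine Finset.sum_congr rfl (fun α _ => ?_)
  unfold grad
  ring

/-- The conductance of a double move. -/
noncomputable def dcond (p : (A → ℕ) → ℝ) (W : A → ℕ) (α β : A) : ℝ :=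
  ((W α : ℝ) + 1) * ((W β : ℝ) + 1) * p (W + e α + e β)

/-- The local matrix of the Bochner inequality. -/
noncomputable def locM (p : (A → ℕ) → ℝ) (W : A → ℕ) (α β : A) : ℝ :=
  p W * rate p W α * rate p W β +
    (if α = β then cond p W α * (1 - rate p (W + e α) α) else - dcond p W α β)

theorem dcond_comm (p : (A → ℕ) → ℝ) (W : A → ℕ) (α β : A) : dcond p W α β = dcond p W β α := by
  unfold dcond
  rw [add_e_comm W α β]
  ring

theorem Setup.dcond_nonneg (h : Setup S p) (W : A → ℕ) (α β : A) : 0 ≤ dcond p W α β :=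
  mul_nonneg (by positivity) (h.p_nonneg _)

theorem sum3_comm (S : Finset (A → ℕ)) (F : (A → ℕ) → A → A → ℝ) :
    ∑ W ∈ S, ∑ α, ∑ β, F W α β = ∑ α, ∑ β, ∑ W ∈ S, F W α β := by
  rw [Finset.sum_comm]
  refine Finset.sum_congr rfl (fun α _ => ?_)
  rw [Finset.sum_comm]

theorem sq_sum_B (h : Setup S p) (f : (A → ℕ) → ℝ) :
    ∑ W ∈ S, p W * (∑ α, (W α : ℝ) * grad f (W - e α) α) ^ 2 =
      ∑ W ∈ S, ∑ α, ∑ β, (if α = β then ((W α : ℝ) + 1) * cond p W α * grad f W α ^ 2
        else dcond p W α β * grad f (W + e β) α * grad f (W + e α) β) := by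
  have key : ∀ α β, ∑ W ∈ S, p W * (((W α : ℝ) * grad f (W - e α) α) *
      ((W β : ℝ) * grad f (W - e β) β)) =
      ∑ W ∈ S, (if α = β then ((W α : ℝ) + 1) * cond p W α * grad f W α ^ 2
        else dcond p W α β * grad f (W + e β) α * grad f (W + e α) β) := by
    intro α β
    by_cases hab : α = β
    · subst hab
      simp only [if_true]
      have := shift_sum h α
        (fun W => p W * (W α : ℝ) * grad f (W - e α) α * grad f (W - e α) α)
        (fun W hW => by simp [h.zero W hW])
      calc _ = ∑ W ∈ S, (W α : ℝ) * (p W * (W α : ℝ) * grad f (W - e α) α * grad f (W - e α) α) :=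
            Finset.sum_congr rfl (fun W _ => by ring)
        _ = _ := this
        _ = _ := by
            refine Finset.sum_congr rfl (fun W _ => ?_)
            simp only [add_e_sub_e, add_e_self, cond]
            push_cast
            ring
    · simp only [hab, if_false]
      have h1 := shift_sum h α
        (fun W => p W * (W β : ℝ) * grad f (W - e α) α * grad f (W - e β) β)
        (fun W hW => by simp [h.zero W hW])
      have h2 := shift_sum h β
        (fun W => ((W α : ℝ) + 1) * p (W + e α) * grad f W α * grad f (W + e α - e β) β)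
        (fun W hW => by simp [h.p_up_zero hW α])
      calc _ = ∑ W ∈ S, (W α : ℝ) *
              (p W * (W β : ℝ) * grad f (W - e α) α * grad f (W - e β) β) :=
            Finset.sum_congr rfl (fun W _ => by ring)
        _ = _ := h1
        _ = ∑ W ∈ S, (W β : ℝ) *
              (((W α : ℝ) + 1) * p (W + e α) * grad f W α * grad f (W + e α - e β) β) := by
            refine Finset.sum_congr rfl (fun W _ => ?_)
            simp only [add_e_sub_e, add_e_ne W (Ne.symm hab)]
            ring
        _ = _ := h2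
        _ = _ := by
            refine Finset.sum_congr rfl (fun W _ => ?_)
            have h3 : W + e β + e α - e β = W + e α := by
              rw [add_e_comm W β α, add_e_sub_e]
            simp only [h3, add_e_ne W hab, dcond]
            rw [add_e_comm W β α]
            ring
  have h0 : ∀ W ∈ S, p W * (∑ α, (W α : ℝ) * grad f (W - e α) α) ^ 2 =
      ∑ α, ∑ β, p W * (((W α : ℝ) * grad f (W - e α) α) *
        ((W β : ℝ) * grad f (W - e β) β)) := by
    intro W _
    rw [sq, Finset.sum_mul_sum, Finset.mul_sum]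
    refine Finset.sum_congr rfl (fun α _ => ?_)
    rw [Finset.mul_sum]
  rw [Finset.sum_congr rfl h0, sum3_comm, sum3_comm]
  refine Finset.sum_congr rfl (fun α _ => Finset.sum_congr rfl (fun β _ => key α β))

theorem sum_AB (h : Setup S p) (f : (A → ℕ) → ℝ) :
    ∑ W ∈ S, p W * ((∑ α, rate p W α * grad f W α) * ∑ β, (W β : ℝ) * grad f (W - e β) β) =
      ∑ W ∈ S, ∑ α, ∑ β, (if α = β then
          ((W α : ℝ) + 1) * ((W α : ℝ) + 2) * p (W + e α + e α) * grad f (W + e α) α * grad f W α
        else dcond p W α β * grad f (W + e β) α * grad f W β) := by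
  have key : ∀ β, ∑ W ∈ S, (W β : ℝ) *
      (p W * (∑ α, rate p W α * grad f W α) * grad f (W - e β) β) =
      ∑ W ∈ S, ∑ α, (if α = β then
          ((W α : ℝ) + 1) * ((W α : ℝ) + 2) * p (W + e α + e α) * grad f (W + e α) α * grad f W α
        else dcond p W α β * grad f (W + e β) α * grad f W β) := by
    intro β
    rw [shift_sum h β _ (fun W hW => by simp [h.zero W hW])]
    refine Finset.sum_congr rfl (fun W _ => ?_)
    simp only [add_e_sub_e]
    have h1 : p (W + e β) * ∑ α, rate p (W + e β) α * grad f (W + e β) α =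
        ∑ α, cond p (W + e β) α * grad f (W + e β) α := by
      rw [Finset.mul_sum]
      refine Finset.sum_congr rfl (fun α _ => ?_)
      rw [← h.p_mul_rate (W + e β) α]
      ring
    rw [h1, Finset.sum_mul, Finset.mul_sum]
    refine Finset.sum_congr rfl (fun α _ => ?_)
    by_cases hab : α = β
    · subst hab
      simp only [if_true, cond, add_e_self]
      push_cast
      ring
    · simp only [hab, if_false, cond, dcond, add_e_ne W hab]
      rw [add_e_comm W α β]
      ring
  have h0 : ∀ W ∈ S, p W * ((∑ α, rate p W α * grad f W α) * ∑ β, (W β : ℝ) * grad f (W - e β) β) =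
      ∑ β, (W β : ℝ) * (p W * (∑ α, rate p W α * grad f W α) * grad f (W - e β) β) := by
    intro W _
    rw [Finset.mul_sum, Finset.mul_sum]
    refine Finset.sum_congr rfl (fun β _ => ?_)
    ring
  rw [Finset.sum_congr rfl h0, Finset.sum_comm, Finset.sum_congr rfl (fun β _ => key β)]
  rw [Finset.sum_comm]
  refine Finset.sum_congr rfl (fun W _ => ?_)
  rw [Finset.sum_comm]

/-- Symmetrisation of a double sum. -/
theorem sum_sum_le_of_symm (F G : A → A → ℝ) (hFG : ∀ α β, 2 * G α β ≤ F α β + F β α) :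
    ∑ α, ∑ β, G α β ≤ ∑ α, ∑ β, F α β := by
  have h1 : ∑ α, ∑ β, (F α β + F β α) = 2 * ∑ α, ∑ β, F α β := by
    simp only [Finset.sum_add_distrib]
    rw [Finset.sum_comm (f := fun α β => F β α), two_mul]
  have h2 : ∑ α, ∑ β, 2 * G α β = 2 * ∑ α, ∑ β, G α β := by
    simp only [Finset.mul_sum]
  have h3 : ∑ α, ∑ β, 2 * G α β ≤ ∑ α, ∑ β, (F α β + F β α) :=
    Finset.sum_le_sum (fun α _ => Finset.sum_le_sum (fun β _ => hFG α β))
  linarith

/-- Splitting a double sum into the diagonal and the rest. -/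
theorem sum_sum_ite (d : A → ℝ) (o : A → A → ℝ) :
    ∑ α, ∑ β, (if α = β then d α else o α β) =
      ∑ α, d α + ∑ α, ∑ β, (if α = β then 0 else o α β) := by
  rw [← Finset.sum_add_distrib]
  refine Finset.sum_congr rfl (fun α _ => ?_)
  have : ∀ β, (if α = β then d α else o α β) =
      (if α = β then d α else 0) + (if α = β then 0 else o α β) := by
    intro β
    by_cases h : α = β <;> simp [h]
  simp only [this, Finset.sum_add_distrib]
  simp

theorem grad_comm (f : (A → ℕ) → ℝ) (W : A → ℕ) (α β : A) :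
    grad f (W + e β) α - grad f W α = grad f (W + e α) β - grad f W β := by
  unfold grad
  rw [add_e_comm W β α]
  ring

/-- The off-diagonal comparison at a state. -/
theorem offdiag_le (h : Setup S p) (f : (A → ℕ) → ℝ) (W : A → ℕ) :
    ∑ α, ∑ β, (if α = β then (0 : ℝ) else - dcond p W α β * (grad f W α * grad f W β)) ≤
      ∑ α, ∑ β, (if α = β then (0 : ℝ) else
        dcond p W α β * grad f (W + e β) α * grad f (W + e α) β -
          2 * (dcond p W α β * grad f (W + e β) α * grad f W β)) := by
  refine sum_sum_le_of_symm _ _ (fun α β => ?_)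
  by_cases hab : α = β
  · subst hab
    simp
  · have hba : ¬ β = α := fun h' => hab h'.symm
    simp only [hab, hba, if_false]
    rw [dcond_comm p W β α]
    have hc := h.dcond_nonneg W α β
    have hcomm := grad_comm f W α β
    set a := grad f W α
    set b := grad f W β
    set a' := grad f (W + e β) α
    set b' := grad f (W + e α) β
    set C := dcond p W α β
    have h1 : a' = a + (b' - b) := by linarith
    have h2 : 0 ≤ C * (2 * (b' - b) ^ 2) := by positivity
    rw [h1]
    nlinarith [h2]

/-- The diagonal comparison in one direction. -/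
theorem diag_le (h : Setup S p) (f : (A → ℕ) → ℝ) (α : A) :
    ∑ W ∈ S, cond p W α * (1 - rate p (W + e α) α) * grad f W α ^ 2 ≤
      ∑ W ∈ S, (((W α : ℝ) + 1) * cond p W α * grad f W α ^ 2 -
        2 * (((W α : ℝ) + 1) * ((W α : ℝ) + 2) * p (W + e α + e α) * grad f (W + e α) α *
          grad f W α)) := by
  have hs := shift_sum h α (fun W => cond p W α * grad f W α ^ 2)
    (fun W hW => by simp [h.cond_eq_zero hW α])
  have hD : ∀ W, cond p W α * rate p (W + e α) α =
      ((W α : ℝ) + 1) * ((W α : ℝ) + 2) * p (W + e α + e α) := by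
    intro W
    have h1 := h.p_mul_rate (W + e α) α
    have h2 : cond p W α * rate p (W + e α) α =
        ((W α : ℝ) + 1) * (p (W + e α) * rate p (W + e α) α) := by
      unfold cond
      ring
    rw [h2, h1]
    simp only [cond, add_e_self]
    push_cast
    ring
  have h3 : ∀ W ∈ S, cond p W α * (1 - rate p (W + e α) α) * grad f W α ^ 2 ≤
      (((W α : ℝ) + 1) * cond p W α * grad f W α ^ 2 -
        2 * (((W α : ℝ) + 1) * ((W α : ℝ) + 2) * p (W + e α + e α) * grad f (W + e α) α *
          grad f W α)) + (((W α : ℝ) + 1) * (cond p (W + e α) α * grad f (W + e α) α ^ 2) -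
            (W α : ℝ) * (cond p W α * grad f W α ^ 2)) := by
    intro W _
    have hD' := hD W
    have e1 : cond p (W + e α) α = ((W α : ℝ) + 2) * p (W + e α + e α) := by
      simp only [cond, add_e_self]
      push_cast
      ring
    rw [e1]
    have e2 : cond p W α * (1 - rate p (W + e α) α) * grad f W α ^ 2 =
        cond p W α * grad f W α ^ 2 -
          ((W α : ℝ) + 1) * ((W α : ℝ) + 2) * p (W + e α + e α) * grad f W α ^ 2 := by
      rw [← hD']
      ring
    rw [e2]
    have hq : 0 ≤ ((W α : ℝ) + 1) * ((W α : ℝ) + 2) * p (W + e α + e α) :=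
      mul_nonneg (by positivity) (h.p_nonneg _)
    set D := ((W α : ℝ) + 1) * ((W α : ℝ) + 2) * p (W + e α + e α)
    have h4 : 0 ≤ D * (grad f (W + e α) α - grad f W α) ^ 2 := by positivity
    have e3 : ((W α : ℝ) + 1) * (((W α : ℝ) + 2) * p (W + e α + e α) * grad f (W + e α) α ^ 2) =
        D * grad f (W + e α) α ^ 2 := by
      simp only [D]
      ring
    rw [e3]
    nlinarith [h4]
  calc _ ≤ ∑ W ∈ S, ((((W α : ℝ) + 1) * cond p W α * grad f W α ^ 2 -
        2 * (((W α : ℝ) + 1) * ((W α : ℝ) + 2) * p (W + e α + e α) * grad f (W + e α) α *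
          grad f W α)) + (((W α : ℝ) + 1) * (cond p (W + e α) α * grad f (W + e α) α ^ 2) -
            (W α : ℝ) * (cond p W α * grad f W α ^ 2))) := Finset.sum_le_sum h3
    _ = _ := by
        rw [Finset.sum_add_distrib, Finset.sum_sub_distrib (s := S)
          (f := fun W => ((W α : ℝ) + 1) * (cond p (W + e α) α * grad f (W + e α) α ^ 2)), ← hs]
        simp

/-- The integrated Bochner inequality. -/
theorem bochner (h : Setup S p) (f : (A → ℕ) → ℝ) :
    ∑ W ∈ S, ∑ α, ∑ β, locM p W α β * (grad f W α * grad f W β) ≤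
      ∑ W ∈ S, p W * gen p f W ^ 2 := by
  have hexp : ∑ W ∈ S, p W * gen p f W ^ 2 =
      ∑ W ∈ S, p W * (∑ α, rate p W α * grad f W α) ^ 2 -
        2 * ∑ W ∈ S, p W * ((∑ α, rate p W α * grad f W α) * ∑ β, (W β : ℝ) * grad f (W - e β) β) +
        ∑ W ∈ S, p W * (∑ α, (W α : ℝ) * grad f (W - e α) α) ^ 2 := by
    rw [Finset.mul_sum, ← Finset.sum_sub_distrib, ← Finset.sum_add_distrib]
    refine Finset.sum_congr rfl (fun W _ => ?_)
    unfold gen
    ring
  have hT1 : ∀ W ∈ S, p W * (∑ α, rate p W α * grad f W α) ^ 2 =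
      ∑ α, ∑ β, p W * rate p W α * rate p W β * (grad f W α * grad f W β) := by
    intro W _
    rw [sq, Finset.sum_mul_sum, Finset.mul_sum]
    refine Finset.sum_congr rfl (fun α _ => ?_)
    rw [Finset.mul_sum]
    refine Finset.sum_congr rfl (fun β _ => ?_)
    ring
  rw [hexp, sq_sum_B h f, sum_AB h f, Finset.sum_congr rfl hT1]
  -- split both sides
  have hsplitL : ∀ W ∈ S, ∑ α, ∑ β, locM p W α β * (grad f W α * grad f W β) =
      ∑ α, ∑ β, p W * rate p W α * rate p W β * (grad f W α * grad f W β) +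
        (∑ α, cond p W α * (1 - rate p (W + e α) α) * grad f W α ^ 2 +
          ∑ α, ∑ β, (if α = β then (0 : ℝ) else
            - dcond p W α β * (grad f W α * grad f W β))) := by
    intro W _
    rw [← sum_sum_ite (fun α => cond p W α * (1 - rate p (W + e α) α) * grad f W α ^ 2)
      (fun α β => - dcond p W α β * (grad f W α * grad f W β))]
    rw [← Finset.sum_add_distrib]
    refine Finset.sum_congr rfl (fun α _ => ?_)
    rw [← Finset.sum_add_distrib]
    refine Finset.sum_congr rfl (fun β _ => ?_)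
    unfold locM
    by_cases hab : α = β
    · subst hab
      simp
      ring
    · simp [hab]
      ring
  rw [Finset.sum_congr rfl hsplitL, Finset.sum_add_distrib, Finset.sum_add_distrib]
  have hB : ∑ W ∈ S, ∑ α, ∑ β, (if α = β then ((W α : ℝ) + 1) * cond p W α * grad f W α ^ 2
        else dcond p W α β * grad f (W + e β) α * grad f (W + e α) β) =
      ∑ W ∈ S, (∑ α, ((W α : ℝ) + 1) * cond p W α * grad f W α ^ 2 +
        ∑ α, ∑ β, (if α = β then (0 : ℝ) else
          dcond p W α β * grad f (W + e β) α * grad f (W + e α) β)) :=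
    Finset.sum_congr rfl (fun W _ => sum_sum_ite _ _)
  have hAB : ∑ W ∈ S, ∑ α, ∑ β, (if α = β then
          ((W α : ℝ) + 1) * ((W α : ℝ) + 2) * p (W + e α + e α) * grad f (W + e α) α * grad f W α
        else dcond p W α β * grad f (W + e β) α * grad f W β) =
      ∑ W ∈ S, (∑ α, ((W α : ℝ) + 1) * ((W α : ℝ) + 2) * p (W + e α + e α) *
          grad f (W + e α) α * grad f W α +
        ∑ α, ∑ β, (if α = β then (0 : ℝ) else
          dcond p W α β * grad f (W + e β) α * grad f W β)) :=
    Finset.sum_congr rfl (fun W _ => sum_sum_ite _ _)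
  rw [hB, hAB]
  rw [Finset.sum_add_distrib (s := S), Finset.sum_add_distrib (s := S)]
  have hD : ∑ W ∈ S, ∑ α, cond p W α * (1 - rate p (W + e α) α) * grad f W α ^ 2 ≤
      ∑ W ∈ S, ∑ α, ((W α : ℝ) + 1) * cond p W α * grad f W α ^ 2 -
        2 * ∑ W ∈ S, ∑ α, ((W α : ℝ) + 1) * ((W α : ℝ) + 2) * p (W + e α + e α) *
          grad f (W + e α) α * grad f W α := by
    rw [Finset.sum_comm, Finset.sum_comm (s := S) (t := univ)
      (f := fun W α => ((W α : ℝ) + 1) * cond p W α * grad f W α ^ 2),
      Finset.sum_comm (s := S) (t := univ)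
      (f := fun W α => ((W α : ℝ) + 1) * ((W α : ℝ) + 2) * p (W + e α + e α) *
          grad f (W + e α) α * grad f W α), Finset.mul_sum, ← Finset.sum_sub_distrib]
    refine Finset.sum_le_sum (fun α _ => ?_)
    refine (diag_le h f α).trans (le_of_eq ?_)
    rw [Finset.sum_sub_distrib, Finset.mul_sum]
  have hO : ∑ W ∈ S, ∑ α, ∑ β, (if α = β then (0 : ℝ) else
        - dcond p W α β * (grad f W α * grad f W β)) ≤
      ∑ W ∈ S, ∑ α, ∑ β, (if α = β then (0 : ℝ) else
          dcond p W α β * grad f (W + e β) α * grad f (W + e α) β) -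
        2 * ∑ W ∈ S, ∑ α, ∑ β, (if α = β then (0 : ℝ) else
          dcond p W α β * grad f (W + e β) α * grad f W β) := by
    rw [Finset.mul_sum, ← Finset.sum_sub_distrib]
    refine Finset.sum_le_sum (fun W _ => ?_)
    refine (offdiag_le h f W).trans (le_of_eq ?_)
    rw [Finset.mul_sum, ← Finset.sum_sub_distrib]
    refine Finset.sum_congr rfl (fun α _ => ?_)
    rw [Finset.mul_sum, ← Finset.sum_sub_distrib]
    refine Finset.sum_congr rfl (fun β _ => ?_)
    by_cases hab : α = β <;> simp [hab]
  linarith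

end Vale.Agent.Lib.P328W
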