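import Mathlib

/-!
The definitions of the chain on soft margin layers of contingency tables.
-/

namespace Vale.Agent.Lib.P328W

open Finset

/-- The unit vector at a cell. -/
def e {A : Type*} [DecidableEq A] (α : A) : A → ℕ := Pi.single α 1

/-- The partial sum `G w` of the series of `exp (-1/2)`. -/
noncomputable def G (w : ℕ) : ℝ := ∑ k ∈ range (w + 1), (-1 / 2 : ℝ) ^ k / (k.factorial : ℝ)

/-- The cells of an `m` by `n` table. -/
abbrev Cell (m n : ℕ) := Fin m × Fin n

variable {m n : ℕ}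

/-- The sum of row `i`. -/
def rowS (W : Cell m n → ℕ) (i : Fin m) : ℕ := ∑ j, W (i, j)

/-- The sum of column `j`. -/
def colS (W : Cell m n → ℕ) (j : Fin n) : ℕ := ∑ i, W (i, j)

/-- The sum of all entries. -/
def totS (W : Cell m n → ℕ) : ℕ := ∑ α, W α

/-- The sum of a margin. -/
def mass {k : ℕ} (r : Fin k → ℕ) : ℕ := ∑ i, r i

/-- The tables with row sums `r` and column sums `c`. -/
def Tab (r : Fin m → ℕ) (c : Fin n → ℕ) : Finset (Cell m n → ℕ) :=
  (Fintype.piFinset fun _ => range (mass r + 1)).filter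
    fun T => (∀ i, rowS T i = r i) ∧ ∀ j, colS T j = c j

/-- The layers `W` with row sums at most `r`, column sums at most `c`, and total at most
`mass r - N0`. -/
def regS (r : Fin m → ℕ) (c : Fin n → ℕ) (N0 : ℕ) : Finset (Cell m n → ℕ) :=
  (Fintype.piFinset fun _ => range (mass r + 1)).filter
    fun W => (∀ i, rowS W i ≤ r i) ∧ (∀ j, colS W j ≤ c j) ∧ N0 + totS W ≤ mass r

/-- The weight of a layer. -/
noncomputable def wt (r : Fin m → ℕ) (c : Fin n → ℕ) (W : Cell m n → ℕ) : ℝ :=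
  (∏ α, G (W α)) * ((1 / 2 : ℝ) ^ (mass r - totS W) * ((mass r - totS W).factorial : ℝ) /
    ((∏ i, ((r i - rowS W i).factorial : ℝ)) * ∏ j, ((c j - colS W j).factorial : ℝ)))

/-- The up rate of the chain, explicitly. -/
noncomputable def upRate (r : Fin m → ℕ) (c : Fin n → ℕ) (N0 : ℕ) (W : Cell m n → ℕ)
    (α : Cell m n) : ℝ :=
  if W + e α ∈ regS r c N0 then
    ((W α : ℝ) + 1) * (G (W α + 1) / G (W α)) *
      (2 * ((r α.1 - rowS W α.1 : ℕ) : ℝ) * ((c α.2 - colS W α.2 : ℕ) : ℝ) /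
        ((mass r - totS W : ℕ) : ℝ))
  else 0

/-- The Fisher and Yates kernel: the law of `W + F`, where `F` is a Fisher and Yates table with the
residual margins. -/
noncomputable def fy (r : Fin m → ℕ) (c : Fin n → ℕ) (W T : Cell m n → ℕ) : ℝ :=
  if ∀ α, W α ≤ T α then
    (∏ i, ((r i - rowS W i).factorial : ℝ)) * (∏ j, ((c j - colS W j).factorial : ℝ)) /
      ((mass r - totS W).factorial : ℝ) * ∏ α, (1 / ((T α - W α).factorial : ℝ))
  else 0

/-- The weight restricted to the state space. -/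
noncomputable def pw (r : Fin m → ℕ) (c : Fin n → ℕ) (N0 : ℕ) (W : Cell m n → ℕ) : ℝ :=
  if W ∈ regS r c N0 then wt r c W else 0

/-- The normalised weight. -/
noncomputable def piW (r : Fin m → ℕ) (c : Fin n → ℕ) (N0 : ℕ) (W : Cell m n → ℕ) : ℝ :=
  pw r c N0 W / ∑ V ∈ regS r c N0, wt r c V

/-- The transition kernel with up rates `u` and down rates `x α`, uniformised at `Λ`. -/
noncomputable def kern {A : Type*} [Fintype A] [DecidableEq A] (u : (A → ℕ) → A → ℝ) (Λ : ℝ)
    (x y : A → ℕ) : ℝ :=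
  (if y = x then 1 - ∑ α, (u x α + (x α : ℝ)) / Λ else 0) +
    ∑ α, ((if y = x + e α then u x α / Λ else 0) +
      (if 1 ≤ x α ∧ y = x - e α then (x α : ℝ) / Λ else 0))

/-- The law at time `t` of the chain with kernel `K` started at `x0`. -/
noncomputable def law {A : Type*} [Fintype A] [DecidableEq A] (S : Finset (A → ℕ))
    (K : (A → ℕ) → (A → ℕ) → ℝ) (x0 : A → ℕ) : ℕ → (A → ℕ) → ℝ
  | 0, y => if y = x0 then 1 else 0
  | t + 1, y => ∑ x ∈ S, law S K x0 t x * K x y

/-- The kernel of the chain on layers. -/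
noncomputable def chainK (r : Fin m → ℕ) (c : Fin n → ℕ) :
    (Cell m n → ℕ) → (Cell m n → ℕ) → ℝ :=
  kern (upRate r c (mass r / 10)) (8 * (mass r : ℝ))

/-- The law of the layer at time `t`, started from the empty layer. -/
noncomputable def chainLaw (r : Fin m → ℕ) (c : Fin n → ℕ) (t : ℕ) : (Cell m n → ℕ) → ℝ :=
  law (regS r c (mass r / 10)) (chainK r c) 0 t

/-- The law of the output table at time `t`. -/
noncomputable def outLaw (r : Fin m → ℕ) (c : Fin n → ℕ) (t : ℕ) (T : Cell m n → ℕ) : ℝ :=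
  ∑ W ∈ regS r c (mass r / 10), chainLaw r c t W * fy r c W T

end Vale.Agent.Lib.P328W
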