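import Vale.Agent.Lib.P328W.Local

/-!
The Fisher and Yates mass formula, and the exact marginal identity for the soft margin layer.
-/

set_option linter.unusedSectionVars false
set_option linter.unusedSimpArgs false
set_option linter.unusedVariables false

namespace Vale.Agent.Lib.P328W

open Finset

variable {m n : ℕ}

theorem mem_Tab {a : Fin m → ℕ} {b : Fin n → ℕ} {T : Cell m n → ℕ} :
    T ∈ Tab a b ↔ (∀ i, rowS T i = a i) ∧ ∀ j, colS T j = b j := by
  unfold Tab
  rw [Finset.mem_filter, Fintype.mem_piFinset]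
  constructor
  · exact fun h => h.2
  · intro h
    refine ⟨fun α => ?_, h⟩
    rw [Finset.mem_range]
    have h1 := entry_le_rowS T α
    rw [h.1 α.1] at h1
    have h3 : a α.1 ≤ mass a := by
      unfold mass
      exact Finset.single_le_sum (f := a) (fun _ _ => Nat.zero_le _) (mem_univ α.1)
    omega

/-- The Fisher and Yates weight of a table. -/
noncomputable def fyW (F : Cell m n → ℕ) : ℝ := ∏ α, (1 / ((F α).factorial : ℝ))

/-- The Fisher and Yates mass. -/
noncomputable def fyZ (a : Fin m → ℕ) (b : Fin n → ℕ) : ℝ := ∑ F ∈ Tab a b, fyW F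

theorem fyW_pos (F : Cell m n → ℕ) : 0 < fyW F :=
  Finset.prod_pos (fun α _ => by positivity)

theorem fyW_add (F : Cell m n → ℕ) (α : Cell m n) :
    ((F α : ℝ) + 1) * fyW (F + e α) = fyW F := by
  unfold fyW
  rw [← Finset.mul_prod_erase univ _ (mem_univ α), ← Finset.mul_prod_erase univ
    (fun β => (1 / ((F β).factorial : ℝ))) (mem_univ α)]
  have h4 : ∏ β ∈ univ.erase α, (1 / (((F + e α) β).factorial : ℝ)) =
      ∏ β ∈ univ.erase α, (1 / ((F β).factorial : ℝ)) := by
    refine Finset.prod_congr rfl (fun β hβ => ?_)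
    rw [add_e_ne F (Finset.ne_of_mem_erase hβ)]
  rw [h4, add_e_self, Nat.factorial_succ]
  have : (F α : ℝ) + 1 ≠ 0 := by positivity
  have h2 : ((F α).factorial : ℝ) ≠ 0 := by positivity
  push_cast
  field_simp

theorem rowS_sub_e {F : Cell m n → ℕ} {α : Cell m n} (h : 1 ≤ F α) (i : Fin m) :
    rowS (F - e α) i + (if i = α.1 then 1 else 0) = rowS F i := by
  rw [← rowS_add_e, sub_e_add_e F h]

theorem colS_sub_e {F : Cell m n → ℕ} {α : Cell m n} (h : 1 ≤ F α) (j : Fin n) :
    colS (F - e α) j + (if j = α.2 then 1 else 0) = colS F j := by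
  rw [← colS_add_e, sub_e_add_e F h]

theorem mass_sub_e {k : ℕ} (a : Fin k → ℕ) (i : Fin k) (h : 1 ≤ a i) :
    mass (a - e i) + 1 = mass a := by
  unfold mass
  have h1 : ∑ x, (a - e i + e i) x = ∑ x, a x := by
    rw [sub_e_add_e a h]
  have h2 : ∑ x, (a - e i + e i) x = ∑ x, (a - e i) x + ∑ x, (e i : Fin k → ℕ) x := by
    simp only [Pi.add_apply, Finset.sum_add_distrib]
  have h3 : ∑ x, (e i : Fin k → ℕ) x = 1 := by
    simp [e]
  omega

/-- Removing a unit from a cell: the sum of `F α * fyW F` over tables. -/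
theorem sum_entry_fyW (a : Fin m → ℕ) (b : Fin n → ℕ) (α : Cell m n) (hb : 1 ≤ b α.2)
    (ha : 1 ≤ a α.1) :
    ∑ F ∈ Tab a b, (F α : ℝ) * fyW F = fyZ (a - e α.1) (b - e α.2) := by
  unfold fyZ
  have hl : ∑ F ∈ Tab a b, (F α : ℝ) * fyW F =
      ∑ F ∈ (Tab a b).filter (fun F => 1 ≤ F α), (F α : ℝ) * fyW F := by
    rw [Finset.sum_filter]
    refine Finset.sum_congr rfl (fun F _ => ?_)
    by_cases hw : 1 ≤ F α
    · simp [hw]
    · have : F α = 0 := by omega
      simp [this]
  rw [hl]
  symm
  refine Finset.sum_nbij' (fun F => F + e α) (fun F => F - e α) ?_ ?_ ?_ ?_ ?_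
  · intro F hF
    rw [mem_Tab] at hF
    rw [Finset.mem_filter, mem_Tab]
    refine ⟨⟨fun i => ?_, fun j => ?_⟩, by simp⟩
    · rw [rowS_add_e, hF.1 i]
      by_cases h : i = α.1
      · subst h
        simp
        omega
      · simp [h, e]
    · rw [colS_add_e, hF.2 j]
      by_cases h : j = α.2
      · subst h
        simp
        omega
      · simp [h, e]
  · intro F hF
    rw [Finset.mem_filter, mem_Tab] at hF
    obtain ⟨⟨h1, h2⟩, h3⟩ := hF
    rw [mem_Tab]
    refine ⟨fun i => ?_, fun j => ?_⟩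
    · have := rowS_sub_e h3 i
      rw [h1 i] at this
      by_cases h : i = α.1
      · subst h
        simp at this ⊢
        omega
      · simp [h, e] at this ⊢
        omega
    · have := colS_sub_e h3 j
      rw [h2 j] at this
      by_cases h : j = α.2
      · subst h
        simp at this ⊢
        omega
      · simp [h, e] at this ⊢
        omega
  · intro F hF
    simp
  · intro F hF
    rw [Finset.mem_filter] at hF
    exact sub_e_add_e F hF.2
  · intro F hF
    have := fyW_add F α
    rw [add_e_self]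
    push_cast
    rw [this]

theorem exists_pos_of_mass {k : ℕ} {a : Fin k → ℕ} {N : ℕ} (h : mass a = N + 1) :
    ∃ i, 1 ≤ a i := by
  by_contra hcon
  push Not at hcon
  have : mass a = 0 := Finset.sum_eq_zero (fun i _ => by have := hcon i; omega)
  omega

theorem sum_entry_row {F : Cell m n → ℕ} (i : Fin m) :
    ∑ j, (F (i, j) : ℝ) = (rowS F i : ℝ) := by
  unfold rowS
  push_cast
  rfl

/-- The Fisher and Yates mass formula. -/
theorem fyZ_eq (N : ℕ) : ∀ (a : Fin m → ℕ) (b : Fin n → ℕ), mass a = N → mass b = N →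
    fyZ a b = (N.factorial : ℝ) / ((∏ i, ((a i).factorial : ℝ)) * ∏ j, ((b j).factorial : ℝ)) := by
  induction N with
  | zero =>
    intro a b ha hb
    have ha0 : ∀ i, a i = 0 := fun i =>
      (Finset.sum_eq_zero_iff_of_nonneg (fun _ _ => Nat.zero_le _)).1 ha i (mem_univ i)
    have hb0 : ∀ j, b j = 0 := fun j =>
      (Finset.sum_eq_zero_iff_of_nonneg (fun _ _ => Nat.zero_le _)).1 hb j (mem_univ j)
    have hT : Tab a b = {0} := by
      ext T
      rw [mem_Tab, Finset.mem_singleton]
      constructor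
      · rintro ⟨h1, h2⟩
        funext α
        have := entry_le_rowS T α
        rw [h1, ha0] at this
        simpa using this
      · rintro rfl
        refine ⟨fun i => ?_, fun j => ?_⟩
        · simp [rowS, ha0]
        · simp [colS, hb0]
    unfold fyZ
    rw [hT]
    simp [fyW, ha0, hb0]
  | succ N ih =>
    intro a b ha hb
    obtain ⟨i0, hi0⟩ := exists_pos_of_mass ha
    have hA : (0 : ℝ) < a i0 := by exact_mod_cast hi0
    have hPa : 0 < ∏ i, ((a i).factorial : ℝ) := Finset.prod_pos (fun i _ => by positivity)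
    have hPb : 0 < ∏ j, ((b j).factorial : ℝ) := Finset.prod_pos (fun j _ => by positivity)
    -- the row identity
    have h1 : (a i0 : ℝ) * fyZ a b = ∑ j, ∑ F ∈ Tab a b, (F (i0, j) : ℝ) * fyW F := by
      rw [Finset.sum_comm]
      unfold fyZ
      rw [Finset.mul_sum]
      refine Finset.sum_congr rfl (fun F hF => ?_)
      rw [← Finset.sum_mul, sum_entry_row, (mem_Tab.1 hF).1 i0]
    -- each column
    have h2 : ∀ j, ∑ F ∈ Tab a b, (F (i0, j) : ℝ) * fyW F =
        (N.factorial : ℝ) * (a i0 : ℝ) * (b j : ℝ) /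
          ((∏ i, ((a i).factorial : ℝ)) * ∏ j, ((b j).factorial : ℝ)) := by
      intro j
      by_cases hj : 1 ≤ b j
      · rw [sum_entry_fyW a b (i0, j) hj hi0]
        have hma : mass (a - e i0) = N := by
          have := mass_sub_e a i0 hi0
          omega
        have hmb : mass (b - e j) = N := by
          have := mass_sub_e b j hj
          omega
        rw [ih _ _ hma hmb]
        rw [prod_fact_sub a i0 hi0, prod_fact_sub b j hj]
        have hB : (0 : ℝ) < b j := by exact_mod_cast hj
        have hP1 : 0 < ∏ i, (((a - e i0) i).factorial : ℝ) :=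
          Finset.prod_pos (fun i _ => by positivity)
        have hP2 : 0 < ∏ k, (((b - e j) k).factorial : ℝ) :=
          Finset.prod_pos (fun i _ => by positivity)
        field_simp
      · have hj0 : b j = 0 := by omega
        have : ∀ F ∈ Tab a b, (F (i0, j) : ℝ) * fyW F = 0 := by
          intro F hF
          have h3 := entry_le_colS F (i0, j)
          rw [(mem_Tab.1 hF).2 j, hj0] at h3
          have h4 : F (i0, j) = 0 := by
            simpa using h3
          simp [h4]
        rw [Finset.sum_eq_zero this, hj0]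
        simp
    rw [Finset.sum_congr rfl (fun j _ => h2 j), ← Finset.sum_div, ← Finset.mul_sum] at h1
    have h3 : ∑ j, (b j : ℝ) = (N + 1 : ℕ) := by
      rw [← hb]
      unfold mass
      push_cast
      rfl
    rw [h3] at h1
    have h4 : fyZ a b = (N.factorial : ℝ) * (a i0 : ℝ) * ((N + 1 : ℕ) : ℝ) /
        ((∏ i, ((a i).factorial : ℝ)) * ∏ j, ((b j).factorial : ℝ)) / (a i0 : ℝ) := by
      rw [← h1]
      field_simp
    rw [h4, Nat.factorial_succ]
    push_cast
    field_simp

variable {r : Fin m → ℕ} {c : Fin n → ℕ} {N0 : ℕ}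

theorem mass_resR {W : Cell m n → ℕ} (hW : W ∈ regS r c N0) :
    mass (fun i => r i - rowS W i) = mass r - totS W := by
  unfold mass
  rw [Finset.sum_tsub_distrib _ (fun i _ => (mem_regS.1 hW).1 i), sum_rowS]

theorem mass_resC {W : Cell m n → ℕ} (hW : W ∈ regS r c N0) :
    mass (fun j => c j - colS W j) = mass c - totS W := by
  unfold mass
  rw [Finset.sum_tsub_distrib _ (fun j _ => (mem_regS.1 hW).2.1 j), sum_colS]

theorem totS_of_mem_Tab {T : Cell m n → ℕ} (hT : T ∈ Tab r c) : totS T = mass r := by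
  rw [← sum_rowS]
  exact Finset.sum_congr rfl (fun i _ => (mem_Tab.1 hT).1 i)

theorem mass_eq_of_mem_Tab {T : Cell m n → ℕ} (hT : T ∈ Tab r c) : mass r = mass c := by
  rw [← totS_of_mem_Tab hT, ← sum_colS]
  exact Finset.sum_congr rfl (fun i _ => (mem_Tab.1 hT).2 i)

theorem fy_eq_of_le (r : Fin m → ℕ) (c : Fin n → ℕ) {W T : Cell m n → ℕ} (h : ∀ α, W α ≤ T α) :
    fy r c W T = (∏ i, ((r i - rowS W i).factorial : ℝ)) * (∏ j, ((c j - colS W j).factorial : ℝ)) /
      ((mass r - totS W).factorial : ℝ) * fyW (T - W) := by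
  unfold fy
  rw [if_pos h]
  rfl

theorem fy_of_not_le {W T : Cell m n → ℕ} (h : ¬ ∀ α, W α ≤ T α) : fy r c W T = 0 := by
  unfold fy
  rw [if_neg h]

theorem rowS_sub_of_le {W T : Cell m n → ℕ} (h : ∀ α, W α ≤ T α) (i : Fin m) :
    rowS (T - W) i = rowS T i - rowS W i := by
  unfold rowS
  rw [← Finset.sum_tsub_distrib _ (fun j _ => h (i, j))]
  rfl

theorem colS_sub_of_le {W T : Cell m n → ℕ} (h : ∀ α, W α ≤ T α) (j : Fin n) :
    colS (T - W) j = colS T j - colS W j := by
  unfold colS
  rw [← Finset.sum_tsub_distrib _ (fun i _ => h (i, j))]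
  rfl

theorem rowS_add (F W : Cell m n → ℕ) (i : Fin m) : rowS (F + W) i = rowS F i + rowS W i := by
  unfold rowS
  simp only [Pi.add_apply, Finset.sum_add_distrib]

theorem colS_add (F W : Cell m n → ℕ) (j : Fin n) : colS (F + W) j = colS F j + colS W j := by
  unfold colS
  simp only [Pi.add_apply, Finset.sum_add_distrib]

/-- The Fisher and Yates kernel is a probability law on the tables. -/
theorem sum_fy (hsum : mass r = mass c) {W : Cell m n → ℕ} (hW : W ∈ regS r c N0) :
    ∑ T ∈ Tab r c, fy r c W T = 1 := by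
  have hW' := mem_regS.1 hW
  have h1 : ∑ T ∈ Tab r c, fy r c W T =
      (∏ i, ((r i - rowS W i).factorial : ℝ)) * (∏ j, ((c j - colS W j).factorial : ℝ)) /
        ((mass r - totS W).factorial : ℝ) *
        ∑ F ∈ Tab (fun i => r i - rowS W i) (fun j => c j - colS W j), fyW F := by
    rw [Finset.mul_sum]
    have h2 : ∑ T ∈ Tab r c, fy r c W T =
        ∑ T ∈ (Tab r c).filter (fun T => ∀ α, W α ≤ T α), fy r c W T := by
      rw [Finset.sum_filter]
      refine Finset.sum_congr rfl (fun T _ => ?_)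
      by_cases h : ∀ α, W α ≤ T α
      · rw [if_pos h]
      · rw [if_neg h, fy_of_not_le h]
    rw [h2]
    refine Finset.sum_nbij' (fun T => T - W) (fun F => F + W) ?_ ?_ ?_ ?_ ?_
    · intro T hT
      rw [Finset.mem_filter, mem_Tab] at hT
      rw [mem_Tab]
      refine ⟨fun i => ?_, fun j => ?_⟩
      · rw [rowS_sub_of_le hT.2, hT.1.1 i]
      · rw [colS_sub_of_le hT.2, hT.1.2 j]
    · intro F hF
      rw [mem_Tab] at hF
      rw [Finset.mem_filter, mem_Tab]
      refine ⟨⟨fun i => ?_, fun j => ?_⟩, fun α => by simp⟩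
      · rw [rowS_add, hF.1 i]
        have := hW'.1 i
        omega
      · rw [colS_add, hF.2 j]
        have := hW'.2.1 j
        omega
    · intro T hT
      rw [Finset.mem_filter] at hT
      funext α
      have := hT.2 α
      simp
      omega
    · intro F hF
      funext α
      simp
    · intro T hT
      rw [Finset.mem_filter] at hT
      exact fy_eq_of_le r c hT.2
  rw [h1]
  change _ * fyZ _ _ = 1
  rw [fyZ_eq (mass r - totS W) _ _ (mass_resR hW) (by rw [mass_resC hW, hsum])]
  have hP : 0 < ∏ i, ((r i - rowS W i).factorial : ℝ) := Finset.prod_pos (fun i _ => by positivity)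
  have hQ : 0 < ∏ j, ((c j - colS W j).factorial : ℝ) := Finset.prod_pos (fun i _ => by positivity)
  have hF : (0 : ℝ) < ((mass r - totS W).factorial : ℝ) := by positivity
  field_simp

/-- The joint weight of a table and a layer below it. -/
noncomputable def muT (T W : Cell m n → ℕ) : ℝ :=
  ∏ α, (G (W α) * ((1 / 2 : ℝ) ^ (T α - W α) / ((T α - W α).factorial : ℝ)))

theorem totS_sub_of_le {W T : Cell m n → ℕ} (h : ∀ α, W α ≤ T α) :
    totS (T - W) = totS T - totS W := by
  unfold totS
  rw [← Finset.sum_tsub_distrib _ (fun j _ => h j)]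
  rfl

theorem wt_mul_fy {W T : Cell m n → ℕ} (hT : T ∈ Tab r c) (h : ∀ α, W α ≤ T α) :
    wt r c W * fy r c W T = muT T W := by
  rw [fy_eq_of_le r c h]
  unfold wt muT fyW
  rw [Finset.prod_mul_distrib]
  have h1 : ∏ α, ((1 / 2 : ℝ) ^ (T α - W α) / ((T α - W α).factorial : ℝ)) =
      (1 / 2 : ℝ) ^ (mass r - totS W) * ∏ α, (1 / ((T - W) α).factorial : ℝ) := by
    have h2 : ∀ α, ((1 / 2 : ℝ) ^ (T α - W α) / ((T α - W α).factorial : ℝ)) =
        (1 / 2 : ℝ) ^ ((T - W) α) * (1 / ((T - W) α).factorial : ℝ) := by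
      intro α
      simp only [Pi.sub_apply]
      ring
    rw [Finset.prod_congr rfl (fun α _ => h2 α), Finset.prod_mul_distrib,
      Finset.prod_pow_eq_pow_sum]
    congr 2
    have := totS_sub_of_le h
    rw [totS_of_mem_Tab hT] at this
    exact this
  rw [h1]
  have hP : 0 < ∏ i, ((r i - rowS W i).factorial : ℝ) := Finset.prod_pos (fun i _ => by positivity)
  have hQ : 0 < ∏ j, ((c j - colS W j).factorial : ℝ) := Finset.prod_pos (fun i _ => by positivity)
  have hF : (0 : ℝ) < ((mass r - totS W).factorial : ℝ) := by positivity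
  field_simp

theorem rowS_le_of_le {W T : Cell m n → ℕ} (h : ∀ α, W α ≤ T α) (i : Fin m) :
    rowS W i ≤ rowS T i := Finset.sum_le_sum (fun j _ => h (i, j))

theorem colS_le_of_le {W T : Cell m n → ℕ} (h : ∀ α, W α ≤ T α) (j : Fin n) :
    colS W j ≤ colS T j := Finset.sum_le_sum (fun i _ => h (i, j))

theorem totS_le_of_le {W T : Cell m n → ℕ} (h : ∀ α, W α ≤ T α) : totS W ≤ totS T :=
  Finset.sum_le_sum (fun i _ => h i)

/-- Every table receives total mass one from its layers. -/
theorem sum_mu {T : Cell m n → ℕ} (hT : T ∈ Tab r c) :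
    ∑ W ∈ regS r c 0, wt r c W * fy r c W T = 1 := by
  have h1 : ∑ W ∈ regS r c 0, wt r c W * fy r c W T =
      ∑ W ∈ Fintype.piFinset (fun α => range (T α + 1)), muT T W := by
    have h2 : ∑ W ∈ regS r c 0, wt r c W * fy r c W T =
        ∑ W ∈ (regS r c 0).filter (fun W => ∀ α, W α ≤ T α), muT T W := by
      rw [Finset.sum_filter]
      refine Finset.sum_congr rfl (fun W _ => ?_)
      by_cases h : ∀ α, W α ≤ T α
      · rw [if_pos h, wt_mul_fy hT h]
      · rw [if_neg h, fy_of_not_le h, mul_zero]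
    rw [h2]
    refine Finset.sum_congr ?_ (fun _ _ => rfl)
    ext W
    rw [Finset.mem_filter, Fintype.mem_piFinset, mem_regS]
    have hT' := mem_Tab.1 hT
    constructor
    · intro h α
      rw [Finset.mem_range]
      have := h.2 α
      omega
    · intro h
      have h3 : ∀ α, W α ≤ T α := fun α => by
        have := Finset.mem_range.1 (h α)
        omega
      refine ⟨⟨fun i => ?_, fun j => ?_, ?_⟩, h3⟩
      · rw [← hT'.1 i]
        exact rowS_le_of_le h3 i
      · rw [← hT'.2 j]
        exact colS_le_of_le h3 j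
      · rw [← totS_of_mem_Tab hT]
        have := totS_le_of_le h3
        omega
  rw [h1]
  unfold muT
  rw [← Finset.prod_univ_sum (fun α => range (T α + 1))
    (fun α w => G w * ((1 / 2 : ℝ) ^ (T α - w) / ((T α - w).factorial : ℝ)))]
  exact Finset.prod_eq_one (fun α _ => conv_one (T α))

/-- The total weight of the layers is the number of tables. -/
theorem sum_wt (hsum : mass r = mass c) : ∑ W ∈ regS r c 0, wt r c W = ((Tab r c).card : ℝ) := by
  have h1 : ∀ W ∈ regS r c 0, wt r c W = ∑ T ∈ Tab r c, wt r c W * fy r c W T := by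
    intro W hW
    rw [← Finset.mul_sum, sum_fy hsum hW, mul_one]
  rw [Finset.sum_congr rfl h1, Finset.sum_comm, Finset.sum_congr rfl (fun T hT => sum_mu hT)]
  simp

theorem prod_fact_le_of_mem_Tab {T : Cell m n → ℕ} (hT : T ∈ Tab r c) :
    ∏ α, ((T α).factorial : ℝ) ≤ ∏ i, ((r i).factorial : ℝ) := by
  rw [Fintype.prod_prod_type]
  refine Finset.prod_le_prod (fun i _ => Finset.prod_nonneg (fun j _ => by positivity)) (fun i _ => ?_)
  have h1 := Nat.prod_factorial_dvd_factorial_sum (univ : Finset (Fin n)) (fun j => T (i, j))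
  have h2 : ∑ j, T (i, j) = r i := (mem_Tab.1 hT).1 i
  rw [h2] at h1
  have h3 := Nat.le_of_dvd (Nat.factorial_pos _) h1
  exact_mod_cast h3

/-- The crude bound for the number of tables. -/
theorem card_Tab_le (hsum : mass r = mass c) :
    ((Tab r c).card : ℝ) * ∏ j, ((c j).factorial : ℝ) ≤ ((mass r).factorial : ℝ) := by
  have h1 : fyZ r c = ((mass r).factorial : ℝ) /
      ((∏ i, ((r i).factorial : ℝ)) * ∏ j, ((c j).factorial : ℝ)) :=
    fyZ_eq (mass r) r c rfl hsum.symm
  have hPa : 0 < ∏ i, ((r i).factorial : ℝ) := Finset.prod_pos (fun i _ => by positivity)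
  have hPb : 0 < ∏ j, ((c j).factorial : ℝ) := Finset.prod_pos (fun j _ => by positivity)
  have h2 : ((Tab r c).card : ℝ) * (1 / ∏ i, ((r i).factorial : ℝ)) ≤ fyZ r c := by
    unfold fyZ
    rw [← nsmul_eq_mul]
    refine Finset.card_nsmul_le_sum _ _ _ (fun T hT => ?_)
    have h3 := prod_fact_le_of_mem_Tab hT
    have h4 : 0 < ∏ α, ((T α).factorial : ℝ) := Finset.prod_pos (fun i _ => by positivity)
    have h5 : fyW T = 1 / ∏ α, ((T α).factorial : ℝ) := by
      unfold fyW
      rw [Finset.prod_div_distrib]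
      simp
    rw [h5]
    exact one_div_le_one_div_of_le h4 h3
  rw [h1] at h2
  have h6 : ((Tab r c).card : ℝ) * (1 / ∏ i, ((r i).factorial : ℝ)) *
      ((∏ i, ((r i).factorial : ℝ)) * ∏ j, ((c j).factorial : ℝ)) ≤
      ((mass r).factorial : ℝ) / ((∏ i, ((r i).factorial : ℝ)) * ∏ j, ((c j).factorial : ℝ)) *
      ((∏ i, ((r i).factorial : ℝ)) * ∏ j, ((c j).factorial : ℝ)) :=
    mul_le_mul_of_nonneg_right h2 (by positivity)
  have e1 : ((Tab r c).card : ℝ) * (1 / ∏ i, ((r i).factorial : ℝ)) *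
      ((∏ i, ((r i).factorial : ℝ)) * ∏ j, ((c j).factorial : ℝ)) =
      ((Tab r c).card : ℝ) * ∏ j, ((c j).factorial : ℝ) := by
    field_simp
  have e2 : ((mass r).factorial : ℝ) / ((∏ i, ((r i).factorial : ℝ)) * ∏ j, ((c j).factorial : ℝ)) *
      ((∏ i, ((r i).factorial : ℝ)) * ∏ j, ((c j).factorial : ℝ)) = ((mass r).factorial : ℝ) := by
    field_simp
  rw [e1, e2] at h6
  exact h6

theorem wt_zero (r : Fin m → ℕ) (c : Fin n → ℕ) :
    wt r c 0 = (1 / 2 : ℝ) ^ mass r * ((mass r).factorial : ℝ) /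
      ((∏ i, ((r i).factorial : ℝ)) * ∏ j, ((c j).factorial : ℝ)) := by
  unfold wt
  simp [G_zero, rowS, colS, totS]

end Vale.Agent.Lib.P328W
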