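import Vale.Agent.Lib.P328W.Tail

/-!
Assembly: the chain on soft margin layers and the Fisher and Yates completion sample tables.
-/

set_option linter.unusedSectionVars false
set_option linter.unusedSimpArgs false
set_option linter.unusedVariables false

namespace Vale.Agent.Lib.P328W

open Finset

variable {m n : ℕ} {r : Fin m → ℕ} {c : Fin n → ℕ}

theorem fy_nonneg (r : Fin m → ℕ) (c : Fin n → ℕ) (W T : Cell m n → ℕ) : 0 ≤ fy r c W T := by
  unfold fy
  split_ifs
  · refine mul_nonneg (div_nonneg (mul_nonneg (Finset.prod_nonneg (fun i _ => by positivity))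
      (Finset.prod_nonneg (fun i _ => by positivity))) (by positivity))
      (Finset.prod_nonneg (fun i _ => by positivity))
  · exact le_rfl

section Main

variable (hsum : mass r = mass c) (hN : 1000 ≤ mass r)
  (hreg : ∀ i j, 100 * (r i * c j) ≤ mass r)

include hN in
theorem wall_le : mass r / 10 ≤ mass r := Nat.div_le_self _ _

include hN in
theorem wall_bound : mass r ≤ 10 * (mass r / 10 + 1) := by omega

include hN in
theorem piW_w : IsWeight r c (mass r / 10) (piW r c (mass r / 10)) := piW_isWeight (wall_le hN)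

include hN in
theorem upRate_eq_rate {W : Cell m n → ℕ} (hW : W ∈ regS r c (mass r / 10)) (α : Cell m n) :
    upRate r c (mass r / 10) W α = rate (piW r c (mass r / 10)) W α :=
  (piW_w hN).rate_eq_upRate hW α

include hN in
theorem Lam_pos : (0 : ℝ) < 8 * (mass r : ℝ) := by
  have : (1000 : ℝ) ≤ mass r := by exact_mod_cast hN
  linarith

include hN hsum hreg in
theorem tot_le {W : Cell m n → ℕ} (hW : W ∈ regS r c (mass r / 10)) :
    totRate (piW r c (mass r / 10)) W ≤ 8 * (mass r : ℝ) / 2 := by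
  have := (piW_w hN).totRate_le hsum hreg hW
  linarith

include hN hsum hreg in
/-- The kernel is a transition kernel: nonnegative. -/
theorem chainK_nonneg {x : Cell m n → ℕ} (hx : x ∈ regS r c (mass r / 10)) (y : Cell m n → ℕ) :
    0 ≤ chainK r c x y := by
  have hΛ := Lam_pos (r := r) hN
  have h1 := tot_le (c := c) hsum hN hreg hx
  have hu : ∀ α, upRate r c (mass r / 10) x α = rate (piW r c (mass r / 10)) x α :=
    fun α => upRate_eq_rate hN hx α
  have hu0 : ∀ α, 0 ≤ upRate r c (mass r / 10) x α := fun α => by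
    rw [hu α]
    exact (piW_w hN).setup.rate_nonneg x α
  unfold chainK kern
  refine add_nonneg ?_ (Finset.sum_nonneg (fun α _ => add_nonneg ?_ ?_))
  · split_ifs
    · have h2 : ∑ α, (upRate r c (mass r / 10) x α + (x α : ℝ)) / (8 * (mass r : ℝ)) =
          totRate (piW r c (mass r / 10)) x / (8 * (mass r : ℝ)) := by
        unfold totRate
        rw [← Finset.sum_div]
        congr 1
        refine Finset.sum_congr rfl (fun α _ => ?_)
        rw [hu α]
      rw [h2]
      have h3 : totRate (piW r c (mass r / 10)) x / (8 * (mass r : ℝ)) ≤ 1 := by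
        rw [div_le_one hΛ]
        linarith
      linarith
    · exact le_rfl
  · split_ifs
    · exact div_nonneg (hu0 α) hΛ.le
    · exact le_rfl
  · split_ifs
    · positivity
    · exact le_rfl

include hN in
/-- The kernel is a transition kernel: mass one. -/
theorem chainK_sum {x : Cell m n → ℕ} (hx : x ∈ regS r c (mass r / 10)) :
    ∑ y ∈ regS r c (mass r / 10), chainK r c x y = 1 := by
  have := (piW_w hN).setup.kern_sum hx (fun α => upRate_eq_rate hN hx α) (fun _ => 1)
    (Λ := 8 * (mass r : ℝ))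
  simp only [mul_one] at this
  rw [gen_const] at this
  simpa [chainK] using this

include hN hsum hreg in
/-- The Poincare inequality. -/
theorem poincare_final (f : (Cell m n → ℕ) → ℝ) :
    (1 / 3) * ∑ W ∈ regS r c (mass r / 10), piW r c (mass r / 10) W *
        (f W - wmean (piW r c (mass r / 10)) (regS r c (mass r / 10)) f) ^ 2 ≤
      dir (piW r c (mass r / 10)) (regS r c (mass r / 10)) f f :=
  (piW_w hN).poincare_table hreg hN (wall_bound hN) (wall_le hN) f

include hN hsum hreg in
/-- The decay in total variation of the layer. -/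
theorem tv_layer (t : ℕ) :
    (1 / 2) * ∑ y ∈ regS r c (mass r / 10), |chainLaw r c t y - piW r c (mass r / 10) y| ≤
      (1 / 2) * Real.sqrt ((1 - 1 / (24 * (mass r : ℝ))) ^ t * (1 / piW r c (mass r / 10) 0)) := by
  have hN' : (1000 : ℝ) ≤ mass r := by exact_mod_cast hN
  have h := (piW_w (c := c) hN).setup.tv_decay (zero_mem_regS (wall_le hN)) (sum_piW (wall_le hN))
    (u := upRate r c (mass r / 10)) (Λ := 8 * (mass r : ℝ)) (κ := 1 / 3) (Lam_pos hN) (by norm_num)
    (fun x hx α => upRate_eq_rate hN hx α) (fun x hx => tot_le hsum hN hreg hx)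
    (fun f => poincare_final hsum hN hreg f) (zero_mem_regS (wall_le hN)) (by linarith) t
  have e : (1 : ℝ) / 3 / (8 * (mass r : ℝ)) = 1 / (24 * (mass r : ℝ)) := by
    have : (mass r : ℝ) ≠ 0 := by linarith
    field_simp
    norm_num
  rw [e] at h
  exact h

/-- The size factor. -/
noncomputable def sizeQ (r : Fin m → ℕ) : ℝ := 2 ^ mass r * ∏ i, ((r i).factorial : ℝ)

include hN hsum in
theorem one_div_piW_le : 1 / piW r c (mass r / 10) 0 ≤ sizeQ r := by
  have h0 := zero_mem_regS (r := r) (c := c) (wall_le hN)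
  have hZ := sum_wt_pos (r := r) (c := c) (wall_le hN)
  have hw := wt_pos r c (0 : Cell m n → ℕ)
  have e1 : piW r c (mass r / 10) 0 = wt r c 0 / ∑ V ∈ regS r c (mass r / 10), wt r c V := by
    unfold piW pw
    rw [if_pos h0]
  rw [e1, one_div_div]
  have hsub : ∑ V ∈ regS r c (mass r / 10), wt r c V ≤ ((Tab r c).card : ℝ) := by
    rw [← sum_wt hsum]
    refine Finset.sum_le_sum_of_subset_of_nonneg ?_ (fun W _ _ => (wt_pos r c W).le)
    intro W hW
    rw [mem_regS] at hW ⊢
    refine ⟨hW.1, hW.2.1, ?_⟩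
    have := hW.2.2
    omega
  have hc := card_Tab_le (r := r) (c := c) hsum
  rw [div_le_iff₀ hw, wt_zero]
  unfold sizeQ
  have hPa : 0 < ∏ i, ((r i).factorial : ℝ) := Finset.prod_pos (fun i _ => by positivity)
  have hPb : 0 < ∏ j, ((c j).factorial : ℝ) := Finset.prod_pos (fun j _ => by positivity)
  have hF : (0 : ℝ) < ((mass r).factorial : ℝ) := by positivity
  have e2 : 2 ^ mass r * (∏ i, ((r i).factorial : ℝ)) *
      ((1 / 2 : ℝ) ^ mass r * ((mass r).factorial : ℝ) /
        ((∏ i, ((r i).factorial : ℝ)) * ∏ j, ((c j).factorial : ℝ))) =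
      ((mass r).factorial : ℝ) / ∏ j, ((c j).factorial : ℝ) := by
    have h2 : (2 : ℝ) ^ mass r * (1 / 2 : ℝ) ^ mass r = 1 := by
      rw [← mul_pow]
      norm_num
    field_simp
    calc _ = (2 : ℝ) ^ mass r * (1 / 2 : ℝ) ^ mass r := by
            field_simp
      _ = 1 := h2
  rw [e2, le_div_iff₀ hPb]
  have h3 : (∑ V ∈ regS r c (mass r / 10), wt r c V) * ∏ j, ((c j).factorial : ℝ) ≤
      ((Tab r c).card : ℝ) * ∏ j, ((c j).factorial : ℝ) :=
    mul_le_mul_of_nonneg_right hsub hPb.le
  linarith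

/-- The law of the output at equilibrium of the layer chain. -/
noncomputable def nuLaw (r : Fin m → ℕ) (c : Fin n → ℕ) (T : Cell m n → ℕ) : ℝ :=
  ∑ W ∈ regS r c (mass r / 10), piW r c (mass r / 10) W * fy r c W T

include hN hsum hreg in
/-- The output law at equilibrium is exponentially close to uniform. -/
theorem tv_nu :
    (1 / 2) * ∑ T ∈ Tab r c, |nuLaw r c T - 1 / ((Tab r c).card : ℝ)| ≤
      4 / 2 ^ (mass r / 20) := by
  set S := regS r c (mass r / 10) with hS
  set Z := ∑ V ∈ S, wt r c V with hZdef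
  set Ω : ℝ := ((Tab r c).card : ℝ) with hΩdef
  have hZ : 0 < Z := sum_wt_pos (wall_le hN)
  have hsub : S ⊆ regS r c 0 := by
    intro W hW
    rw [mem_regS] at hW ⊢
    refine ⟨hW.1, hW.2.1, ?_⟩
    have := hW.2.2
    omega
  have hall : ∑ V ∈ regS r c 0, wt r c V = Ω := sum_wt hsum
  have hZΩ : Z ≤ Ω := by
    rw [← hall]
    exact Finset.sum_le_sum_of_subset_of_nonneg hsub (fun W _ _ => (wt_pos r c W).le)
  have hΩ : 0 < Ω := lt_of_lt_of_le hZ hZΩ
  -- the defect
  let d : (Cell m n → ℕ) → ℝ := fun T =>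
    ∑ W ∈ regS r c 0, wt r c W * fy r c W T - ∑ W ∈ S, wt r c W * fy r c W T
  have hd0 : ∀ T, 0 ≤ d T := by
    intro T
    simp only [d]
    have := Finset.sum_le_sum_of_subset_of_nonneg (f := fun W => wt r c W * fy r c W T) hsub
      (fun W _ _ => mul_nonneg (wt_pos r c W).le (fy_nonneg r c W T))
    linarith
  have hdsum : ∑ T ∈ Tab r c, d T = Ω - Z := by
    simp only [d]
    rw [Finset.sum_sub_distrib, Finset.sum_comm, Finset.sum_comm (s := Tab r c) (t := S)]
    have e1 : ∑ W ∈ regS r c 0, ∑ T ∈ Tab r c, wt r c W * fy r c W T = Ω := by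
      rw [← hall]
      refine Finset.sum_congr rfl (fun W hW => ?_)
      rw [← Finset.mul_sum, sum_fy hsum hW, mul_one]
    have e2 : ∑ W ∈ S, ∑ T ∈ Tab r c, wt r c W * fy r c W T = Z := by
      refine Finset.sum_congr rfl (fun W hW => ?_)
      rw [← Finset.mul_sum, sum_fy hsum hW, mul_one]
    rw [e1, e2]
  have hnu : ∀ T ∈ Tab r c, nuLaw r c T = (1 - d T) / Z := by
    intro T hT
    simp only [d]
    rw [sum_mu hT]
    have e3 : nuLaw r c T = (∑ W ∈ S, wt r c W * fy r c W T) / Z := by
      unfold nuLaw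
      rw [Finset.sum_div]
      refine Finset.sum_congr rfl (fun W hW => ?_)
      have e4 : piW r c (mass r / 10) W = wt r c W / Z := by
        unfold piW pw
        rw [if_pos hW]
      rw [e4]
      ring
    rw [e3]
    congr 1
    ring
  have hpt : ∀ T ∈ Tab r c, |nuLaw r c T - 1 / Ω| ≤ d T / Z + (1 / Z - 1 / Ω) := by
    intro T hT
    rw [hnu T hT]
    have h1 : 1 / Ω ≤ 1 / Z := one_div_le_one_div_of_le hZ hZΩ
    have h2 : 0 ≤ d T / Z := div_nonneg (hd0 T) hZ.le
    have e : (1 - d T) / Z - 1 / Ω = (1 / Z - 1 / Ω) - d T / Z := by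
      ring
    rw [e, abs_le]
    constructor <;> linarith
  have hsumpt : ∑ T ∈ Tab r c, |nuLaw r c T - 1 / Ω| ≤ 2 * ((Ω - Z) / Z) := by
    calc _ ≤ ∑ T ∈ Tab r c, (d T / Z + (1 / Z - 1 / Ω)) := Finset.sum_le_sum hpt
      _ = (Ω - Z) / Z + Ω * (1 / Z - 1 / Ω) := by
          rw [Finset.sum_add_distrib, ← Finset.sum_div, hdsum, Finset.sum_const, nsmul_eq_mul]
      _ = _ := by
          field_simp
          ring
  have hcut : Ω - Z ≤ 2 * Ω / 2 ^ (mass r / 20) := by
    have := cut_le (r := r) (c := c) hsum hreg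
    rw [hall] at this
    exact this
  have hpow : (4 : ℝ) ≤ 2 ^ (mass r / 20) := by
    have h1 : 2 ≤ mass r / 20 := by omega
    calc (4 : ℝ) = 2 ^ 2 := by norm_num
      _ ≤ _ := pow_le_pow_right₀ (by norm_num) h1
  have hpp : (0 : ℝ) < 2 ^ (mass r / 20) := by positivity
  have hcut2 : Ω - Z ≤ Ω / 2 := by
    have : 2 * Ω / 2 ^ (mass r / 20) ≤ 2 * Ω / 4 :=
      div_le_div_of_nonneg_left (by positivity) (by norm_num) hpow
    linarith
  have hZ2 : Ω / 2 ≤ Z := by linarith
  have hfin : (Ω - Z) / Z ≤ 4 / 2 ^ (mass r / 20) := by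
    rw [div_le_div_iff₀ hZ hpp]
    have h1 : (Ω - Z) * 2 ^ (mass r / 20) ≤ 2 * Ω := by
      have := mul_le_mul_of_nonneg_right hcut hpp.le
      rw [div_mul_cancel₀ _ hpp.ne'] at this
      exact this
    linarith
  linarith

include hN hsum hreg in
/-- The main bound for the sampler. -/
theorem tv_out (t : ℕ) :
    (1 / 2) * ∑ T ∈ Tab r c, |outLaw r c t T - 1 / ((Tab r c).card : ℝ)| ≤
      (1 / 2) * Real.sqrt ((1 - 1 / (24 * (mass r : ℝ))) ^ t * sizeQ r) +
        4 / 2 ^ (mass r / 20) := by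
  have hN' : (1000 : ℝ) ≤ mass r := by exact_mod_cast hN
  set S := regS r c (mass r / 10) with hS
  have h1 : ∀ T ∈ Tab r c, |outLaw r c t T - 1 / ((Tab r c).card : ℝ)| ≤
      |nuLaw r c T - 1 / ((Tab r c).card : ℝ)| +
        ∑ W ∈ S, |chainLaw r c t W - piW r c (mass r / 10) W| * fy r c W T := by
    intro T _
    have e : outLaw r c t T - nuLaw r c T =
        ∑ W ∈ S, (chainLaw r c t W - piW r c (mass r / 10) W) * fy r c W T := by
      unfold outLaw nuLaw
      rw [← Finset.sum_sub_distrib]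
      refine Finset.sum_congr rfl (fun W _ => ?_)
      ring
    have e2 : |outLaw r c t T - nuLaw r c T| ≤
        ∑ W ∈ S, |chainLaw r c t W - piW r c (mass r / 10) W| * fy r c W T := by
      rw [e]
      refine (Finset.abs_sum_le_sum_abs _ _).trans (le_of_eq ?_)
      refine Finset.sum_congr rfl (fun W _ => ?_)
      rw [abs_mul, abs_of_nonneg (fy_nonneg r c W T)]
    have e3 := abs_sub_le (outLaw r c t T) (nuLaw r c T) (1 / ((Tab r c).card : ℝ))
    rw [add_comm] at e3
    linarith
  have h2 : ∑ T ∈ Tab r c, ∑ W ∈ S, |chainLaw r c t W - piW r c (mass r / 10) W| * fy r c W T =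
      ∑ W ∈ S, |chainLaw r c t W - piW r c (mass r / 10) W| := by
    rw [Finset.sum_comm]
    refine Finset.sum_congr rfl (fun W hW => ?_)
    rw [← Finset.mul_sum, sum_fy hsum hW, mul_one]
  have h3 := tv_layer hsum hN hreg t
  have h4 := tv_nu hsum hN hreg
  have h5 : (1 / 2) * Real.sqrt ((1 - 1 / (24 * (mass r : ℝ))) ^ t *
      (1 / piW r c (mass r / 10) 0)) ≤
      (1 / 2) * Real.sqrt ((1 - 1 / (24 * (mass r : ℝ))) ^ t * sizeQ r) := by
    refine mul_le_mul_of_nonneg_left (Real.sqrt_le_sqrt ?_) (by norm_num)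
    refine mul_le_mul_of_nonneg_left (one_div_piW_le hsum hN) (pow_nonneg ?_ t)
    have : 1 / (24 * (mass r : ℝ)) ≤ 1 := by
      rw [div_le_one (by linarith)]
      linarith
    linarith
  have h6 : ∑ T ∈ Tab r c, |outLaw r c t T - 1 / ((Tab r c).card : ℝ)| ≤
      ∑ T ∈ Tab r c, |nuLaw r c T - 1 / ((Tab r c).card : ℝ)| +
        ∑ W ∈ S, |chainLaw r c t W - piW r c (mass r / 10) W| := by
    rw [← h2, ← Finset.sum_add_distrib]
    exact Finset.sum_le_sum h1
  linarith

include hN in
theorem sizeQ_le : sizeQ r ≤ (2 * (mass r : ℝ)) ^ mass r := by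
  unfold sizeQ
  rw [mul_pow]
  refine mul_le_mul_of_nonneg_left ?_ (by positivity)
  have h1 := Nat.prod_factorial_dvd_factorial_sum (univ : Finset (Fin m)) r
  have h2 := Nat.le_of_dvd (Nat.factorial_pos _) h1
  have h3 : (∑ i, r i).factorial ≤ (∑ i, r i) ^ (∑ i, r i) := Nat.factorial_le_pow _
  have h4 : ∏ i, (r i).factorial ≤ (mass r) ^ (mass r) := h2.trans h3
  have h5 : ((∏ i, (r i).factorial : ℕ) : ℝ) ≤ (((mass r) ^ (mass r) : ℕ) : ℝ) := by
    exact_mod_cast h4
  push_cast at h5
  exact h5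

include hN in
/-- The explicit form of the decay: polynomially many steps suffice. -/
theorem decay_le {ε : ℝ} (hε : 0 < ε) (hε1 : ε ≤ 1) {t : ℕ}
    (ht : 24 * (mass r : ℝ) * ((mass r : ℝ) * Real.log (2 * (mass r : ℝ)) + 2 * Real.log (1 / ε)) ≤
      (t : ℝ)) :
    Real.sqrt ((1 - 1 / (24 * (mass r : ℝ))) ^ t * sizeQ r) ≤ ε := by
  have hN' : (1000 : ℝ) ≤ mass r := by exact_mod_cast hN
  have hNpos : (0 : ℝ) < mass r := by linarith
  set x : ℝ := 1 / (24 * (mass r : ℝ)) with hx
  have hx0 : 0 ≤ x := by positivity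
  have hx1 : x ≤ 1 := by
    rw [hx, div_le_one (by linarith)]
    linarith
  have h1 : (1 - x) ^ t ≤ Real.exp (- (x * t)) := by
    have h2 : 1 - x ≤ Real.exp (-x) := Real.one_sub_le_exp_neg x
    calc (1 - x) ^ t ≤ Real.exp (-x) ^ t := pow_le_pow_left₀ (by linarith) h2 t
      _ = _ := by
          rw [← Real.exp_nat_mul]
          congr 1
          ring
  set A : ℝ := (mass r : ℝ) * Real.log (2 * (mass r : ℝ)) with hA
  set B : ℝ := 2 * Real.log (1 / ε) with hB
  have h3 : A + B ≤ x * t := by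
    have h4 : x * (24 * (mass r : ℝ) * (A + B)) ≤ x * t := mul_le_mul_of_nonneg_left ht hx0
    have h5 : x * (24 * (mass r : ℝ) * (A + B)) = A + B := by
      rw [hx]
      field_simp
    linarith
  have h6 : Real.exp (- (x * t)) ≤ Real.exp (-(A + B)) := by
    apply Real.exp_le_exp.2
    linarith
  have hexpA : Real.exp A = (2 * (mass r : ℝ)) ^ mass r := by
    rw [hA, Real.exp_nat_mul, Real.exp_log (by linarith)]
  have hexpB : Real.exp (-B) = ε ^ 2 := by
    have h7 : -B = ((2 : ℕ) : ℝ) * Real.log ε := by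
      rw [hB, one_div, Real.log_inv]
      push_cast
      ring
    rw [h7, Real.exp_nat_mul, Real.exp_log hε]
  have h8 : (1 - x) ^ t * sizeQ r ≤ ε ^ 2 := by
    have hQ := sizeQ_le (r := r) hN
    have hQ0 : 0 ≤ sizeQ r := by
      unfold sizeQ
      exact mul_nonneg (by positivity) (Finset.prod_nonneg (fun i _ => by positivity))
    calc (1 - x) ^ t * sizeQ r ≤ Real.exp (-(A + B)) * sizeQ r :=
          mul_le_mul_of_nonneg_right (h1.trans h6) hQ0
      _ ≤ Real.exp (-(A + B)) * (2 * (mass r : ℝ)) ^ mass r :=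
          mul_le_mul_of_nonneg_left hQ (Real.exp_pos _).le
      _ = Real.exp (-(A + B)) * Real.exp A := by rw [hexpA]
      _ = Real.exp (-B) := by
          rw [← Real.exp_add]
          congr 1
          ring
      _ = _ := hexpB
  calc _ ≤ Real.sqrt (ε ^ 2) := Real.sqrt_le_sqrt h8
    _ = ε := Real.sqrt_sq hε.le

include hN hreg hsum in
/-- The regime forces the total to be polynomial in the dimensions. -/
theorem total_le_dims : 100 * mass r ≤ m * n := by
  have h1 : mass r * mass c = ∑ i, ∑ j, r i * c j := by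
    unfold mass
    rw [Finset.sum_mul_sum]
  have h2 : 100 * (mass r * mass c) ≤ m * n * mass r := by
    rw [h1, Finset.mul_sum]
    calc ∑ i, 100 * ∑ j, r i * c j ≤ ∑ i : Fin m, n * mass r := by
          refine Finset.sum_le_sum (fun i _ => ?_)
          rw [Finset.mul_sum]
          calc ∑ j, 100 * (r i * c j) ≤ ∑ _j : Fin n, mass r :=
                Finset.sum_le_sum (fun j _ => hreg i j)
            _ = n * mass r := by simp
      _ = m * n * mass r := by
          simp
          ring
  rw [← hsum] at h2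
  have h3 : 0 < mass r := by omega
  have h4 : 100 * mass r * mass r ≤ m * n * mass r := by
    calc _ = 100 * (mass r * mass r) := by ring
      _ ≤ _ := h2
  exact Nat.le_of_mul_le_mul_right h4 h3

end Main

end Vale.Agent.Lib.P328W
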