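import Vale.Agent.Lib.P328W.Defs

/-!
The partial sums of the exponential series at `-1/2`.
-/

namespace Vale.Agent.Lib.P328W

open Finset

/-- The size of the `k`-th term. -/
noncomputable def ee (k : ℕ) : ℝ := (1 / 2 : ℝ) ^ k / (k.factorial : ℝ)

theorem ee_pos (k : ℕ) : 0 < ee k := by
  unfold ee
  positivity

theorem ee_succ (k : ℕ) : ((k : ℝ) + 1) * ee (k + 1) = (1 / 2) * ee k := by
  unfold ee
  rw [Nat.factorial_succ, pow_succ]
  push_cast
  have : (k.factorial : ℝ) ≠ 0 := by positivity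
  field_simp

theorem ee_succ_le (k : ℕ) : ee (k + 1) ≤ ee k := by
  have h := ee_succ k
  have hk := ee_pos k
  have hk1 := ee_pos (k + 1)
  have hc : (0 : ℝ) ≤ k := Nat.cast_nonneg k
  nlinarith

theorem ee_anti {a b : ℕ} (h : a ≤ b) : ee b ≤ ee a := by
  induction b, h using Nat.le_induction with
  | base => exact le_rfl
  | succ b _ ih => exact (ee_succ_le b).trans ih

theorem G_succ (w : ℕ) : G (w + 1) = G w + (-1 / 2 : ℝ) ^ (w + 1) / ((w + 1).factorial : ℝ) := by
  unfold G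
  rw [Finset.sum_range_succ]

theorem G_succ_odd (k : ℕ) : G (2 * k + 2) = G (2 * k + 1) + ee (2 * k + 2) := by
  have : 2 * k + 2 = (2 * k + 1) + 1 := by ring
  rw [this, G_succ]
  unfold ee
  congr 1
  have h2 : (-1 / 2 : ℝ) ^ (2 * k + 1 + 1) = (1 / 2) ^ (2 * k + 1 + 1) := by
    have : (-1 / 2 : ℝ) = -(1 / 2) := by ring
    rw [this]
    apply Even.neg_pow
    exact ⟨k + 1, by ring⟩
  rw [h2]

theorem G_succ_even (k : ℕ) : G (2 * k + 3) = G (2 * k + 2) - ee (2 * k + 3) := by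
  have : 2 * k + 3 = (2 * k + 2) + 1 := by ring
  rw [this, G_succ]
  unfold ee
  have h2 : (-1 / 2 : ℝ) ^ (2 * k + 2 + 1) = - (1 / 2) ^ (2 * k + 2 + 1) := by
    have : (-1 / 2 : ℝ) = -(1 / 2) := by ring
    rw [this]
    apply Odd.neg_pow
    exact ⟨k + 1, by ring⟩
  rw [h2]
  ring

theorem G_zero : G 0 = 1 := by
  simp [G]

theorem G_one : G 1 = 1 / 2 := by
  simp [G, Finset.sum_range_succ]
  norm_num

theorem G_two : G 2 = 5 / 8 := by
  simp [G, Finset.sum_range_succ, Nat.factorial]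
  norm_num

theorem ee_two : ee 2 = 1 / 8 := by
  simp [ee, Nat.factorial]
  norm_num

theorem ee_one : ee 1 = 1 / 2 := by
  simp [ee]

theorem ee_zero : ee 0 = 1 := by
  simp [ee]

theorem G_bounds_aux (k : ℕ) :
    (1 / 2 ≤ G (2 * k + 1) ∧ G (2 * k + 1) + ee (2 * k + 2) ≤ 5 / 8) ∧
      (1 / 2 + ee (2 * k + 3) ≤ G (2 * k + 2) ∧ G (2 * k + 2) ≤ 5 / 8) := by
  induction k with
  | zero =>
    refine ⟨⟨?_, ?_⟩, ?_, ?_⟩
    · simp [G_one]
    · simp only [Nat.mul_zero, Nat.zero_add]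
      rw [G_one, ee_two]
      norm_num
    · have h1 : ee 3 ≤ ee 2 := ee_anti (by norm_num)
      rw [ee_two] at h1
      simp only [Nat.mul_zero, Nat.zero_add]
      rw [G_two]
      linarith
    · simp only [Nat.mul_zero, Nat.zero_add]
      rw [G_two]
  | succ k ih =>
    obtain ⟨⟨h1, h2⟩, h3, h4⟩ := ih
    have e1 : 2 * (k + 1) + 1 = 2 * k + 3 := by ring
    have e2 : 2 * (k + 1) + 2 = 2 * k + 4 := by ring
    have e3 : 2 * (k + 1) + 3 = 2 * k + 5 := by ring
    rw [e1, e2, e3]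
    have g1 : G (2 * k + 3) = G (2 * k + 2) - ee (2 * k + 3) := G_succ_even k
    have g2 : G (2 * k + 4) = G (2 * k + 3) + ee (2 * k + 4) := by
      have := G_succ_odd (k + 1)
      rwa [e1, e2] at this
    have a1 : ee (2 * k + 4) ≤ ee (2 * k + 3) := ee_anti (by omega)
    have a2 : ee (2 * k + 5) ≤ ee (2 * k + 4) := ee_anti (by omega)
    refine ⟨⟨?_, ?_⟩, ?_, ?_⟩
    · linarith
    · linarith
    · linarith
    · linarith

theorem G_ge_half (w : ℕ) : 1 / 2 ≤ G w := by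
  rcases Nat.even_or_odd' w with ⟨k, hk | hk⟩
  · rcases k with _ | k
    · subst hk
      simp [G_zero]
      norm_num
    · have := (G_bounds_aux k).2.1
      have h2 := ee_pos (2 * k + 3)
      have e : w = 2 * k + 2 := by omega
      rw [e]
      linarith
  · have := (G_bounds_aux k).1.1
    rw [hk]
    exact this

theorem G_pos (w : ℕ) : 0 < G w := lt_of_lt_of_le (by norm_num) (G_ge_half w)

theorem abs_G_succ_sub (w : ℕ) : |G (w + 1) - G w| = ee (w + 1) := by
  rw [G_succ]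
  have : G w + (-1 / 2 : ℝ) ^ (w + 1) / ((w + 1).factorial : ℝ) - G w =
      (-1 / 2 : ℝ) ^ (w + 1) / ((w + 1).factorial : ℝ) := by ring
  rw [this, abs_div, abs_pow]
  have h1 : |(-1 / 2 : ℝ)| = 1 / 2 := by
    rw [abs_of_neg (by norm_num)]
    norm_num
  rw [h1]
  unfold ee
  congr 1
  exact abs_of_pos (by positivity)

/-- The ratio of consecutive values. -/
noncomputable def gam (w : ℕ) : ℝ := G (w + 1) / G w

theorem gam_pos (w : ℕ) : 0 < gam w := div_pos (G_pos _) (G_pos _)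

theorem abs_gam_sub_one (w : ℕ) : |gam w - 1| ≤ 2 * ee (w + 1) := by
  have hG := G_pos w
  have h1 : gam w - 1 = (G (w + 1) - G w) / G w := by
    unfold gam
    field_simp
  rw [h1, abs_div, abs_G_succ_sub, abs_of_pos hG, div_le_iff₀ hG]
  have h2 := G_ge_half w
  have h3 := ee_pos (w + 1)
  nlinarith

theorem gam_le (w : ℕ) : gam w ≤ 5 / 4 := by
  rcases w with _ | w
  · unfold gam
    simp [G_zero, G_one]
    norm_num
  · have h1 := abs_gam_sub_one (w + 1)
    have h2 : ee (w + 1 + 1) ≤ ee 2 := ee_anti (by omega)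
    rw [ee_two] at h2
    have h3 := (abs_le.1 h1).2
    linarith

/-- The discrete derivative which enters the curvature. -/
noncomputable def Aw (w : ℕ) : ℝ := ((w : ℝ) + 2) * gam (w + 1) - ((w : ℝ) + 1) * gam w

theorem abs_Aw_le (w : ℕ) : |Aw w| ≤ 2 := by
  rcases w with _ | w
  · unfold Aw gam
    simp [G_zero, G_one, G_two]
    norm_num
  · have hs1 := ee_succ (w + 1)
    have hs2 := ee_succ (w + 1 + 1)
    push_cast at hs1 hs2
    have h1 := abs_gam_sub_one (w + 1)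
    have h2 := abs_gam_sub_one (w + 1 + 1)
    have hc : (0 : ℝ) ≤ w := Nat.cast_nonneg w
    have a1 : ee (w + 1) ≤ ee 1 := ee_anti (by omega)
    have a2 : ee (w + 1 + 1) ≤ ee 2 := ee_anti (by omega)
    rw [ee_one] at a1
    rw [ee_two] at a2
    obtain ⟨h1l, h1u⟩ := abs_le.1 h1
    obtain ⟨h2l, h2u⟩ := abs_le.1 h2
    unfold Aw
    push_cast
    set g1 := gam (w + 1)
    set g2 := gam (w + 1 + 1)
    set E1 := ee (w + 1 + 1)
    set E2 := ee (w + 1 + 1 + 1)
    have b1 : ((w : ℝ) + 1 + 1) * |g1 - 1| ≤ ((w : ℝ) + 1 + 1) * (2 * E1) :=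
      mul_le_mul_of_nonneg_left h1 (by positivity)
    have b2 : ((w : ℝ) + 1 + 2) * |g2 - 1| ≤ ((w : ℝ) + 1 + 2) * (2 * E2) :=
      mul_le_mul_of_nonneg_left h2 (by positivity)
    have c1 : ((w : ℝ) + 1 + 1) * (2 * E1) ≤ 1 / 2 := by
      have : ((w : ℝ) + 1 + 1) * E1 = (1 / 2) * ee (w + 1) := by
        simpa using hs1
      nlinarith
    have c2 : ((w : ℝ) + 1 + 2) * (2 * E2) ≤ 1 / 8 := by
      have : ((w : ℝ) + 1 + 1 + 1) * E2 = (1 / 2) * E1 := by
        simpa using hs2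
      nlinarith
    rw [abs_le]
    have d1 := abs_le.1 (le_refl |g1 - 1|)
    have d2 := abs_le.1 (le_refl |g2 - 1|)
    have p1 : (0 : ℝ) ≤ (w : ℝ) + 1 + 1 := by positivity
    have p2 : (0 : ℝ) ≤ (w : ℝ) + 1 + 2 := by positivity
    constructor
    · nlinarith [mul_le_mul_of_nonneg_left d1.2 p1, mul_le_mul_of_nonneg_left d2.1 p2,
        mul_le_mul_of_nonneg_left d1.1 p1, mul_le_mul_of_nonneg_left d2.2 p2]
    · nlinarith [mul_le_mul_of_nonneg_left d1.2 p1, mul_le_mul_of_nonneg_left d2.1 p2,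
        mul_le_mul_of_nonneg_left d1.1 p1, mul_le_mul_of_nonneg_left d2.2 p2]

/-- The convolution identity: the Poisson layer and the weight `G` make up the uniform weight. -/
theorem conv_one (a : ℕ) :
    ∑ w ∈ range (a + 1), G w * ((1 / 2 : ℝ) ^ (a - w) / ((a - w).factorial : ℝ)) = 1 := by
  induction a with
  | zero => simp [G_zero]
  | succ a ih =>
    rw [Finset.sum_range_succ']
    have e1 : ∑ w ∈ range (a + 1), G (w + 1) * ((1 / 2 : ℝ) ^ (a + 1 - (w + 1)) /
        ((a + 1 - (w + 1)).factorial : ℝ)) =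
        ∑ w ∈ range (a + 1), G w * ((1 / 2 : ℝ) ^ (a - w) / ((a - w).factorial : ℝ)) +
        ∑ w ∈ range (a + 1), ((-1 / 2 : ℝ) ^ (w + 1) / ((w + 1).factorial : ℝ)) *
          ((1 / 2 : ℝ) ^ (a - w) / ((a - w).factorial : ℝ)) := by
      rw [← Finset.sum_add_distrib]
      refine Finset.sum_congr rfl (fun w _ => ?_)
      rw [G_succ, Nat.add_sub_add_right]
      ring
    rw [e1, ih, G_zero]
    -- the remaining sum is a binomial sum
    have hbin : ∑ k ∈ range (a + 2), ((-1 / 2 : ℝ) ^ k / (k.factorial : ℝ)) *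
        ((1 / 2 : ℝ) ^ (a + 1 - k) / ((a + 1 - k).factorial : ℝ)) = 0 := by
      have h1 := add_pow (-1 / 2 : ℝ) (1 / 2) (a + 1)
      have h2 : (-1 / 2 + 1 / 2 : ℝ) ^ (a + 1) = 0 := by
        norm_num
      rw [h2] at h1
      have h3 : ∑ k ∈ range (a + 2), ((-1 / 2 : ℝ) ^ k / (k.factorial : ℝ)) *
          ((1 / 2 : ℝ) ^ (a + 1 - k) / ((a + 1 - k).factorial : ℝ)) =
          (∑ k ∈ range (a + 1 + 1), (-1 / 2 : ℝ) ^ k * (1 / 2) ^ (a + 1 - k) *
            ((a + 1).choose k : ℝ)) / ((a + 1).factorial : ℝ) := by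
        rw [Finset.sum_div]
        refine Finset.sum_congr rfl (fun k hk => ?_)
        have hk' : k ≤ a + 1 := by
          have := Finset.mem_range.1 hk
          omega
        rw [Nat.cast_choose ℝ hk']
        have h4 : (k.factorial : ℝ) ≠ 0 := by positivity
        have h5 : ((a + 1 - k).factorial : ℝ) ≠ 0 := by positivity
        have h6 : ((a + 1).factorial : ℝ) ≠ 0 := by positivity
        field_simp
      rw [h3, ← h1]
      simp
    rw [Finset.sum_range_succ'] at hbin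
    simp only [pow_zero, Nat.factorial_zero, Nat.cast_one, div_one, one_mul, Nat.sub_zero] at hbin
    have e2 : ∑ k ∈ range (a + 1), ((-1 / 2 : ℝ) ^ (k + 1) / ((k + 1).factorial : ℝ)) *
        ((1 / 2 : ℝ) ^ (a + 1 - (k + 1)) / ((a + 1 - (k + 1)).factorial : ℝ)) =
        ∑ w ∈ range (a + 1), ((-1 / 2 : ℝ) ^ (w + 1) / ((w + 1).factorial : ℝ)) *
          ((1 / 2 : ℝ) ^ (a - w) / ((a - w).factorial : ℝ)) := by
      refine Finset.sum_congr rfl (fun k _ => ?_)
      rw [Nat.add_sub_add_right]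
    rw [e2] at hbin
    simp only [Nat.sub_zero]
    linarith

end Vale.Agent.Lib.P328W
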