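import Vale.Agent.Lib.P328W.Abstract
import Vale.Agent.Lib.P335.Spectral

/-!
From the Bochner inequality to the Poincare inequality for the birth and death dynamics.
-/

set_option linter.unusedSectionVars false
set_option linter.unusedSimpArgs false
set_option linter.unusedVariables false

namespace Vale.Agent.Lib.P328W

open Finset
open Vale.Agent.Lib.P335 (dot dot_comm exists_eigenbasis parseval_of_expansion dot_congr
  dot_smul_right)

variable {A : Type*} [Fintype A] [DecidableEq A]
variable {S : Finset (A → ℕ)} {p : (A → ℕ) → ℝ}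

/-- The Dirichlet form. -/
noncomputable def dir (p : (A → ℕ) → ℝ) (S : Finset (A → ℕ)) (f k : (A → ℕ) → ℝ) : ℝ :=
  ∑ W ∈ S, ∑ α, cond p W α * grad f W α * grad k W α

theorem dir_comm (f k : (A → ℕ) → ℝ) : dir p S f k = dir p S k f := by
  unfold dir
  refine Finset.sum_congr rfl (fun W _ => Finset.sum_congr rfl (fun α _ => ?_))
  ring

theorem Setup.dir_self_nonneg (h : Setup S p) (f : (A → ℕ) → ℝ) : 0 ≤ dir p S f f := by
  unfold dir
  refine Finset.sum_nonneg (fun W _ => Finset.sum_nonneg (fun α _ => ?_))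
  have := h.cond_nonneg W α
  have h2 := mul_self_nonneg (grad f W α)
  calc 0 ≤ cond p W α * (grad f W α * grad f W α) := mul_nonneg this h2
    _ = _ := by ring

theorem Setup.up_mem_of_cond_ne (h : Setup S p) {W : A → ℕ} {α : A} (hc : cond p W α ≠ 0) :
    W + e α ∈ S := by
  by_contra h2
  apply hc
  simp [cond, h.zero _ h2]

theorem Setup.rate_eq_zero (h : Setup S p) {W : A → ℕ} {α : A} (hn : W + e α ∉ S) :
    rate p W α = 0 := by
  simp [rate, cond, h.zero _ hn]

/-- The generator only sees values on `S`. -/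
theorem Setup.gen_congr (h : Setup S p) {f k : (A → ℕ) → ℝ} (hfk : ∀ x ∈ S, f x = k x)
    {W : A → ℕ} (hW : W ∈ S) : gen p f W = gen p k W := by
  unfold gen
  congr 1
  · refine Finset.sum_congr rfl (fun α _ => ?_)
    by_cases hn : W + e α ∈ S
    · unfold grad
      rw [hfk _ hn, hfk _ hW]
    · rw [h.rate_eq_zero hn]
      simp
  · refine Finset.sum_congr rfl (fun α _ => ?_)
    by_cases hw : 1 ≤ W α
    · unfold grad
      rw [sub_e_add_e W hw, hfk _ hW, hfk _ (h.down W hW α hw)]
    · have : W α = 0 := by omega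
      simp [this]

theorem Setup.dir_congr (h : Setup S p) {f k f' k' : (A → ℕ) → ℝ} (hf : ∀ x ∈ S, f x = f' x)
    (hk : ∀ x ∈ S, k x = k' x) : dir p S f k = dir p S f' k' := by
  unfold dir
  refine Finset.sum_congr rfl (fun W hW => Finset.sum_congr rfl (fun α _ => ?_))
  by_cases hn : W + e α ∈ S
  · unfold grad
    rw [hf _ hn, hf _ hW, hk _ hn, hk _ hW]
  · simp [cond, h.zero _ hn]

theorem gen_add (f k : (A → ℕ) → ℝ) (W : A → ℕ) :
    gen p (fun y => f y + k y) W = gen p f W + gen p k W := by
  unfold gen grad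
  have e1 : ∑ α, rate p W α * ((f (W + e α) + k (W + e α)) - (f W + k W)) =
      ∑ α, rate p W α * (f (W + e α) - f W) + ∑ α, rate p W α * (k (W + e α) - k W) := by
    rw [← Finset.sum_add_distrib]
    exact Finset.sum_congr rfl (fun α _ => by ring)
  have e2 : ∑ α, (W α : ℝ) * ((f (W - e α + e α) + k (W - e α + e α)) -
        (f (W - e α) + k (W - e α))) =
      ∑ α, (W α : ℝ) * (f (W - e α + e α) - f (W - e α)) +
        ∑ α, (W α : ℝ) * (k (W - e α + e α) - k (W - e α)) := by
    rw [← Finset.sum_add_distrib]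
    exact Finset.sum_congr rfl (fun α _ => by ring)
  simp only []
  rw [e1, e2]
  ring

theorem gen_smul (c : ℝ) (f : (A → ℕ) → ℝ) (W : A → ℕ) :
    gen p (fun y => c * f y) W = c * gen p f W := by
  unfold gen grad
  rw [mul_sub, Finset.mul_sum, Finset.mul_sum]
  congr 1 <;> refine Finset.sum_congr rfl (fun α _ => ?_) <;> ring

theorem gen_const (k : ℝ) (W : A → ℕ) : gen p (fun _ => k) W = 0 := by
  unfold gen grad
  simp

/-- Division by the root of the weight. -/
noncomputable def tld (p : (A → ℕ) → ℝ) (f : (A → ℕ) → ℝ) : (A → ℕ) → ℝ :=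
  fun y => f y / Real.sqrt (p y)

/-- The symmetrised operator. -/
noncomputable def symOp (p : (A → ℕ) → ℝ) (f : (A → ℕ) → ℝ) : (A → ℕ) → ℝ :=
  fun W => - (Real.sqrt (p W) * gen p (tld p f) W)

theorem Setup.sqrt_pos (h : Setup S p) {W : A → ℕ} (hW : W ∈ S) : 0 < Real.sqrt (p W) :=
  Real.sqrt_pos.2 (h.pos W hW)

theorem Setup.sqrt_mul_self (h : Setup S p) {W : A → ℕ} (hW : W ∈ S) :
    Real.sqrt (p W) * Real.sqrt (p W) = p W :=
  Real.mul_self_sqrt (h.pos W hW).le

theorem Setup.dot_symOp (h : Setup S p) (f k : (A → ℕ) → ℝ) :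
    dot S k (symOp p f) = dir p S (tld p f) (tld p k) := by
  have h1 := sum_mul_gen h (tld p f) (tld p k)
  have h2 : dot S k (symOp p f) = - ∑ W ∈ S, p W * tld p k W * gen p (tld p f) W := by
    unfold dot symOp
    rw [← Finset.sum_neg_distrib]
    refine Finset.sum_congr rfl (fun W hW => ?_)
    have hs := h.sqrt_pos hW
    have hm := h.sqrt_mul_self hW
    unfold tld
    field_simp
    rw [Real.sq_sqrt (h.pos W hW).le]
    ring
  rw [h2, h1]
  simp [dir]

theorem Setup.dot_symOp_symOp (h : Setup S p) (f : (A → ℕ) → ℝ) :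
    dot S (symOp p f) (symOp p f) = ∑ W ∈ S, p W * gen p (tld p f) W ^ 2 := by
  unfold dot symOp
  refine Finset.sum_congr rfl (fun W hW => ?_)
  have hm := h.sqrt_mul_self hW
  calc _ = (Real.sqrt (p W) * Real.sqrt (p W)) * gen p (tld p f) W ^ 2 := by ring
    _ = _ := by rw [hm]

/-- Harmonic functions are constant. -/
theorem Setup.const_of_dir_zero (h : Setup S p) (h0 : (0 : A → ℕ) ∈ S) {f : (A → ℕ) → ℝ}
    (hd : dir p S f f = 0) : ∀ W ∈ S, f W = f 0 := by
  have hterm : ∀ W ∈ S, ∀ α, cond p W α * grad f W α * grad f W α = 0 := by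
    intro W hW α
    have h1 : ∀ W ∈ S, 0 ≤ ∑ α, cond p W α * grad f W α * grad f W α := by
      intro W _
      refine Finset.sum_nonneg (fun α _ => ?_)
      have := h.cond_nonneg W α
      have h2 := mul_self_nonneg (grad f W α)
      calc 0 ≤ cond p W α * (grad f W α * grad f W α) := mul_nonneg this h2
        _ = _ := by ring
    have h2 := (Finset.sum_eq_zero_iff_of_nonneg h1).1 hd W hW
    refine (Finset.sum_eq_zero_iff_of_nonneg (fun α _ => ?_)).1 h2 α (mem_univ α)
    have := h.cond_nonneg W α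
    have h2 := mul_self_nonneg (grad f W α)
    calc 0 ≤ cond p W α * (grad f W α * grad f W α) := mul_nonneg this h2
      _ = _ := by ring
  have hstep : ∀ W ∈ S, ∀ α, 1 ≤ W α → f W = f (W - e α) := by
    intro W hW α hw
    have hW' := h.down W hW α hw
    have h1 := hterm _ hW' α
    have hc : cond p (W - e α) α ≠ 0 := by
      unfold cond
      rw [sub_e_add_e W hw]
      have := h.pos W hW
      positivity
    have h2 : grad f (W - e α) α = 0 := by
      rcases mul_eq_zero.1 h1 with h3 | h3
      · rcases mul_eq_zero.1 h3 with h4 | h4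
        · exact absurd h4 hc
        · exact h4
      · exact h3
    unfold grad at h2
    rw [sub_e_add_e W hw] at h2
    linarith
  have hind : ∀ n : ℕ, ∀ W ∈ S, ∑ α, W α = n → f W = f 0 := by
    intro n
    induction n with
    | zero =>
      intro W _ hs
      have : W = 0 := by
        funext α
        have := (Finset.sum_eq_zero_iff_of_nonneg (fun α _ => Nat.zero_le (W α))).1 hs α (mem_univ α)
        simpa using this
      rw [this]
    | succ n ih =>
      intro W hW hs
      have : ∃ α, 1 ≤ W α := by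
        by_contra hcon
        push Not at hcon
        have h2 : ∑ α, W α = 0 := Finset.sum_eq_zero (fun α _ => by have := hcon α; omega)
        omega
      obtain ⟨α, hα⟩ := this
      rw [hstep W hW α hα]
      refine ih _ (h.down W hW α hα) ?_
      have h3 : ∑ β, (W - e α + e α) β = n + 1 := by
        rw [sub_e_add_e W hα, hs]
      have h4 : ∑ β, (W - e α + e α) β = ∑ β, (W - e α) β + ∑ β, (e α) β := by
        simp only [Pi.add_apply, Finset.sum_add_distrib]
      have h5 : ∑ β, (e α : A → ℕ) β = 1 := by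
        simp [e]
      omega
  intro W hW
  exact hind _ W hW rfl

/-- The weighted mean. -/
noncomputable def wmean (p : (A → ℕ) → ℝ) (S : Finset (A → ℕ)) (f : (A → ℕ) → ℝ) : ℝ :=
  (∑ W ∈ S, p W * f W) / ∑ W ∈ S, p W

theorem Setup.sum_pos (h : Setup S p) (h0 : (0 : A → ℕ) ∈ S) : 0 < ∑ W ∈ S, p W :=
  Finset.sum_pos (fun W hW => h.pos W hW) ⟨0, h0⟩

theorem Setup.sum_mul_sub_wmean (h : Setup S p) (h0 : (0 : A → ℕ) ∈ S) (f : (A → ℕ) → ℝ) :
    ∑ W ∈ S, p W * (f W - wmean p S f) = 0 := by
  have hz := h.sum_pos h0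
  simp only [mul_sub]
  rw [Finset.sum_sub_distrib, ← Finset.sum_mul]
  unfold wmean
  field_simp
  ring

/-- The Poincare inequality from the Bochner inequality. -/
theorem Setup.poincare (h : Setup S p) (h0 : (0 : A → ℕ) ∈ S) {κ : ℝ} (hκ : 0 < κ)
    (hB : ∀ f : (A → ℕ) → ℝ, κ * dir p S f f ≤ ∑ W ∈ S, p W * gen p f W ^ 2)
    (f : (A → ℕ) → ℝ) :
    κ * ∑ W ∈ S, p W * (f W - wmean p S f) ^ 2 ≤ dir p S f f := by
  have hadd : ∀ f g : (A → ℕ) → ℝ, ∀ x ∈ S,
      symOp p (fun y => f y + g y) x = symOp p f x + symOp p g x := by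
    intro f g x _
    unfold symOp
    have : tld p (fun y => f y + g y) = fun y => tld p f y + tld p g y := by
      funext y
      simp [tld, add_div]
    rw [this, gen_add]
    ring
  have hsmul : ∀ (c : ℝ) (f : (A → ℕ) → ℝ), ∀ x ∈ S,
      symOp p (fun y => c * f y) x = c * symOp p f x := by
    intro c f x _
    unfold symOp
    have : tld p (fun y => c * f y) = fun y => c * tld p f y := by
      funext y
      simp [tld, mul_div_assoc]
    rw [this, gen_smul]
    ring
  have hcongr : ∀ f g : (A → ℕ) → ℝ, (∀ x ∈ S, f x = g x) → ∀ x ∈ S,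
      symOp p f x = symOp p g x := by
    intro f g hfg x hx
    unfold symOp
    rw [h.gen_congr (f := tld p f) (k := tld p g) (fun y hy => by simp [tld, hfg y hy]) hx]
  have hsym : ∀ f g : (A → ℕ) → ℝ, dot S (symOp p f) g = dot S f (symOp p g) := by
    intro f g
    rw [dot_comm, h.dot_symOp, h.dot_symOp, dir_comm]
  obtain ⟨M, ee, lam, hon, heig, hexp⟩ := exists_eigenbasis S (symOp p) hadd hsmul hcongr hsym
  have hpar := parseval_of_expansion hexp
  have hTe : ∀ i g, dot S g (symOp p (ee i)) = lam i * dot S g (ee i) := by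
    intro i g
    have : dot S g (symOp p (ee i)) = dot S g (fun x => lam i * ee i x) :=
      dot_congr (fun _ _ => rfl) (fun x hx => heig i x hx)
    rw [this, dot_smul_right]
  have hlam : ∀ i, dot S (ee i) (symOp p (ee i)) = lam i := by
    intro i
    rw [hTe, hon]
    simp
  have hlam2 : ∀ i, dot S (symOp p (ee i)) (symOp p (ee i)) = lam i ^ 2 := by
    intro i
    rw [hTe, hsym, hTe, hon]
    simp
    ring
  have hdich : ∀ i, lam i = 0 ∨ κ ≤ lam i := by
    intro i
    by_cases h00 : lam i = 0
    · exact Or.inl h00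
    · right
      have h1 := hB (tld p (ee i))
      rw [← h.dot_symOp_symOp, ← h.dot_symOp, hlam, hlam2] at h1
      have h2 := h.dir_self_nonneg (tld p (ee i))
      rw [← h.dot_symOp, hlam] at h2
      have h3 : 0 < lam i := lt_of_le_of_ne h2 (Ne.symm h00)
      have : κ * lam i ≤ lam i * lam i := by nlinarith
      exact le_of_mul_le_mul_right this h3
  -- the vector of interest
  set m := wmean p S f with hm
  let v : (A → ℕ) → ℝ := fun W => Real.sqrt (p W) * (f W - m)
  have htv : ∀ x ∈ S, tld p v x = f x - m := by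
    intro x hx
    have := h.sqrt_pos hx
    simp only [tld, v]
    field_simp
  have hzero : ∀ i, lam i = 0 → dot S v (ee i) = 0 := by
    intro i h00
    have hd : dir p S (tld p (ee i)) (tld p (ee i)) = 0 := by
      rw [← h.dot_symOp, hlam, h00]
    have hc := h.const_of_dir_zero h0 hd
    have : dot S v (ee i) = tld p (ee i) 0 * ∑ W ∈ S, p W * (f W - m) := by
      unfold dot
      rw [Finset.mul_sum]
      refine Finset.sum_congr rfl (fun W hW => ?_)
      have h1 := hc W hW
      have hs := h.sqrt_pos hW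
      have h2 : ee i W = tld p (ee i) 0 * Real.sqrt (p W) := by
        rw [← h1]
        simp only [tld]
        field_simp
      rw [h2]
      simp only [v]
      have hmm := h.sqrt_mul_self hW
      calc _ = tld p (ee i) 0 * (Real.sqrt (p W) * Real.sqrt (p W)) * (f W - m) := by ring
        _ = _ := by rw [hmm]; ring
    rw [this, hm, h.sum_mul_sub_wmean h0 f]
    simp
  have hLHS : dot S v v = ∑ i, dot S v (ee i) ^ 2 := by
    rw [hpar]
    exact Finset.sum_congr rfl (fun i _ => by ring)
  have hRHS : dot S v (symOp p v) = ∑ i, lam i * dot S v (ee i) ^ 2 := by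
    rw [hpar]
    refine Finset.sum_congr rfl (fun i _ => ?_)
    have : dot S (symOp p v) (ee i) = lam i * dot S v (ee i) := by
      rw [hsym, hTe]
    rw [this]
    ring
  have hvv : dot S v v = ∑ W ∈ S, p W * (f W - m) ^ 2 := by
    unfold dot
    refine Finset.sum_congr rfl (fun W hW => ?_)
    simp only [v]
    have hmm := h.sqrt_mul_self hW
    calc _ = (Real.sqrt (p W) * Real.sqrt (p W)) * (f W - m) ^ 2 := by ring
      _ = _ := by rw [hmm]
  have hvT : dot S v (symOp p v) = dir p S f f := by
    rw [h.dot_symOp, h.dir_congr htv htv]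
    unfold dir grad
    refine Finset.sum_congr rfl (fun W _ => Finset.sum_congr rfl (fun α _ => ?_))
    ring
  rw [← hvv, ← hvT, hLHS, hRHS, Finset.mul_sum]
  refine Finset.sum_le_sum (fun i _ => ?_)
  rcases hdich i with h1 | h1
  · rw [hzero i h1, h1]
    simp
  · exact mul_le_mul_of_nonneg_right h1 (sq_nonneg _)

end Vale.Agent.Lib.P328W
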