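import Mathlib

/-!
The algebra of the local matrix: a block form which is positive by Cauchy, plus a diagonal.
-/

set_option linter.unusedSectionVars false
set_option linter.unusedSimpArgs false
set_option linter.unusedVariables false

namespace Vale.Agent.Lib.P328W

open Finset

variable {m n : ℕ}

/-- The pair coefficient `E`. -/
noncomputable def coefE (ω : ℝ) (R : Fin m → ℝ) (K : Fin n → ℝ) (α β : Fin m × Fin n) : ℝ :=
  (1 - ω) + ω * (if β.1 = α.1 then 1 / R β.1 else 0) + ω * (if β.2 = α.2 then 1 / K β.2 else 0)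

theorem sum_row_block (R : Fin m → ℝ) (x : Fin m × Fin n → ℝ) :
    ∑ α, ∑ β, (if β.1 = α.1 then 1 / R β.1 else 0) * (x α * x β) =
      ∑ i, (∑ j, x (i, j)) ^ 2 / R i := by
  rw [Fintype.sum_prod_type]
  refine Finset.sum_congr rfl (fun i _ => ?_)
  have h1 : ∀ j, ∑ β, (if β.1 = i then 1 / R β.1 else 0) * (x (i, j) * x β) =
      x (i, j) * (∑ l, x (i, l)) / R i := by
    intro j
    rw [Fintype.sum_prod_type]
    rw [Finset.sum_eq_single i]
    · rw [Finset.mul_sum, Finset.sum_div]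
      refine Finset.sum_congr rfl (fun l _ => ?_)
      simp only [if_true]
      ring
    · intro k _ hk
      simp [hk]
    · simp
  simp only [h1]
  rw [sq, ← Finset.sum_div, Finset.sum_mul]

theorem sum_col_block (K : Fin n → ℝ) (x : Fin m × Fin n → ℝ) :
    ∑ α, ∑ β, (if β.2 = α.2 then 1 / K β.2 else 0) * (x α * x β) =
      ∑ j, (∑ i, x (i, j)) ^ 2 / K j := by
  rw [Fintype.sum_prod_type_right]
  refine Finset.sum_congr rfl (fun j _ => ?_)
  have h1 : ∀ i, ∑ β, (if β.2 = j then 1 / K β.2 else 0) * (x (i, j) * x β) =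
      x (i, j) * (∑ l, x (l, j)) / K j := by
    intro i
    rw [Fintype.sum_prod_type_right]
    rw [Finset.sum_eq_single j]
    · rw [Finset.mul_sum, Finset.sum_div]
      refine Finset.sum_congr rfl (fun l _ => ?_)
      simp only [if_true]
      ring
    · intro k _ hk
      simp [hk]
    · simp
  simp only [h1]
  rw [sq, ← Finset.sum_div, Finset.sum_mul]

/-- The block form is nonnegative. -/
theorem block_form_nonneg {ω Nr : ℝ} (hNr : 1 < Nr) (hω : ω = Nr / (Nr - 1)) (R : Fin m → ℝ)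
    (K : Fin n → ℝ) (hR : ∀ i, 0 ≤ R i) (hK : ∀ j, 0 ≤ K j) (hsum : ∑ i, R i = Nr)
    (x : Fin m × Fin n → ℝ) (hx : ∀ α, x α ≠ 0 → 0 < R α.1) :
    0 ≤ ∑ α, ∑ β, coefE ω R K α β * (x α * x β) := by
  have hpos : 0 < Nr - 1 := by linarith
  have hω0 : 0 ≤ ω := by
    rw [hω]
    exact div_nonneg (by linarith) hpos.le
  have e1 : ∑ α, ∑ β, coefE ω R K α β * (x α * x β) =
      (1 - ω) * (∑ α, x α) ^ 2 + ω * (∑ i, (∑ j, x (i, j)) ^ 2 / R i) +
        ω * (∑ j, (∑ i, x (i, j)) ^ 2 / K j) := by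
    rw [← sum_row_block, ← sum_col_block, sq, Finset.sum_mul_sum]
    simp only [Finset.mul_sum, ← Finset.sum_add_distrib]
    refine Finset.sum_congr rfl (fun α _ => Finset.sum_congr rfl (fun β _ => ?_))
    unfold coefE
    ring
  rw [e1]
  -- rows
  set s := univ.filter (fun i => 0 < R i) with hs
  have hz : ∀ i, i ∉ s → ∀ j, x (i, j) = 0 := by
    intro i hi j
    by_contra h
    apply hi
    rw [hs, Finset.mem_filter]
    exact ⟨mem_univ i, hx (i, j) h⟩
  have hsumX : ∑ i ∈ s, ∑ j, x (i, j) = ∑ α, x α := by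
    rw [Fintype.sum_prod_type]
    refine Finset.sum_subset (subset_univ s) (fun i _ hi => ?_)
    exact Finset.sum_eq_zero (fun j _ => hz i hi j)
  have hsumR : ∑ i ∈ s, R i = Nr := by
    rw [← hsum]
    refine Finset.sum_subset (subset_univ s) (fun i _ hi => ?_)
    rw [hs, Finset.mem_filter] at hi
    push Not at hi
    exact le_antisymm (hi (mem_univ i)) (hR i)
  have hc := Finset.sq_sum_div_le_sum_sq_div s (fun i => ∑ j, x (i, j))
    (g := R) (fun i hi => (Finset.mem_filter.1 hi).2)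
  rw [hsumX, hsumR] at hc
  have hc2 : ∑ i ∈ s, (∑ j, x (i, j)) ^ 2 / R i ≤ ∑ i, (∑ j, x (i, j)) ^ 2 / R i :=
    Finset.sum_le_sum_of_subset_of_nonneg (subset_univ s)
      (fun i _ _ => div_nonneg (sq_nonneg _) (hR i))
  have hcol : 0 ≤ ∑ j, (∑ i, x (i, j)) ^ 2 / K j :=
    Finset.sum_nonneg (fun j _ => div_nonneg (sq_nonneg _) (hK j))
  have h3 : (∑ α, x α) ^ 2 / Nr ≤ ∑ i, (∑ j, x (i, j)) ^ 2 / R i := hc.trans hc2
  have h4 : ω * ((∑ α, x α) ^ 2 / Nr) ≤ ω * ∑ i, (∑ j, x (i, j)) ^ 2 / R i :=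
    mul_le_mul_of_nonneg_left h3 hω0
  have h5 : (1 - ω) * (∑ α, x α) ^ 2 + ω * ((∑ α, x α) ^ 2 / Nr) = 0 := by
    rw [hω]
    have : Nr ≠ 0 := by linarith
    have h6 : Nr - 1 ≠ 0 := hpos.ne'
    field_simp
    ring
  have h7 : 0 ≤ ω * ∑ j, (∑ i, x (i, j)) ^ 2 / K j := mul_nonneg hω0 hcol
  linarith

/-- The local inequality in pure form. -/
theorem local_real {ω Nr κ' : ℝ} (hNr : 1 < Nr) (hω : ω = Nr / (Nr - 1)) (R : Fin m → ℝ)
    (K : Fin n → ℝ) (hR : ∀ i, 0 ≤ R i) (hK : ∀ j, 0 ≤ K j) (hsum : ∑ i, R i = Nr)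
    (u up g : Fin m × Fin n → ℝ) (hu : ∀ α, 0 ≤ u α)
    (huR : ∀ α, u α ≠ 0 → 0 < R α.1 ∧ 0 < K α.2)
    (hrem : ∀ α, u α ≠ 0 → κ' ≤ 1 - up α + u α * (1 - coefE ω R K α α)) :
    κ' * ∑ α, u α * g α ^ 2 ≤
      (∑ α, u α * g α) ^ 2 + ∑ α, u α * (1 - up α) * g α ^ 2 -
        ∑ α, ∑ β, (if α = β then (0 : ℝ) else
          (1 - coefE ω R K α β) * (u α * g α * (u β * g β))) := by
  set x : Fin m × Fin n → ℝ := fun α => u α * g α with hx
  have hxne : ∀ α, x α ≠ 0 → u α ≠ 0 := by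
    intro α h h2
    apply h
    simp [hx, h2]
  have hb := block_form_nonneg hNr hω R K hR hK hsum x
    (fun α h => (huR α (hxne α h)).1)
  have e1 : (∑ α, x α) ^ 2 - ∑ α, ∑ β, (if α = β then (0 : ℝ) else
      (1 - coefE ω R K α β) * (x α * x β)) =
      ∑ α, ∑ β, coefE ω R K α β * (x α * x β) +
        ∑ α, (1 - coefE ω R K α α) * x α ^ 2 := by
    rw [sq, Finset.sum_mul_sum, ← Finset.sum_sub_distrib, ← Finset.sum_add_distrib]
    refine Finset.sum_congr rfl (fun α _ => ?_)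
    rw [← Finset.sum_sub_distrib]
    have : ∀ β, x α * x β - (if α = β then (0 : ℝ) else
        (1 - coefE ω R K α β) * (x α * x β)) = coefE ω R K α β * (x α * x β) +
          (if α = β then (1 - coefE ω R K α β) * (x α * x β) else 0) := by
      intro β
      by_cases h : α = β
      · subst h
        simp only [if_true]
        ring
      · simp [h]
        ring
    simp only [this, Finset.sum_add_distrib]
    congr 1
    rw [Finset.sum_ite_eq]
    simp only [mem_univ, if_true]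
    ring
  have h2 : ∀ α, κ' * (u α * g α ^ 2) ≤ u α * (1 - up α) * g α ^ 2 +
      (1 - coefE ω R K α α) * x α ^ 2 := by
    intro α
    by_cases h : u α = 0
    · simp [hx, h]
    · have h3 := hrem α h
      have h4 : 0 ≤ u α * g α ^ 2 := mul_nonneg (hu α) (sq_nonneg _)
      have h5 := mul_le_mul_of_nonneg_right h3 h4
      calc κ' * (u α * g α ^ 2) ≤ _ := h5
        _ = _ := by
            simp only [hx]
            ring
  have h6 : κ' * ∑ α, u α * g α ^ 2 ≤ ∑ α, u α * (1 - up α) * g α ^ 2 +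
      ∑ α, (1 - coefE ω R K α α) * x α ^ 2 := by
    rw [Finset.mul_sum, ← Finset.sum_add_distrib]
    exact Finset.sum_le_sum (fun α _ => h2 α)
  linarith

end Vale.Agent.Lib.P328W
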