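import Vale.Agent.Lib.P328W.Table
import Vale.Agent.Lib.P328W.LocalAlg

/-!
The local curvature bound for the soft margin layer of contingency tables.
-/

set_option linter.unusedSectionVars false
set_option linter.unusedSimpArgs false
set_option linter.unusedVariables false

namespace Vale.Agent.Lib.P328W

open Finset

variable {m n : ℕ}

/-- The ratio of weights along a move. -/
noncomputable def bet (r : Fin m → ℕ) (c : Fin n → ℕ) (W : Cell m n → ℕ) (α : Cell m n) : ℝ :=
  (G (W α + 1) / G (W α)) *
    (2 * ((r α.1 - rowS W α.1 : ℕ) : ℝ) * ((c α.2 - colS W α.2 : ℕ) : ℝ) /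
      ((mass r - totS W : ℕ) : ℝ))

/-- The weights whose ratios along moves are the explicit ones. -/
structure IsWeight (r : Fin m → ℕ) (c : Fin n → ℕ) (N0 : ℕ) (p : (Cell m n → ℕ) → ℝ) : Prop where
  setup : Setup (regS r c N0) p
  step : ∀ W ∈ regS r c N0, ∀ α, W + e α ∈ regS r c N0 → p (W + e α) = p W * bet r c W α

theorem pw_isWeight (r : Fin m → ℕ) (c : Fin n → ℕ) (N0 : ℕ) : IsWeight r c N0 (pw r c N0) where
  setup := pw_setup r c N0
  step := fun W hW α hW' => by
    rw [pw_step hW hW']
    unfold bet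
    ring

variable {r : Fin m → ℕ} {c : Fin n → ℕ} {N0 : ℕ} {p : (Cell m n → ℕ) → ℝ}

theorem IsWeight.rate_eq (h : IsWeight r c N0 p) {W : Cell m n → ℕ} (hW : W ∈ regS r c N0)
    {α : Cell m n} (hW' : W + e α ∈ regS r c N0) :
    rate p W α = ((W α : ℝ) + 1) * bet r c W α := by
  unfold rate cond
  rw [h.step W hW α hW']
  have := (h.setup.pos W hW).ne'
  field_simp

theorem IsWeight.rate_eq_upRate (h : IsWeight r c N0 p) {W : Cell m n → ℕ} (hW : W ∈ regS r c N0)
    (α : Cell m n) : upRate r c N0 W α = rate p W α := by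
  unfold upRate
  by_cases hW' : W + e α ∈ regS r c N0
  · rw [if_pos hW', h.rate_eq hW hW']
    unfold bet
    ring
  · rw [if_neg hW', h.setup.rate_eq_zero hW']

theorem IsWeight.rate_of_not_mem (h : IsWeight r c N0 p) {W : Cell m n → ℕ} {α : Cell m n}
    (hn : W + e α ∉ regS r c N0) : rate p W α = 0 := h.setup.rate_eq_zero hn

/-- The residual of a row, as a real number. -/
noncomputable def resR (r : Fin m → ℕ) (W : Cell m n → ℕ) (i : Fin m) : ℝ :=
  ((r i - rowS W i : ℕ) : ℝ)

/-- The residual of a column, as a real number. -/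
noncomputable def resC (c : Fin n → ℕ) (W : Cell m n → ℕ) (j : Fin n) : ℝ :=
  ((c j - colS W j : ℕ) : ℝ)

/-- The residual total, as a real number. -/
noncomputable def resN (r : Fin m → ℕ) (W : Cell m n → ℕ) : ℝ :=
  ((mass r - totS W : ℕ) : ℝ)

theorem bet_eq (r : Fin m → ℕ) (c : Fin n → ℕ) (W : Cell m n → ℕ) (α : Cell m n) :
    bet r c W α = gam (W α) * (2 * resR r W α.1 * resC c W α.2 / resN r W) := rfl

theorem resR_add {W : Cell m n → ℕ} {α : Cell m n} (hW' : W + e α ∈ regS r c N0) (i : Fin m) :
    resR r (W + e α) i = resR r W i - (if i = α.1 then 1 else 0) := by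
  have h1 := (mem_regS.1 hW').1 i
  rw [rowS_add_e] at h1
  unfold resR
  rw [rowS_add_e]
  by_cases h : i = α.1
  · simp only [h, if_true] at h1 ⊢
    have : r α.1 - (rowS W α.1 + 1) = r α.1 - rowS W α.1 - 1 := by omega
    rw [this, Nat.cast_sub (by omega)]
    simp
  · simp [h]

theorem resC_add {W : Cell m n → ℕ} {α : Cell m n} (hW' : W + e α ∈ regS r c N0) (j : Fin n) :
    resC c (W + e α) j = resC c W j - (if j = α.2 then 1 else 0) := by
  have h1 := (mem_regS.1 hW').2.1 j
  rw [colS_add_e] at h1
  unfold resC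
  rw [colS_add_e]
  by_cases h : j = α.2
  · simp only [h, if_true] at h1 ⊢
    have : c α.2 - (colS W α.2 + 1) = c α.2 - colS W α.2 - 1 := by omega
    rw [this, Nat.cast_sub (by omega)]
    simp
  · simp [h]

theorem resN_add {W : Cell m n → ℕ} {α : Cell m n} (hW' : W + e α ∈ regS r c N0) :
    resN r (W + e α) = resN r W - 1 := by
  have h1 := (mem_regS.1 hW').2.2
  rw [totS_add_e] at h1
  unfold resN
  rw [totS_add_e]
  have : mass r - (totS W + 1) = mass r - totS W - 1 := by omega
  rw [this, Nat.cast_sub (by omega)]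
  simp

theorem resR_ge_one {W : Cell m n → ℕ} {α : Cell m n} (hW : W ∈ regS r c N0)
    (hW' : W + e α ∈ regS r c N0) : 1 ≤ resR r W α.1 := by
  have := ((mem_regS_add hW).1 hW').1
  unfold resR
  have h2 : 1 ≤ r α.1 - rowS W α.1 := by omega
  exact_mod_cast h2

theorem resC_ge_one {W : Cell m n → ℕ} {α : Cell m n} (hW : W ∈ regS r c N0)
    (hW' : W + e α ∈ regS r c N0) : 1 ≤ resC c W α.2 := by
  have := ((mem_regS_add hW).1 hW').2.1
  unfold resC
  have h2 : 1 ≤ c α.2 - colS W α.2 := by omega
  exact_mod_cast h2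

theorem bet_add {W : Cell m n → ℕ} {α : Cell m n} (hW' : W + e α ∈ regS r c N0) (β : Cell m n) :
    bet r c (W + e α) β = gam ((W + e α) β) *
      (2 * (resR r W β.1 - (if β.1 = α.1 then 1 else 0)) *
        (resC c W β.2 - (if β.2 = α.2 then 1 else 0)) / (resN r W - 1)) := by
  rw [bet_eq, resR_add hW', resC_add hW', resN_add hW']

/-- The sum of the row residuals. -/
theorem sum_resR {W : Cell m n → ℕ} (hW : W ∈ regS r c N0) : ∑ i, resR r W i = resN r W := by
  have h1 := (mem_regS.1 hW).1
  unfold resR resN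
  rw [← Nat.cast_sum, Finset.sum_tsub_distrib _ (fun i _ => h1 i), sum_rowS]
  rfl

/-- The sum of the column residuals. -/
theorem sum_resC {W : Cell m n → ℕ} (hW : W ∈ regS r c N0) (hsum : mass r = mass c) :
    ∑ j, resC c W j = resN r W := by
  have h1 := (mem_regS.1 hW).2.1
  unfold resC resN
  rw [← Nat.cast_sum, Finset.sum_tsub_distrib _ (fun j _ => h1 j), sum_colS, hsum]
  rfl

theorem resR_nonneg (r : Fin m → ℕ) (W : Cell m n → ℕ) (i : Fin m) : 0 ≤ resR r W i :=
  Nat.cast_nonneg _

theorem resC_nonneg (c : Fin n → ℕ) (W : Cell m n → ℕ) (j : Fin n) : 0 ≤ resC c W j :=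
  Nat.cast_nonneg _

theorem resR_le (r : Fin m → ℕ) (W : Cell m n → ℕ) (i : Fin m) : resR r W i ≤ r i := by
  unfold resR
  exact_mod_cast Nat.sub_le _ _

theorem resC_le (c : Fin n → ℕ) (W : Cell m n → ℕ) (j : Fin n) : resC c W j ≤ c j := by
  unfold resC
  exact_mod_cast Nat.sub_le _ _

/-- The double conductance above the wall. -/
theorem IsWeight.dcond_eq (h : IsWeight r c N0 p) {W : Cell m n → ℕ} (hW : W ∈ regS r c N0)
    (hwall : N0 + totS W + 2 ≤ mass r) {α β : Cell m n} (hab : α ≠ β) :
    dcond p W α β = p W * rate p W α * rate p W β *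
      (1 - coefE (resN r W / (resN r W - 1)) (resR r W) (resC c W) α β) := by
  by_cases hα : W + e α ∈ regS r c N0
  swap
  · have h1 : p (W + e α + e β) = 0 := h.setup.zero _ (h.setup.up_not_mem hα β)
    rw [h.rate_of_not_mem hα]
    simp [dcond, h1]
  by_cases hβ : W + e β ∈ regS r c N0
  swap
  · have h1 : p (W + e α + e β) = 0 := by
      rw [add_e_comm]
      exact h.setup.zero _ (h.setup.up_not_mem hβ α)
    rw [h.rate_of_not_mem hβ]
    simp [dcond, h1]
  have hR := resR_ge_one hW hβ
  have hK := resC_ge_one hW hβ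
  have hN : (3 : ℝ) ≤ resN r W + 1 := by
    have h2 : 2 ≤ mass r - totS W := by omega
    have h3 : (2 : ℝ) ≤ resN r W := by
      unfold resN
      exact_mod_cast h2
    linarith
  have hN1 : 2 ≤ resN r W := by linarith
  have hωe : (1 - coefE (resN r W / (resN r W - 1)) (resR r W) (resC c W) α β) =
      resN r W / (resN r W - 1) * (1 - (if β.1 = α.1 then 1 / resR r W β.1 else 0) -
        (if β.2 = α.2 then 1 / resC c W β.2 else 0)) := by
    unfold coefE
    ring
  have hne : ¬ (β.1 = α.1 ∧ β.2 = α.2) := by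
    rintro ⟨h1, h2⟩
    exact hab (Prod.ext h1.symm h2.symm)
  rw [hωe, h.rate_eq hW hα, h.rate_eq hW hβ]
  by_cases hαβ : W + e α + e β ∈ regS r c N0
  · unfold dcond
    rw [h.step _ hα β hαβ, h.step W hW α hα, bet_add hα β, bet_eq r c W β,
      add_e_ne W (Ne.symm hab)]
    have hg := gam_pos (W β)
    have hRne : resR r W β.1 ≠ 0 := by linarith
    have hKne : resC c W β.2 ≠ 0 := by linarith
    have hNne : resN r W ≠ 0 := by linarith
    have hN1ne : resN r W - 1 ≠ 0 := by linarith
    by_cases h1 : β.1 = α.1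
    · have h2 : ¬ β.2 = α.2 := fun h2 => hne ⟨h1, h2⟩
      simp only [h1, h2, if_true, if_false]
      rw [h1] at hRne
      field_simp
      ring
    · by_cases h2 : β.2 = α.2
      · simp only [h1, h2, if_true, if_false]
        rw [h2] at hKne
        field_simp
        ring
      · simp only [h1, h2, if_false]
        field_simp
        ring
  · have hz : p (W + e α + e β) = 0 := h.setup.zero _ hαβ
    have hdz : dcond p W α β = 0 := by
      simp [dcond, hz]
    rw [hdz]
    have hcases := (not_congr (mem_regS_add hα)).1 hαβ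
    rw [rowS_add_e, colS_add_e, totS_add_e] at hcases
    have hb := (mem_regS_add hW).1 hβ
    have hrw : resR r W β.1 = ((r β.1 - rowS W β.1 : ℕ) : ℝ) := rfl
    have hcw : resC c W β.2 = ((c β.2 - colS W β.2 : ℕ) : ℝ) := rfl
    have hzero : (1 - (if β.1 = α.1 then 1 / resR r W β.1 else 0) -
        (if β.2 = α.2 then 1 / resC c W β.2 else 0)) = 0 := by
      by_cases h1 : β.1 = α.1
      · have h2 : ¬ β.2 = α.2 := fun h2 => hne ⟨h1, h2⟩
        simp only [h1, h2, if_true, if_false] at hcases ⊢
        have h3 : r α.1 - rowS W α.1 = 1 := by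
          have h4 : ¬ (rowS W α.1 + 1 + 1 ≤ r α.1) := by
            intro h5
            apply hcases
            refine ⟨h5, ?_, by omega⟩
            have := hb.2.1
            omega
          have h5 := hb.1
          rw [h1] at h5
          omega
        have h4 : resR r W α.1 = 1 := by
          rw [h1] at hrw
          rw [hrw, h3]
          simp
        rw [h4]
        norm_num
      · by_cases h2 : β.2 = α.2
        · simp only [h1, h2, if_true, if_false] at hcases ⊢
          have h3 : c α.2 - colS W α.2 = 1 := by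
            have h4 : ¬ (colS W α.2 + 1 + 1 ≤ c α.2) := by
              intro h5
              apply hcases
              refine ⟨?_, h5, by omega⟩
              have := hb.1
              omega
            have h5 := hb.2.1
            rw [h2] at h5
            omega
          have h4 : resC c W α.2 = 1 := by
            rw [h2] at hcw
            rw [hcw, h3]
            simp
          rw [h4]
          norm_num
        · exfalso
          simp only [h1, h2, if_false] at hcases
          apply hcases
          refine ⟨?_, ?_, by omega⟩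
          · have := hb.1
            omega
          · have := hb.2.1
            omega
    rw [hzero]
    simp

/-- The rate of the second move in the same direction, above the wall. -/
theorem IsWeight.rate_up_eq (h : IsWeight r c N0 p) {W : Cell m n → ℕ} (hW : W ∈ regS r c N0)
    (hwall : N0 + totS W + 2 ≤ mass r) {α : Cell m n} (hα : W + e α ∈ regS r c N0) :
    rate p (W + e α) α = ((W α : ℝ) + 2) * gam (W α + 1) *
      (2 * (resR r W α.1 - 1) * (resC c W α.2 - 1) / (resN r W - 1)) := by
  by_cases hαα : W + e α + e α ∈ regS r c N0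
  · rw [h.rate_eq hα hαα, bet_add hα α]
    simp only [if_true, add_e_self]
    push_cast
    ring
  · rw [h.rate_of_not_mem hαα]
    have hcases := (not_congr (mem_regS_add hα)).1 hαα
    rw [rowS_add_e, colS_add_e, totS_add_e] at hcases
    simp only [if_true] at hcases
    have hb := (mem_regS_add hW).1 hα
    by_cases h1 : rowS W α.1 + 1 + 1 ≤ r α.1
    · have h2 : ¬ (colS W α.2 + 1 + 1 ≤ c α.2) := by
        intro h2
        exact hcases ⟨h1, h2, by omega⟩
      have h3 : c α.2 - colS W α.2 = 1 := by
        have := hb.2.1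
        omega
      have h4 : resC c W α.2 = 1 := by
        unfold resC
        rw [h3]
        simp
      rw [h4]
      simp
    · have h3 : r α.1 - rowS W α.1 = 1 := by
        have := hb.1
        omega
      have h4 : resR r W α.1 = 1 := by
        unfold resR
        rw [h3]
        simp
      rw [h4]
      simp

/-- The diagonal remainder is at least one third. -/
theorem IsWeight.rem_bound (h : IsWeight r c N0 p) (hreg : ∀ i j, 100 * (r i * c j) ≤ mass r)
    (hN : 1000 ≤ mass r) (hN0 : mass r ≤ 10 * (N0 + 1)) {W : Cell m n → ℕ} (hW : W ∈ regS r c N0)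
    (hwall : N0 + totS W + 2 ≤ mass r) {α : Cell m n} (hα : W + e α ∈ regS r c N0) :
    1 / 3 ≤ 1 - rate p (W + e α) α + rate p W α *
      (1 - coefE (resN r W / (resN r W - 1)) (resR r W) (resC c W) α α) := by
  have hRR := resR_ge_one hW hα
  have hKK := resC_ge_one hW hα
  have hNcast : (mass r : ℝ) ≤ 10 * ((N0 : ℝ) + 1) := by exact_mod_cast hN0
  have hNr : (N0 : ℝ) + 2 ≤ resN r W := by
    have h2 : N0 + 2 ≤ mass r - totS W := by omega
    unfold resN
    exact_mod_cast h2
  have hN0' : (0 : ℝ) ≤ N0 := Nat.cast_nonneg _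
  have hNr1 : (mass r : ℝ) / 10 ≤ resN r W - 1 := by linarith
  have hN1000 : (1000 : ℝ) ≤ mass r := by exact_mod_cast hN
  have hNrpos : 0 < resN r W - 1 := by linarith
  rw [h.rate_up_eq hW hwall hα, h.rate_eq hW hα, bet_eq]
  unfold coefE
  simp only [if_true]
  set R := resR r W α.1 with hRdef
  set K := resC c W α.2 with hKdef
  set Nr := resN r W with hNrdef
  set w : ℝ := (W α : ℝ) with hwdef
  have hw0 : 0 ≤ w := Nat.cast_nonneg _
  have hg0 := gam_pos (W α)
  have hg1 := gam_pos (W α + 1)
  have hg1le := gam_le (W α + 1)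
  have hAw := abs_Aw_le (W α)
  have hNr0 : Nr ≠ 0 := by linarith
  have hNr10 : Nr - 1 ≠ 0 := hNrpos.ne'
  have hR0 : R ≠ 0 := by linarith
  have hK0 : K ≠ 0 := by linarith
  -- the identity for the remainder
  have e1 : 1 - (w + 2) * gam (W α + 1) * (2 * (R - 1) * (K - 1) / (Nr - 1)) +
      (w + 1) * (gam (W α) * (2 * R * K / Nr)) *
        (1 - (1 - Nr / (Nr - 1) + Nr / (Nr - 1) * (1 / R) + Nr / (Nr - 1) * (1 / K))) =
      1 - 2 / (Nr - 1) * (Aw (W α) * (R * K - R - K) + (w + 2) * gam (W α + 1)) := by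
    unfold Aw
    field_simp
    ring
  rw [e1]
  -- the bound for the margins
  have hrc : (100 : ℝ) * ((r α.1 : ℝ) * (c α.2 : ℝ)) ≤ mass r := by
    exact_mod_cast hreg α.1 α.2
  have hRle : R ≤ r α.1 := resR_le r W α.1
  have hKle : K ≤ c α.2 := resC_le c W α.2
  have hRKle : R * K ≤ (r α.1 : ℝ) * (c α.2 : ℝ) :=
    mul_le_mul hRle hKle (by linarith) (Nat.cast_nonneg _)
  have hD : Aw (W α) * (R * K - R - K) ≤ 2 * (R * K) := by
    have h1 : |R * K - R - K| ≤ R * K := by
      rw [abs_le]
      constructor <;> nlinarith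
    have h2 : |Aw (W α) * (R * K - R - K)| ≤ 2 * (R * K) := by
      rw [abs_mul]
      exact mul_le_mul hAw h1 (abs_nonneg _) (by norm_num)
    exact (abs_le.1 h2).2
  -- the bound for the entry
  have hb := (mem_regS_add hW).1 hα
  have hw1 : w + 1 ≤ r α.1 := by
    have h1 := entry_le_rowS W α
    have h2 : W α + 1 ≤ r α.1 := by omega
    rw [hwdef]
    exact_mod_cast h2
  have hw2 : w + 1 ≤ c α.2 := by
    have h1 := entry_le_colS W α
    have h2 : W α + 1 ≤ c α.2 := by omega
    rw [hwdef]
    exact_mod_cast h2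
  have hy : (w + 1) * (w + 1) ≤ (mass r : ℝ) / 100 := by
    have := mul_le_mul hw1 hw2 (by linarith) (Nat.cast_nonneg _)
    linarith
  have hy2 : w + 2 ≤ (mass r : ℝ) / 100 := by
    by_contra hcon
    push Not at hcon
    have h10 : (10 : ℝ) ≤ (mass r : ℝ) / 100 := by linarith
    nlinarith
  have hE : (w + 2) * gam (W α + 1) ≤ (5 / 4) * ((mass r : ℝ) / 100) := by
    have : (w + 2) * gam (W α + 1) ≤ (w + 2) * (5 / 4) :=
      mul_le_mul_of_nonneg_left hg1le (by linarith)
    linarith
  have hsum : Aw (W α) * (R * K - R - K) + (w + 2) * gam (W α + 1) ≤ 13 * (mass r : ℝ) / 400 := by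
    linarith
  have hfin : 2 / (Nr - 1) * (Aw (W α) * (R * K - R - K) + (w + 2) * gam (W α + 1)) ≤ 2 / 3 := by
    rw [div_mul_eq_mul_div, div_le_iff₀ hNrpos]
    nlinarith
  linarith

end Vale.Agent.Lib.P328W
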