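import Vale.Agent.Lib.P328W.Gap

/-!
From the Poincare inequality to the decay in total variation for the uniformised chain.
-/

set_option linter.unusedSectionVars false
set_option linter.unusedSimpArgs false
set_option linter.unusedVariables false

namespace Vale.Agent.Lib.P328W

open Finset

variable {A : Type*} [Fintype A] [DecidableEq A]
variable {S : Finset (A → ℕ)} {p : (A → ℕ) → ℝ}

/-- The density of `μ` with respect to `p`. -/
noncomputable def tld2 (p : (A → ℕ) → ℝ) (μ : (A → ℕ) → ℝ) : (A → ℕ) → ℝ :=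
  fun y => μ y / p y

theorem Setup.kern_sum (h : Setup S p) {u : (A → ℕ) → A → ℝ} {Λ : ℝ} {x : A → ℕ} (hx : x ∈ S)
    (hu : ∀ α, u x α = rate p x α) (φ : (A → ℕ) → ℝ) :
    ∑ y ∈ S, kern u Λ x y * φ y = φ x + gen p φ x / Λ := by
  have hA : ∀ α, ∑ y ∈ S, (if y = x + e α then u x α / Λ else 0) * φ y =
      rate p x α / Λ * φ (x + e α) := by
    intro α
    by_cases hn : x + e α ∈ S
    · rw [Finset.sum_eq_single (x + e α)]
      · simp [hu]
      · intro y _ hy
        simp [hy]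
      · intro h2
        exact absurd hn h2
    · rw [h.rate_eq_zero hn]
      simp only [hu, h.rate_eq_zero hn, zero_div, ite_self, zero_mul, Finset.sum_const_zero]
  have hB : ∀ α, ∑ y ∈ S, (if 1 ≤ x α ∧ y = x - e α then (x α : ℝ) / Λ else 0) * φ y =
      (x α : ℝ) / Λ * φ (x - e α) := by
    intro α
    by_cases hw : 1 ≤ x α
    · rw [Finset.sum_eq_single (x - e α)]
      · simp [hw]
      · intro y _ hy
        simp [hy]
      · intro h2
        exact absurd (h.down x hx α hw) h2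
    · have : x α = 0 := by omega
      simp [this]
  unfold kern
  simp only [add_mul, Finset.sum_add_distrib, Finset.sum_mul]
  rw [Finset.sum_comm]
  have h1 : ∑ y ∈ S, (if y = x then 1 - ∑ α, (u x α + (x α : ℝ)) / Λ else 0) * φ y =
      (1 - ∑ α, (u x α + (x α : ℝ)) / Λ) * φ x := by
    rw [Finset.sum_eq_single x]
    · simp
    · intro y _ hy
      simp [hy]
    · intro h2
      exact absurd hx h2
  rw [h1]
  rw [Finset.sum_comm (s := S) (t := univ)
    (f := fun y i => (if 1 ≤ x i ∧ y = x - e i then (x i : ℝ) / Λ else 0) * φ y)]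
  simp only [hA, hB]
  have hterm : ∀ α, rate p x α / Λ * φ (x + e α) + (x α : ℝ) / Λ * φ (x - e α) -
      (u x α + (x α : ℝ)) / Λ * φ x =
      (rate p x α * grad φ x α - (x α : ℝ) * grad φ (x - e α) α) / Λ := by
    intro α
    rw [hu α]
    unfold grad
    by_cases hw : 1 ≤ x α
    · rw [sub_e_add_e x hw]
      ring
    · have : x α = 0 := by omega
      simp [this]
      ring
  have hs : ∑ α, (rate p x α / Λ * φ (x + e α) + (x α : ℝ) / Λ * φ (x - e α) -
      (u x α + (x α : ℝ)) / Λ * φ x) = gen p φ x / Λ := by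
    unfold gen
    rw [Finset.sum_congr rfl (fun α _ => hterm α), ← Finset.sum_div, Finset.sum_sub_distrib]
  rw [← hs, Finset.sum_sub_distrib, Finset.sum_add_distrib, ← Finset.sum_mul]
  ring

/-- The chain acts on densities by the same operator. -/
theorem Setup.density_step (h : Setup S p) {u : (A → ℕ) → A → ℝ} {Λ : ℝ} (hΛ : 0 < Λ)
    (hu : ∀ x ∈ S, ∀ α, u x α = rate p x α) (μ : (A → ℕ) → ℝ) {y : A → ℕ} (hy : y ∈ S) :
    ∑ x ∈ S, μ x * kern u Λ x y =
      p y * (tld2 p μ y + gen p (tld2 p μ) y / Λ) := by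
  classical
  set φ : (A → ℕ) → ℝ := fun z => if z = y then 1 else 0 with hφ
  set k := tld2 p μ with hk
  have hpk : ∀ x ∈ S, μ x = p x * k x := by
    intro x hx
    have := (h.pos x hx).ne'
    simp only [hk, tld2]
    field_simp
  have h1 : ∀ x ∈ S, kern u Λ x y = φ x + gen p φ x / Λ := by
    intro x hx
    rw [← h.kern_sum hx (hu x hx) φ]
    rw [Finset.sum_eq_single y]
    · simp [hφ]
    · intro z _ hz
      simp [hφ, hz]
    · intro h2
      exact absurd hy h2
  have h2 : ∑ x ∈ S, μ x * (φ x + gen p φ x / Λ) =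
      ∑ x ∈ S, p x * k x * φ x + (∑ x ∈ S, p x * k x * gen p φ x) / Λ := by
    rw [Finset.sum_div, ← Finset.sum_add_distrib]
    refine Finset.sum_congr rfl (fun x hx => ?_)
    rw [hpk x hx]
    ring
  have h3 : ∑ x ∈ S, p x * k x * φ x = p y * k y := by
    rw [Finset.sum_eq_single y]
    · simp [hφ]
    · intro z _ hz
      simp [hφ, hz]
    · intro h2
      exact absurd hy h2
  have h4 : ∑ x ∈ S, p x * k x * gen p φ x = p y * gen p k y := by
    have e1 := sum_mul_gen h φ k
    have e2 := sum_mul_gen h k φ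
    have e3 : ∑ x ∈ S, p x * φ x * gen p k x = p y * gen p k y := by
      rw [Finset.sum_eq_single y]
      · simp [hφ]
      · intro z _ hz
        simp [hφ, hz]
      · intro h2
        exact absurd hy h2
    rw [e1, ← e3, e2]
    congr 1
    refine Finset.sum_congr rfl (fun W _ => Finset.sum_congr rfl (fun α _ => ?_))
    ring
  rw [Finset.sum_congr rfl (fun x hx => by rw [h1 x hx]), h2, h3, h4]
  ring

/-- Cauchy with weights. -/
theorem wcs {ι : Type*} (s : Finset ι) (a b : ι → ℝ) (ha : ∀ i ∈ s, 0 ≤ a i) :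
    (∑ i ∈ s, a i * b i) ^ 2 ≤ (∑ i ∈ s, a i) * ∑ i ∈ s, a i * b i ^ 2 := by
  have hcs := Finset.sum_mul_sq_le_sq_mul_sq s (fun i => Real.sqrt (a i))
    (fun i => Real.sqrt (a i) * b i)
  have e1 : ∑ i ∈ s, Real.sqrt (a i) * (Real.sqrt (a i) * b i) = ∑ i ∈ s, a i * b i := by
    refine Finset.sum_congr rfl fun i hi => ?_
    rw [← mul_assoc, Real.mul_self_sqrt (ha i hi)]
  have e2 : ∑ i ∈ s, Real.sqrt (a i) ^ 2 = ∑ i ∈ s, a i := by
    refine Finset.sum_congr rfl fun i hi => ?_
    rw [Real.sq_sqrt (ha i hi)]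
  have e3 : ∑ i ∈ s, (Real.sqrt (a i) * b i) ^ 2 = ∑ i ∈ s, a i * b i ^ 2 := by
    refine Finset.sum_congr rfl fun i hi => ?_
    rw [mul_pow, Real.sq_sqrt (ha i hi)]
  rw [e1, e2, e3] at hcs
  exact hcs

/-- The total jump rate out of a state. -/
noncomputable def totRate (p : (A → ℕ) → ℝ) (x : A → ℕ) : ℝ :=
  ∑ α, (rate p x α + (x α : ℝ))

/-- The pointwise Cauchy bound for the generator. -/
theorem Setup.gen_sq_le (h : Setup S p) (f : (A → ℕ) → ℝ) (W : A → ℕ) :
    gen p f W ^ 2 ≤ totRate p W *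
      (∑ α, rate p W α * grad f W α ^ 2 + ∑ α, (W α : ℝ) * grad f (W - e α) α ^ 2) := by
  have hc := wcs (univ : Finset (A ⊕ A))
    (fun s => Sum.elim (fun α => rate p W α) (fun α => (W α : ℝ)) s)
    (fun s => Sum.elim (fun α => grad f W α) (fun α => - grad f (W - e α) α) s)
    (fun s _ => by
      cases s with
      | inl α => exact h.rate_nonneg W α
      | inr α => simp)
  simp only [Fintype.sum_sum_type, Sum.elim_inl, Sum.elim_inr, neg_sq] at hc
  have e1 : gen p f W = ∑ α, rate p W α * grad f W α + ∑ α, (W α : ℝ) * - grad f (W - e α) α := by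
    unfold gen
    rw [sub_eq_add_neg, ← Finset.sum_neg_distrib]
    congr 1
    refine Finset.sum_congr rfl (fun α _ => ?_)
    ring
  have e2 : totRate p W = ∑ α, rate p W α + ∑ α, (W α : ℝ) := by
    unfold totRate
    rw [Finset.sum_add_distrib]
  rw [e1, e2]
  exact hc

/-- The quadratic bound for the generator. -/
theorem Setup.sum_gen_sq_le (h : Setup S p) {Λ : ℝ} (hΛ : 0 < Λ)
    (ht : ∀ x ∈ S, totRate p x ≤ Λ / 2) (f : (A → ℕ) → ℝ) :
    ∑ W ∈ S, p W * gen p f W ^ 2 ≤ Λ * dir p S f f := by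
  have h1 : ∑ W ∈ S, p W * (∑ α, rate p W α * grad f W α ^ 2) = dir p S f f := by
    unfold dir
    refine Finset.sum_congr rfl (fun W _ => ?_)
    rw [Finset.mul_sum]
    refine Finset.sum_congr rfl (fun α _ => ?_)
    rw [← h.p_mul_rate W α]
    ring
  have h2 : ∑ W ∈ S, p W * (∑ α, (W α : ℝ) * grad f (W - e α) α ^ 2) = dir p S f f := by
    unfold dir
    rw [Finset.sum_comm (s := S) (t := univ)]
    have : ∀ W ∈ S, p W * (∑ α, (W α : ℝ) * grad f (W - e α) α ^ 2) =
        ∑ α, (W α : ℝ) * (p W * grad f (W - e α) α ^ 2) := by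
      intro W _
      rw [Finset.mul_sum]
      refine Finset.sum_congr rfl (fun α _ => ?_)
      ring
    rw [Finset.sum_congr rfl this, Finset.sum_comm]
    refine Finset.sum_congr rfl (fun α _ => ?_)
    rw [shift_sum h α _ (fun W hW => by simp [h.zero W hW])]
    refine Finset.sum_congr rfl (fun W _ => ?_)
    simp only [add_e_sub_e, cond]
    ring
  have h3 : ∀ W ∈ S, p W * gen p f W ^ 2 ≤ (Λ / 2) * (p W *
      (∑ α, rate p W α * grad f W α ^ 2 + ∑ α, (W α : ℝ) * grad f (W - e α) α ^ 2)) := by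
    intro W hW
    have hp := h.pos W hW
    have h4 := h.gen_sq_le f W
    have h5 : 0 ≤ ∑ α, rate p W α * grad f W α ^ 2 + ∑ α, (W α : ℝ) * grad f (W - e α) α ^ 2 := by
      refine add_nonneg (Finset.sum_nonneg (fun α _ => ?_)) (Finset.sum_nonneg (fun α _ => ?_))
      · exact mul_nonneg (h.rate_nonneg W α) (sq_nonneg _)
      · positivity
    have h6 := ht W hW
    calc p W * gen p f W ^ 2 ≤ p W * (totRate p W *
          (∑ α, rate p W α * grad f W α ^ 2 + ∑ α, (W α : ℝ) * grad f (W - e α) α ^ 2)) :=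
          mul_le_mul_of_nonneg_left h4 hp.le
      _ ≤ p W * ((Λ / 2) *
          (∑ α, rate p W α * grad f W α ^ 2 + ∑ α, (W α : ℝ) * grad f (W - e α) α ^ 2)) :=
          mul_le_mul_of_nonneg_left (mul_le_mul_of_nonneg_right h6 h5) hp.le
      _ = _ := by ring
  calc _ ≤ ∑ W ∈ S, (Λ / 2) * (p W *
      (∑ α, rate p W α * grad f W α ^ 2 + ∑ α, (W α : ℝ) * grad f (W - e α) α ^ 2)) :=
        Finset.sum_le_sum h3
    _ = (Λ / 2) * (∑ W ∈ S, p W * (∑ α, rate p W α * grad f W α ^ 2) +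
        ∑ W ∈ S, p W * (∑ α, (W α : ℝ) * grad f (W - e α) α ^ 2)) := by
        rw [← Finset.sum_add_distrib, Finset.mul_sum]
        refine Finset.sum_congr rfl (fun W _ => ?_)
        ring
    _ = _ := by
        rw [h1, h2]
        ring

/-- One step of the chain loses energy. -/
theorem Setup.step_energy (h : Setup S p) {Λ : ℝ} (hΛ : 0 < Λ)
    (ht : ∀ x ∈ S, totRate p x ≤ Λ / 2) (f : (A → ℕ) → ℝ) :
    ∑ W ∈ S, p W * (f W + gen p f W / Λ) ^ 2 ≤
      ∑ W ∈ S, p W * f W ^ 2 - dir p S f f / Λ := by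
  have h1 := h.sum_gen_sq_le hΛ ht f
  have h2 := sum_mul_gen h f f
  have e1 : ∑ W ∈ S, p W * (f W + gen p f W / Λ) ^ 2 =
      ∑ W ∈ S, p W * f W ^ 2 + 2 / Λ * ∑ W ∈ S, p W * f W * gen p f W +
        1 / Λ ^ 2 * ∑ W ∈ S, p W * gen p f W ^ 2 := by
    rw [Finset.mul_sum, Finset.mul_sum, ← Finset.sum_add_distrib, ← Finset.sum_add_distrib]
    refine Finset.sum_congr rfl (fun W _ => ?_)
    field_simp
    ring
  have e2 : ∑ W ∈ S, p W * f W * gen p f W = - dir p S f f := by
    rw [h2]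
    simp only [dir]
  rw [e1, e2]
  have h3 : 1 / Λ ^ 2 * ∑ W ∈ S, p W * gen p f W ^ 2 ≤ 1 / Λ ^ 2 * (Λ * dir p S f f) :=
    mul_le_mul_of_nonneg_left h1 (by positivity)
  have e3 : 1 / Λ ^ 2 * (Λ * dir p S f f) = dir p S f f / Λ := by
    field_simp
  have e4 : 2 / Λ * - dir p S f f = - (2 * (dir p S f f / Λ)) := by
    ring
  rw [e3] at h3
  rw [e4]
  linarith

/-- The squared distance to equilibrium decays along the chain. -/
theorem Setup.tv_decay (h : Setup S p) (h0 : (0 : A → ℕ) ∈ S) (hZ : ∑ W ∈ S, p W = 1)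
    {u : (A → ℕ) → A → ℝ} {Λ κ : ℝ} (hΛ : 0 < Λ) (hκ : 0 < κ)
    (hu : ∀ x ∈ S, ∀ α, u x α = rate p x α)
    (ht : ∀ x ∈ S, totRate p x ≤ Λ / 2)
    (hP : ∀ f : (A → ℕ) → ℝ, κ * ∑ W ∈ S, p W * (f W - wmean p S f) ^ 2 ≤ dir p S f f)
    {x0 : A → ℕ} (hx0 : x0 ∈ S) (hκΛ : κ ≤ Λ) (t : ℕ) :
    (1 / 2) * ∑ y ∈ S, |law S (kern u Λ) x0 t y - p y| ≤
      (1 / 2) * Real.sqrt ((1 - κ / Λ) ^ t * (1 / p x0)) := by
  -- densities
  let k : ℕ → (A → ℕ) → ℝ := fun t => tld2 p (law S (kern u Λ) x0 t)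
  have hlawk : ∀ t, ∀ y ∈ S, law S (kern u Λ) x0 t y = p y * k t y := by
    intro t y hy
    have := (h.pos y hy).ne'
    simp only [k, tld2]
    field_simp
  have hstep : ∀ t, ∀ y ∈ S, k (t + 1) y = k t y + gen p (k t) y / Λ := by
    intro t y hy
    have h1 := h.density_step hΛ hu (law S (kern u Λ) x0 t) hy
    have := (h.pos y hy).ne'
    have h2 : law S (kern u Λ) x0 (t + 1) y = p y * (k t y + gen p (k t) y / Λ) := h1
    simp only [k, tld2] at h2 ⊢
    rw [h2]
    field_simp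
  -- mass
  have hmass : ∀ t, ∑ y ∈ S, p y * k t y = 1 := by
    intro t
    induction t with
    | zero =>
      rw [Finset.sum_congr rfl (fun y hy => (hlawk 0 y hy).symm)]
      simp [law, hx0]
    | succ t ih =>
      rw [← ih]
      have e1 : ∀ y ∈ S, p y * k (t + 1) y = p y * k t y + p y * 1 * gen p (k t) y / Λ := by
        intro y hy
        rw [hstep t y hy]
        ring
      rw [Finset.sum_congr rfl e1, Finset.sum_add_distrib, ← Finset.sum_div]
      have e2 := sum_mul_gen h (k t) (fun _ => 1)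
      rw [e2]
      simp [grad]
  -- the variance
  let V : ℕ → ℝ := fun t => ∑ y ∈ S, p y * (k t y - 1) ^ 2
  have hmean : ∀ t, wmean p S (fun y => k t y - 1) = 0 := by
    intro t
    unfold wmean
    have : ∑ W ∈ S, p W * (k t W - 1) = 0 := by
      simp only [mul_sub, mul_one]
      rw [Finset.sum_sub_distrib, hmass t, hZ]
      ring
    rw [this]
    simp
  have hVstep : ∀ t, V (t + 1) ≤ (1 - κ / Λ) * V t := by
    intro t
    have h1 := h.step_energy hΛ ht (fun y => k t y - 1)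
    have h2 := hP (fun y => k t y - 1)
    rw [hmean t] at h2
    simp only [sub_zero] at h2
    have h3 : ∑ W ∈ S, p W * ((fun y => k t y - 1) W + gen p (fun y => k t y - 1) W / Λ) ^ 2 =
        V (t + 1) := by
      refine Finset.sum_congr rfl (fun y hy => ?_)
      have h4 : gen p (fun y => k t y - 1) y = gen p (k t) y := by
        unfold gen grad
        congr 1 <;> refine Finset.sum_congr rfl (fun α _ => ?_) <;> ring
      simp only [h4, hstep t y hy]
      ring
    rw [h3] at h1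
    change V (t + 1) ≤ V t - _ at h1
    have h5 : κ * V t ≤ dir p S (fun y => k t y - 1) (fun y => k t y - 1) := h2
    have h6 : κ * V t / Λ ≤ dir p S (fun y => k t y - 1) (fun y => k t y - 1) / Λ :=
      div_le_div_of_nonneg_right h5 hΛ.le
    have e : (1 - κ / Λ) * V t = V t - κ * V t / Λ := by
      field_simp
    rw [e]
    linarith
  have hVnn : ∀ t, 0 ≤ V t := fun t => Finset.sum_nonneg (fun y hy =>
    mul_nonneg (h.pos y hy).le (sq_nonneg _))
  have hfac : 0 ≤ 1 - κ / Λ := by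
    have : κ / Λ ≤ 1 := (div_le_one hΛ).2 hκΛ
    linarith
  have hV : V t ≤ (1 - κ / Λ) ^ t * V 0 := by
    induction t with
    | zero => simp
    | succ t ih =>
      calc V (t + 1) ≤ (1 - κ / Λ) * V t := hVstep t
        _ ≤ (1 - κ / Λ) * ((1 - κ / Λ) ^ t * V 0) := mul_le_mul_of_nonneg_left ih hfac
        _ = _ := by ring
  have hV0 : V 0 ≤ 1 / p x0 := by
    have hp := h.pos x0 hx0
    have e0 : ∀ y ∈ S, k 0 y = if y = x0 then 1 / p x0 else 0 := by
      intro y hy
      simp only [k, tld2, law]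
      by_cases hyx : y = x0
      · subst hyx
        simp
      · simp [hyx]
    have e1 : V 0 = ∑ y ∈ S, (p y * (k 0 y) ^ 2 - 2 * (p y * k 0 y) + p y) := by
      refine Finset.sum_congr rfl (fun y _ => ?_)
      ring
    rw [e1, Finset.sum_add_distrib, Finset.sum_sub_distrib, ← Finset.mul_sum, hmass 0, hZ]
    have e2 : ∑ y ∈ S, p y * k 0 y ^ 2 = 1 / p x0 := by
      rw [Finset.sum_eq_single x0]
      · rw [e0 x0 hx0]
        simp
        field_simp
      · intro y hy hyx
        rw [e0 y hy]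
        simp [hyx]
      · intro h2
        exact absurd hx0 h2
    rw [e2]
    linarith
  have hL1 : (∑ y ∈ S, p y * |k t y - 1|) ^ 2 ≤ V t := by
    have := wcs S p (fun y => |k t y - 1|) (fun y hy => (h.pos y hy).le)
    rw [hZ, one_mul] at this
    simpa [sq_abs] using this
  have hL2 : ∑ y ∈ S, |law S (kern u Λ) x0 t y - p y| = ∑ y ∈ S, p y * |k t y - 1| := by
    refine Finset.sum_congr rfl (fun y hy => ?_)
    rw [hlawk t y hy]
    have hp := h.pos y hy
    have : p y * k t y - p y = p y * (k t y - 1) := by ring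
    rw [this, abs_mul, abs_of_pos hp]
  rw [hL2]
  refine mul_le_mul_of_nonneg_left ?_ (by norm_num)
  refine Real.le_sqrt_of_sq_le ?_
  calc _ ≤ V t := hL1
    _ ≤ (1 - κ / Λ) ^ t * V 0 := hV
    _ ≤ _ := mul_le_mul_of_nonneg_left hV0 (pow_nonneg hfac t)

end Vale.Agent.Lib.P328W
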