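import Vale.Agent.Lib.P328W.FY

/-!
Total rates, the local inequality, the Poincare inequality for the soft margin chain.
-/

set_option linter.unusedSectionVars false
set_option linter.unusedSimpArgs false
set_option linter.unusedVariables false

namespace Vale.Agent.Lib.P328W

open Finset

variable {m n : ℕ} {r : Fin m → ℕ} {c : Fin n → ℕ} {N0 : ℕ} {p : (Cell m n → ℕ) → ℝ}

theorem resN_eq {W : Cell m n → ℕ} (hW : W ∈ regS r c N0) :
    resN r W = (mass r : ℝ) - (totS W : ℝ) := by
  unfold resN
  have := (mem_regS.1 hW).2.2
  rw [Nat.cast_sub (by omega)]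

theorem sum_entry_mul_le (hreg : ∀ i j, 100 * (r i * c j) ≤ mass r) {W : Cell m n → ℕ}
    (hW : W ∈ regS r c N0) (i : Fin m) :
    ∑ j, (W (i, j) : ℝ) * resC c W j ≤ (mass r : ℝ) / 100 := by
  have hRi := (mem_regS.1 hW).1 i
  by_cases hr : r i = 0
  · have h0 : ∀ j, W (i, j) = 0 := by
      intro j
      have := entry_le_rowS W (i, j)
      simp only at this
      omega
    simp only [h0]
    simp
    positivity
  · have hrpos : (0 : ℝ) < r i := by
      have : 0 < r i := Nat.pos_of_ne_zero hr
      exact_mod_cast this
    have h1 : (r i : ℝ) * ∑ j, (W (i, j) : ℝ) * resC c W j ≤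
        (r i : ℝ) * ((mass r : ℝ) / 100) := by
      calc (r i : ℝ) * ∑ j, (W (i, j) : ℝ) * resC c W j
          = ∑ j, (W (i, j) : ℝ) * ((r i : ℝ) * resC c W j) := by
            rw [Finset.mul_sum]
            exact Finset.sum_congr rfl (fun j _ => by ring)
        _ ≤ ∑ j, (W (i, j) : ℝ) * ((mass r : ℝ) / 100) := by
            refine Finset.sum_le_sum (fun j _ => ?_)
            refine mul_le_mul_of_nonneg_left ?_ (Nat.cast_nonneg _)
            have h2 : (100 : ℝ) * ((r i : ℝ) * (c j : ℝ)) ≤ mass r := by
              exact_mod_cast hreg i j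
            have h3 : resC c W j ≤ c j := resC_le c W j
            have h4 : (r i : ℝ) * resC c W j ≤ (r i : ℝ) * (c j : ℝ) :=
              mul_le_mul_of_nonneg_left h3 hrpos.le
            linarith
        _ = (rowS W i : ℝ) * ((mass r : ℝ) / 100) := by
            rw [← Finset.sum_mul, sum_entry_row]
        _ ≤ _ := by
            refine mul_le_mul_of_nonneg_right ?_ (by positivity)
            exact_mod_cast hRi
    exact le_of_mul_le_mul_left h1 hrpos

/-- The total up rate. -/
theorem IsWeight.sum_rate_le (h : IsWeight r c N0 p) (hsum : mass r = mass c)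
    (hreg : ∀ i j, 100 * (r i * c j) ≤ mass r) {W : Cell m n → ℕ} (hW : W ∈ regS r c N0) :
    ∑ α, rate p W α ≤ (5 / 2) * (resN r W + (mass r : ℝ) / 100) := by
  have hNnn : 0 ≤ resN r W := Nat.cast_nonneg _
  have hm : (0 : ℝ) ≤ mass r := Nat.cast_nonneg _
  by_cases hN : resN r W = 0
  · have h0 : ∀ α, rate p W α = 0 := by
      intro α
      refine h.rate_of_not_mem ?_
      intro hW'
      have h1 := ((mem_regS_add hW).1 hW').2.2
      have h2 : mass r - totS W = 0 := by
        unfold resN at hN
        exact_mod_cast hN
      omega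
    simp only [h0]
    simp
    rw [hN]
    positivity
  have hNpos : 0 < resN r W := lt_of_le_of_ne hNnn (Ne.symm hN)
  have h1 : ∀ α, rate p W α ≤ (5 / 2) / resN r W *
      (((W α : ℝ) + 1) * (resR r W α.1 * resC c W α.2)) := by
    intro α
    have hR := resR_nonneg r W α.1
    have hK := resC_nonneg c W α.2
    by_cases hW' : W + e α ∈ regS r c N0
    · rw [h.rate_eq hW hW', bet_eq]
      have hg := gam_le (W α)
      have hw : (0 : ℝ) ≤ (W α : ℝ) + 1 := by positivity
      have hq : 0 ≤ ((W α : ℝ) + 1) * (2 * resR r W α.1 * resC c W α.2 / resN r W) := by positivity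
      calc ((W α : ℝ) + 1) * (gam (W α) * (2 * resR r W α.1 * resC c W α.2 / resN r W))
          = gam (W α) * (((W α : ℝ) + 1) * (2 * resR r W α.1 * resC c W α.2 / resN r W)) := by ring
        _ ≤ (5 / 4) * (((W α : ℝ) + 1) * (2 * resR r W α.1 * resC c W α.2 / resN r W)) :=
            mul_le_mul_of_nonneg_right hg hq
        _ = _ := by
            field_simp
            ring
    · rw [h.rate_of_not_mem hW']
      positivity
  have h2 : ∑ α, (((W α : ℝ) + 1) * (resR r W α.1 * resC c W α.2)) ≤
      resN r W * ((mass r : ℝ) / 100) + resN r W ^ 2 := by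
    have e1 : ∑ α : Cell m n, resR r W α.1 * resC c W α.2 = resN r W ^ 2 := by
      rw [Fintype.sum_prod_type, sq]
      nth_rw 1 [← sum_resR hW]
      nth_rw 1 [← sum_resC hW hsum]
      rw [Finset.sum_mul_sum]
    have e2 : ∑ α : Cell m n, (W α : ℝ) * (resR r W α.1 * resC c W α.2) ≤
        resN r W * ((mass r : ℝ) / 100) := by
      rw [Fintype.sum_prod_type]
      calc ∑ i, ∑ j, (W (i, j) : ℝ) * (resR r W i * resC c W j)
          = ∑ i, resR r W i * ∑ j, (W (i, j) : ℝ) * resC c W j := by
            refine Finset.sum_congr rfl (fun i _ => ?_)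
            rw [Finset.mul_sum]
            exact Finset.sum_congr rfl (fun j _ => by ring)
        _ ≤ ∑ i, resR r W i * ((mass r : ℝ) / 100) :=
            Finset.sum_le_sum (fun i _ => mul_le_mul_of_nonneg_left
              (sum_entry_mul_le hreg hW i) (resR_nonneg r W i))
        _ = _ := by
            rw [← Finset.sum_mul, sum_resR hW]
    have e3 : ∑ α : Cell m n, (((W α : ℝ) + 1) * (resR r W α.1 * resC c W α.2)) =
        ∑ α : Cell m n, (W α : ℝ) * (resR r W α.1 * resC c W α.2) +
          ∑ α : Cell m n, resR r W α.1 * resC c W α.2 := by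
      rw [← Finset.sum_add_distrib]
      exact Finset.sum_congr rfl (fun α _ => by ring)
    rw [e3, e1]
    linarith
  calc ∑ α, rate p W α ≤ ∑ α, (5 / 2) / resN r W *
      (((W α : ℝ) + 1) * (resR r W α.1 * resC c W α.2)) := Finset.sum_le_sum (fun α _ => h1 α)
    _ = (5 / 2) / resN r W * ∑ α, (((W α : ℝ) + 1) * (resR r W α.1 * resC c W α.2)) := by
        rw [Finset.mul_sum]
    _ ≤ (5 / 2) / resN r W * (resN r W * ((mass r : ℝ) / 100) + resN r W ^ 2) :=
        mul_le_mul_of_nonneg_left h2 (by positivity)
    _ = _ := by
        field_simp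
        ring

/-- The total jump rate. -/
theorem IsWeight.totRate_le (h : IsWeight r c N0 p) (hsum : mass r = mass c)
    (hreg : ∀ i j, 100 * (r i * c j) ≤ mass r) {W : Cell m n → ℕ} (hW : W ∈ regS r c N0) :
    totRate p W ≤ 4 * (mass r : ℝ) := by
  unfold totRate
  rw [Finset.sum_add_distrib]
  have h1 := h.sum_rate_le hsum hreg hW
  rw [resN_eq hW] at h1
  have h2 : ∑ α, (W α : ℝ) = (totS W : ℝ) := by
    unfold totS
    push_cast
    rfl
  rw [h2]
  have h3 : (0 : ℝ) ≤ totS W := Nat.cast_nonneg _
  have h4 : (0 : ℝ) ≤ mass r := Nat.cast_nonneg _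
  linarith

/-- The local inequality. -/
theorem IsWeight.local_ineq (h : IsWeight r c N0 p) (hreg : ∀ i j, 100 * (r i * c j) ≤ mass r)
    (hN : 1000 ≤ mass r) (hN0 : mass r ≤ 10 * (N0 + 1)) {W : Cell m n → ℕ} (hW : W ∈ regS r c N0)
    (g : Cell m n → ℝ) :
    (1 / 3) * ∑ α, cond p W α * g α ^ 2 ≤ ∑ α, ∑ β, locM p W α β * (g α * g β) := by
  have hP := h.setup.pos W hW
  have hcond : ∀ α, cond p W α = p W * rate p W α := fun α => (h.setup.p_mul_rate W α).symm
  by_cases hwall : N0 + totS W + 2 ≤ mass r
  · -- above the wall
    set Nr := resN r W with hNr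
    have hNr2 : 2 ≤ Nr := by
      have h2 : 2 ≤ mass r - totS W := by omega
      rw [hNr]
      unfold resN
      exact_mod_cast h2
    have hloc := local_real (ω := Nr / (Nr - 1)) (Nr := Nr) (κ' := 1 / 3) (by linarith) rfl
      (resR r W) (resC c W) (resR_nonneg r W) (resC_nonneg c W) (sum_resR hW)
      (rate p W) (fun α => rate p (W + e α) α) g (h.setup.rate_nonneg W)
      (fun α hα => by
        have hW' : W + e α ∈ regS r c N0 := by
          by_contra hn
          exact hα (h.rate_of_not_mem hn)
        exact ⟨lt_of_lt_of_le one_pos (resR_ge_one hW hW'),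
          lt_of_lt_of_le one_pos (resC_ge_one hW hW')⟩)
      (fun α hα => by
        have hW' : W + e α ∈ regS r c N0 := by
          by_contra hn
          exact hα (h.rate_of_not_mem hn)
        exact h.rem_bound hreg hN hN0 hW hwall hW')
    have hM : ∀ α β, locM p W α β * (g α * g β) =
        p W * (rate p W α * g α * (rate p W β * g β)) +
          (if α = β then p W * (rate p W α * (1 - rate p (W + e α) α) * g α ^ 2)
           else - p W * ((1 - coefE (Nr / (Nr - 1)) (resR r W) (resC c W) α β) *
              (rate p W α * g α * (rate p W β * g β)))) := by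
      intro α β
      unfold locM
      by_cases hab : α = β
      · subst hab
        simp only [if_true]
        rw [hcond α]
        ring
      · simp only [hab, if_false]
        rw [h.dcond_eq hW hwall hab]
        ring
    calc (1 / 3) * ∑ α, cond p W α * g α ^ 2
        = p W * ((1 / 3) * ∑ α, rate p W α * g α ^ 2) := by
          rw [Finset.mul_sum, Finset.mul_sum, Finset.mul_sum]
          refine Finset.sum_congr rfl (fun α _ => ?_)
          rw [hcond α]
          ring
      _ ≤ p W * ((∑ α, rate p W α * g α) ^ 2 + ∑ α, rate p W α * (1 - rate p (W + e α) α) * g α ^ 2 -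
          ∑ α, ∑ β, (if α = β then (0 : ℝ) else
            (1 - coefE (Nr / (Nr - 1)) (resR r W) (resC c W) α β) *
              (rate p W α * g α * (rate p W β * g β)))) :=
          mul_le_mul_of_nonneg_left hloc hP.le
      _ = ∑ α, ∑ β, locM p W α β * (g α * g β) := by
          simp only [hM]
          rw [sq, Finset.sum_mul_sum]
          have e1 : ∀ α, ∑ β, (p W * (rate p W α * g α * (rate p W β * g β)) +
              (if α = β then p W * (rate p W α * (1 - rate p (W + e α) α) * g α ^ 2)
               else - p W * ((1 - coefE (Nr / (Nr - 1)) (resR r W) (resC c W) α β) *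
                (rate p W α * g α * (rate p W β * g β))))) =
              p W * (∑ β, rate p W α * g α * (rate p W β * g β) +
                rate p W α * (1 - rate p (W + e α) α) * g α ^ 2 -
                ∑ β, (if α = β then (0 : ℝ) else
                  (1 - coefE (Nr / (Nr - 1)) (resR r W) (resC c W) α β) *
                    (rate p W α * g α * (rate p W β * g β)))) := by
            intro α
            rw [Finset.sum_add_distrib]
            have e2 : ∑ β, (if α = β then p W * (rate p W α * (1 - rate p (W + e α) α) * g α ^ 2)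
               else - p W * ((1 - coefE (Nr / (Nr - 1)) (resR r W) (resC c W) α β) *
                (rate p W α * g α * (rate p W β * g β)))) =
                p W * (rate p W α * (1 - rate p (W + e α) α) * g α ^ 2) -
                p W * ∑ β, (if α = β then (0 : ℝ) else
                  (1 - coefE (Nr / (Nr - 1)) (resR r W) (resC c W) α β) *
                    (rate p W α * g α * (rate p W β * g β))) := by
              have e3 : ∀ β, (if α = β then p W * (rate p W α * (1 - rate p (W + e α) α) * g α ^ 2)
                 else - p W * ((1 - coefE (Nr / (Nr - 1)) (resR r W) (resC c W) α β) *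
                  (rate p W α * g α * (rate p W β * g β)))) =
                  (if α = β then p W * (rate p W α * (1 - rate p (W + e α) α) * g α ^ 2) else 0) -
                  p W * (if α = β then (0 : ℝ) else
                    (1 - coefE (Nr / (Nr - 1)) (resR r W) (resC c W) α β) *
                      (rate p W α * g α * (rate p W β * g β))) := by
                intro β
                by_cases hab : α = β
                · simp [hab]
                · simp [hab]
              rw [Finset.sum_congr rfl (fun β _ => e3 β), Finset.sum_sub_distrib,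
                ← Finset.mul_sum, Finset.sum_ite_eq]
              simp
            rw [e2, ← Finset.mul_sum]
            ring
          rw [Finset.sum_congr rfl (fun α _ => e1 α), ← Finset.mul_sum]
          congr 1
          rw [Finset.sum_sub_distrib, Finset.sum_add_distrib]
  · -- at the wall no double moves
    have hno : ∀ α β, W + e α + e β ∉ regS r c N0 := by
      intro α β hin
      have := (mem_regS.1 hin).2.2
      rw [totS_add_e, totS_add_e] at this
      omega
    have hrup : ∀ α, rate p (W + e α) α = 0 := fun α => h.rate_of_not_mem (hno α α)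
    have hd : ∀ α β, dcond p W α β = 0 := by
      intro α β
      simp [dcond, h.setup.zero _ (hno α β)]
    have hM : ∀ α β, locM p W α β * (g α * g β) =
        p W * (rate p W α * g α * (rate p W β * g β)) +
          (if α = β then cond p W α * g α ^ 2 else 0) := by
      intro α β
      unfold locM
      by_cases hab : α = β
      · subst hab
        simp only [if_true, hrup α]
        ring
      · simp only [hab, if_false, hd α β]
        ring
    simp only [hM, Finset.sum_add_distrib, Finset.sum_ite_eq, Finset.mem_univ, if_true]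
    have e1 : ∑ α, ∑ β, p W * (rate p W α * g α * (rate p W β * g β)) =
        p W * (∑ α, rate p W α * g α) ^ 2 := by
      rw [sq, Finset.sum_mul_sum, Finset.mul_sum]
      refine Finset.sum_congr rfl (fun α _ => ?_)
      rw [Finset.mul_sum]
    rw [e1]
    have e2 : 0 ≤ ∑ α, cond p W α * g α ^ 2 :=
      Finset.sum_nonneg (fun α _ => mul_nonneg (h.setup.cond_nonneg W α) (sq_nonneg _))
    have e3 : 0 ≤ p W * (∑ α, rate p W α * g α) ^ 2 := by positivity
    linarith

/-- The Bochner inequality with explicit curvature. -/
theorem IsWeight.bochner_table (h : IsWeight r c N0 p) (hreg : ∀ i j, 100 * (r i * c j) ≤ mass r)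
    (hN : 1000 ≤ mass r) (hN0 : mass r ≤ 10 * (N0 + 1)) (f : (Cell m n → ℕ) → ℝ) :
    (1 / 3) * dir p (regS r c N0) f f ≤ ∑ W ∈ regS r c N0, p W * gen p f W ^ 2 := by
  refine le_trans ?_ (bochner h.setup f)
  unfold dir
  rw [Finset.mul_sum]
  refine Finset.sum_le_sum (fun W hW => ?_)
  have := h.local_ineq hreg hN hN0 hW (grad f W)
  refine le_trans (le_of_eq ?_) this
  congr 1
  refine Finset.sum_congr rfl (fun α _ => ?_)
  ring

/-- The Poincare inequality with constant three. -/
theorem IsWeight.poincare_table (h : IsWeight r c N0 p) (hreg : ∀ i j, 100 * (r i * c j) ≤ mass r)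
    (hN : 1000 ≤ mass r) (hN0 : mass r ≤ 10 * (N0 + 1)) (hN1 : N0 ≤ mass r)
    (f : (Cell m n → ℕ) → ℝ) :
    (1 / 3) * ∑ W ∈ regS r c N0, p W * (f W - wmean p (regS r c N0) f) ^ 2 ≤
      dir p (regS r c N0) f f :=
  h.setup.poincare (zero_mem_regS hN1) (by norm_num) (fun f => h.bochner_table hreg hN hN0 f) f

theorem sum_wt_pos (h1 : N0 ≤ mass r) : 0 < ∑ V ∈ regS r c N0, wt r c V :=
  Finset.sum_pos (fun W _ => wt_pos r c W) ⟨0, zero_mem_regS h1⟩

theorem piW_isWeight (h1 : N0 ≤ mass r) : IsWeight r c N0 (piW r c N0) := by
  have hZ := sum_wt_pos (r := r) (c := c) h1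
  refine ⟨⟨fun W hW α _ => regS_down hW α, fun W hW => ?_, fun W hW => ?_⟩, fun W hW α hW' => ?_⟩
  · unfold piW pw
    rw [if_pos hW]
    exact div_pos (wt_pos r c W) hZ
  · unfold piW pw
    rw [if_neg hW]
    simp
  · unfold piW
    rw [(pw_isWeight r c N0).step W hW α hW']
    ring

theorem sum_piW (h1 : N0 ≤ mass r) : ∑ W ∈ regS r c N0, piW r c N0 W = 1 := by
  have hZ := sum_wt_pos (r := r) (c := c) h1
  unfold piW
  rw [← Finset.sum_div]
  have : ∑ W ∈ regS r c N0, pw r c N0 W = ∑ W ∈ regS r c N0, wt r c W :=
    Finset.sum_congr rfl (fun W hW => by simp [pw, hW])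
  rw [this]
  exact div_self hZ.ne'

end Vale.Agent.Lib.P328W
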