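import Vale.Agent.Lib.P328W.Mix
import Vale.Agent.Lib.P328W.GBound

/-!
The soft margin layer of contingency tables: state space, weight, rates.
-/

set_option linter.unusedSectionVars false
set_option linter.unusedSimpArgs false
set_option linter.unusedVariables false

namespace Vale.Agent.Lib.P328W

open Finset

variable {m n : ℕ}

theorem mem_regS {r : Fin m → ℕ} {c : Fin n → ℕ} {N0 : ℕ} {W : Cell m n → ℕ} :
    W ∈ regS r c N0 ↔ (∀ i, rowS W i ≤ r i) ∧ (∀ j, colS W j ≤ c j) ∧ N0 + totS W ≤ mass r := by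
  unfold regS
  rw [Finset.mem_filter, Fintype.mem_piFinset]
  constructor
  · exact fun h => h.2
  · intro h
    refine ⟨fun α => ?_, h⟩
    rw [Finset.mem_range]
    have h1 : W α ≤ rowS W α.1 := by
      unfold rowS
      exact Finset.single_le_sum (f := fun j => W (α.1, j)) (fun _ _ => Nat.zero_le _) (mem_univ α.2)
    have h2 := h.1 α.1
    have h3 : r α.1 ≤ mass r := by
      unfold mass
      exact Finset.single_le_sum (f := r) (fun _ _ => Nat.zero_le _) (mem_univ α.1)
    omega

theorem entry_le_rowS (W : Cell m n → ℕ) (α : Cell m n) : W α ≤ rowS W α.1 := by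
  unfold rowS
  exact Finset.single_le_sum (f := fun j => W (α.1, j)) (fun _ _ => Nat.zero_le _) (mem_univ α.2)

theorem entry_le_colS (W : Cell m n → ℕ) (α : Cell m n) : W α ≤ colS W α.2 := by
  unfold colS
  exact Finset.single_le_sum (f := fun i => W (i, α.2)) (fun _ _ => Nat.zero_le _) (mem_univ α.1)

theorem sum_rowS (W : Cell m n → ℕ) : ∑ i, rowS W i = totS W := by
  unfold rowS totS
  rw [Fintype.sum_prod_type]

theorem sum_colS (W : Cell m n → ℕ) : ∑ j, colS W j = totS W := by
  unfold colS totS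
  rw [Fintype.sum_prod_type_right]

theorem rowS_add_e (W : Cell m n → ℕ) (α : Cell m n) (i : Fin m) :
    rowS (W + e α) i = rowS W i + if i = α.1 then 1 else 0 := by
  unfold rowS
  simp only [Pi.add_apply, Finset.sum_add_distrib]
  congr 1
  by_cases h : i = α.1
  · simp only [h, if_true]
    rw [Finset.sum_eq_single α.2]
    · simp [e]
    · intro j _ hj
      refine e_ne ?_
      intro h2
      apply hj
      have := congrArg Prod.snd h2
      simpa using this
    · simp
  · simp only [h, if_false]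
    refine Finset.sum_eq_zero (fun j _ => e_ne ?_)
    intro h2
    apply h
    have := congrArg Prod.fst h2
    simpa using this

theorem colS_add_e (W : Cell m n → ℕ) (α : Cell m n) (j : Fin n) :
    colS (W + e α) j = colS W j + if j = α.2 then 1 else 0 := by
  unfold colS
  simp only [Pi.add_apply, Finset.sum_add_distrib]
  congr 1
  by_cases h : j = α.2
  · simp only [h, if_true]
    rw [Finset.sum_eq_single α.1]
    · simp [e]
    · intro i _ hi
      refine e_ne ?_
      intro h2
      apply hi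
      have := congrArg Prod.fst h2
      simpa using this
    · simp
  · simp only [h, if_false]
    refine Finset.sum_eq_zero (fun i _ => e_ne ?_)
    intro h2
    apply h
    have := congrArg Prod.snd h2
    simpa using this

theorem totS_add_e (W : Cell m n → ℕ) (α : Cell m n) : totS (W + e α) = totS W + 1 := by
  unfold totS
  simp only [Pi.add_apply, Finset.sum_add_distrib]
  congr 1
  simp [e]

theorem mem_regS_add {r : Fin m → ℕ} {c : Fin n → ℕ} {N0 : ℕ} {W : Cell m n → ℕ}
    (hW : W ∈ regS r c N0) {α : Cell m n} :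
    W + e α ∈ regS r c N0 ↔
      rowS W α.1 + 1 ≤ r α.1 ∧ colS W α.2 + 1 ≤ c α.2 ∧ N0 + totS W + 1 ≤ mass r := by
  rw [mem_regS] at hW ⊢
  constructor
  · rintro ⟨h1, h2, h3⟩
    refine ⟨?_, ?_, ?_⟩
    · have := h1 α.1
      rw [rowS_add_e] at this
      simpa using this
    · have := h2 α.2
      rw [colS_add_e] at this
      simpa using this
    · rw [totS_add_e] at h3
      omega
  · rintro ⟨h1, h2, h3⟩
    refine ⟨fun i => ?_, fun j => ?_, ?_⟩
    · rw [rowS_add_e]
      by_cases h : i = α.1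
      · subst h
        simpa using h1
      · simp [h, hW.1 i]
    · rw [colS_add_e]
      by_cases h : j = α.2
      · subst h
        simpa using h2
      · simp [h, hW.2.1 j]
    · rw [totS_add_e]
      omega

theorem rowS_sub_le (W : Cell m n → ℕ) (α : Cell m n) (i : Fin m) :
    rowS (W - e α) i ≤ rowS W i :=
  Finset.sum_le_sum (fun j _ => by simp)

theorem colS_sub_le (W : Cell m n → ℕ) (α : Cell m n) (j : Fin n) :
    colS (W - e α) j ≤ colS W j :=
  Finset.sum_le_sum (fun i _ => by simp)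

theorem totS_sub_le (W : Cell m n → ℕ) (α : Cell m n) : totS (W - e α) ≤ totS W :=
  Finset.sum_le_sum (fun i _ => by simp)

theorem regS_down {r : Fin m → ℕ} {c : Fin n → ℕ} {N0 : ℕ} {W : Cell m n → ℕ}
    (hW : W ∈ regS r c N0) (α : Cell m n) : W - e α ∈ regS r c N0 := by
  rw [mem_regS] at hW ⊢
  refine ⟨fun i => (rowS_sub_le W α i).trans (hW.1 i), fun j => (colS_sub_le W α j).trans (hW.2.1 j),
    ?_⟩
  have := totS_sub_le W α
  omega

theorem zero_mem_regS {r : Fin m → ℕ} {c : Fin n → ℕ} {N0 : ℕ} (h : N0 ≤ mass r) :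
    (0 : Cell m n → ℕ) ∈ regS r c N0 := by
  rw [mem_regS]
  simp [rowS, colS, totS, h]

theorem wt_pos (r : Fin m → ℕ) (c : Fin n → ℕ) (W : Cell m n → ℕ) : 0 < wt r c W := by
  unfold wt
  have h1 : 0 < ∏ α, G (W α) := Finset.prod_pos (fun α _ => G_pos _)
  have h2 : 0 < ∏ i, ((r i - rowS W i).factorial : ℝ) :=
    Finset.prod_pos (fun i _ => by positivity)
  have h3 : 0 < ∏ j, ((c j - colS W j).factorial : ℝ) :=
    Finset.prod_pos (fun j _ => by positivity)
  positivity

theorem pw_setup (r : Fin m → ℕ) (c : Fin n → ℕ) (N0 : ℕ) : Setup (regS r c N0) (pw r c N0) where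
  down := fun W hW α _ => regS_down hW α
  pos := fun W hW => by
    unfold pw
    rw [if_pos hW]
    exact wt_pos r c W
  zero := fun W hW => by
    unfold pw
    rw [if_neg hW]

/-- Factorials and unit vectors. -/
theorem prod_fact_sub {ι : Type*} [Fintype ι] [DecidableEq ι] (a : ι → ℕ) (i0 : ι)
    (h : 1 ≤ a i0) :
    ∏ i, ((a i).factorial : ℝ) = (a i0 : ℝ) * ∏ i, (((a - e i0) i).factorial : ℝ) := by
  rw [← Finset.mul_prod_erase univ _ (mem_univ i0), ← Finset.mul_prod_erase univ
    (fun i => (((a - e i0) i).factorial : ℝ)) (mem_univ i0)]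
  have h1 : ((a i0).factorial : ℝ) = (a i0 : ℝ) * (((a - e i0) i0).factorial : ℝ) := by
    have h2 : (a - e i0) i0 = a i0 - 1 := by simp
    rw [h2]
    obtain ⟨k, hk⟩ : ∃ k, a i0 = k + 1 := ⟨a i0 - 1, by omega⟩
    rw [hk]
    simp [Nat.factorial_succ]
  rw [h1, mul_assoc]
  congr 2
  refine Finset.prod_congr rfl (fun i hi => ?_)
  have : i ≠ i0 := Finset.ne_of_mem_erase hi
  simp [e, this]

/-- Expressing the residual margins after a move through unit vectors. -/
theorem rho_add_e (r : Fin m → ℕ) (W : Cell m n → ℕ) (α : Cell m n) :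
    (fun i => r i - rowS (W + e α) i) = (fun i => r i - rowS W i) - e α.1 := by
  funext i
  rw [rowS_add_e]
  by_cases h : i = α.1
  · subst h
    simp
    omega
  · simp [h, e]

theorem kap_add_e (c : Fin n → ℕ) (W : Cell m n → ℕ) (α : Cell m n) :
    (fun j => c j - colS (W + e α) j) = (fun j => c j - colS W j) - e α.2 := by
  funext j
  rw [colS_add_e]
  by_cases h : j = α.2
  · subst h
    simp
    omega
  · simp [h, e]

/-- The ratio of the weights along a move. -/
theorem wt_step {r : Fin m → ℕ} {c : Fin n → ℕ} {N0 : ℕ} {W : Cell m n → ℕ} {α : Cell m n}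
    (hW : W ∈ regS r c N0) (hW' : W + e α ∈ regS r c N0) :
    wt r c (W + e α) = wt r c W * (G (W α + 1) / G (W α)) *
      (2 * ((r α.1 - rowS W α.1 : ℕ) : ℝ) * ((c α.2 - colS W α.2 : ℕ) : ℝ) /
        ((mass r - totS W : ℕ) : ℝ)) := by
  obtain ⟨h1, h2, h3⟩ := (mem_regS_add hW).1 hW'
  have hρ : 1 ≤ r α.1 - rowS W α.1 := by omega
  have hκ : 1 ≤ c α.2 - colS W α.2 := by omega
  have hN : 1 ≤ mass r - totS W := by omega
  have eρ := prod_fact_sub (fun i => r i - rowS W i) α.1 hρ
  have eκ := prod_fact_sub (fun j => c j - colS W j) α.2 hκ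
  rw [← rho_add_e] at eρ
  rw [← kap_add_e] at eκ
  have eG : ∏ β, G ((W + e α) β) = (∏ β, G (W β)) * (G (W α + 1) / G (W α)) := by
    rw [← Finset.mul_prod_erase univ _ (mem_univ α), ← Finset.mul_prod_erase univ
      (fun β => G (W β)) (mem_univ α)]
    have h4 : ∏ β ∈ univ.erase α, G ((W + e α) β) = ∏ β ∈ univ.erase α, G (W β) := by
      refine Finset.prod_congr rfl (fun β hβ => ?_)
      rw [add_e_ne W (Finset.ne_of_mem_erase hβ)]
    rw [h4, add_e_self]
    have := (G_pos (W α)).ne'
    field_simp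
  obtain ⟨K, hK⟩ : ∃ K, mass r - totS W = K + 1 := ⟨mass r - totS W - 1, by omega⟩
  have eK : mass r - totS (W + e α) = K := by
    rw [totS_add_e]
    omega
  unfold wt
  rw [eG, eK, hK]
  simp only [] at eρ eκ
  rw [eρ, eκ, Nat.factorial_succ, pow_succ]
  set P := ∏ i, ((r i - rowS (W + e α) i).factorial : ℝ)
  set Q := ∏ j, ((c j - colS (W + e α) j).factorial : ℝ)
  have hP : 0 < P := Finset.prod_pos (fun i _ => by positivity)
  have hQ : 0 < Q := Finset.prod_pos (fun j _ => by positivity)
  have hρ' : (0 : ℝ) < ((r α.1 - rowS W α.1 : ℕ) : ℝ) := by exact_mod_cast hρ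
  have hκ' : (0 : ℝ) < ((c α.2 - colS W α.2 : ℕ) : ℝ) := by exact_mod_cast hκ
  have hK' : (0 : ℝ) < ((K + 1 : ℕ) : ℝ) := by positivity
  have hKf : (0 : ℝ) < (K.factorial : ℝ) := by positivity
  push_cast
  push_cast at hK'
  field_simp

theorem pw_step {r : Fin m → ℕ} {c : Fin n → ℕ} {N0 : ℕ} {W : Cell m n → ℕ} {α : Cell m n}
    (hW : W ∈ regS r c N0) (hW' : W + e α ∈ regS r c N0) :
    pw r c N0 (W + e α) = pw r c N0 W * (G (W α + 1) / G (W α)) *
      (2 * ((r α.1 - rowS W α.1 : ℕ) : ℝ) * ((c α.2 - colS W α.2 : ℕ) : ℝ) /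
        ((mass r - totS W : ℕ) : ℝ)) := by
  unfold pw
  rw [if_pos hW, if_pos hW', wt_step hW hW']

end Vale.Agent.Lib.P328W
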