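import Vale.Agent.Lib.P328W.Rates

/-!
The tail bound for the total of the layer.
-/

set_option linter.unusedSectionVars false
set_option linter.unusedSimpArgs false
set_option linter.unusedVariables false

namespace Vale.Agent.Lib.P328W

open Finset

variable {m n : ℕ} {r : Fin m → ℕ} {c : Fin n → ℕ}

/-- The mass of the layers with total `K`. -/
noncomputable def lev (r : Fin m → ℕ) (c : Fin n → ℕ) (K : ℕ) : ℝ :=
  ∑ W ∈ regS r c 0, if totS W = K then wt r c W else 0

/-- The mass of the layers with total at least `K`. -/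
noncomputable def tailB (r : Fin m → ℕ) (c : Fin n → ℕ) (K : ℕ) : ℝ :=
  ∑ W ∈ regS r c 0, if K ≤ totS W then wt r c W else 0

theorem lev_nonneg (K : ℕ) : 0 ≤ lev r c K :=
  Finset.sum_nonneg (fun W _ => by
    split_ifs
    · exact (wt_pos r c W).le
    · exact le_rfl)

theorem lev_rec (hsum : mass r = mass c) (hreg : ∀ i j, 100 * (r i * c j) ≤ mass r) (K : ℕ) :
    ((K : ℝ) + 1) * lev r c (K + 1) ≤
      (5 / 2) * ((mass r : ℝ) - K + (mass r : ℝ) / 100) * lev r c K := by
  have hI := pw_isWeight r c 0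
  have hS := hI.setup
  set Φ : (Cell m n → ℕ) → ℝ := fun W => if totS W = K + 1 then pw r c 0 W else 0 with hΦ
  have hΦ0 : ∀ W, W ∉ regS r c 0 → Φ W = 0 := by
    intro W hW
    simp [hΦ, hS.zero W hW]
  have h1 : ((K : ℝ) + 1) * lev r c (K + 1) = ∑ α, ∑ W ∈ regS r c 0, (W α : ℝ) * Φ W := by
    rw [Finset.sum_comm]
    unfold lev
    rw [Finset.mul_sum]
    refine Finset.sum_congr rfl (fun W hW => ?_)
    rw [← Finset.sum_mul]
    have h2 : ∑ α, (W α : ℝ) = (totS W : ℝ) := by
      unfold totS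
      push_cast
      rfl
    rw [h2]
    simp only [hΦ]
    by_cases h3 : totS W = K + 1
    · simp only [h3, if_true]
      rw [show pw r c 0 W = wt r c W by simp [pw, hW]]
      push_cast
      ring
    · simp [h3]
  rw [h1]
  have h2 : ∀ α, ∑ W ∈ regS r c 0, (W α : ℝ) * Φ W =
      ∑ W ∈ regS r c 0, if totS W = K then cond (pw r c 0) W α else 0 := by
    intro α
    rw [shift_sum hS α Φ hΦ0]
    refine Finset.sum_congr rfl (fun W _ => ?_)
    simp only [hΦ, totS_add_e, Nat.add_right_cancel_iff]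
    by_cases h3 : totS W = K
    · simp [h3, cond]
    · simp [h3]
  rw [Finset.sum_congr rfl (fun α _ => h2 α), Finset.sum_comm]
  unfold lev
  rw [Finset.mul_sum]
  refine Finset.sum_le_sum (fun W hW => ?_)
  by_cases h3 : totS W = K
  · simp only [h3, if_true]
    have h4 : ∑ α, cond (pw r c 0) W α = pw r c 0 W * ∑ α, rate (pw r c 0) W α := by
      rw [Finset.mul_sum]
      exact Finset.sum_congr rfl (fun α _ => (hS.p_mul_rate W α).symm)
    rw [h4]
    have h5 := hI.sum_rate_le hsum hreg hW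
    rw [resN_eq hW, h3] at h5
    have h6 : pw r c 0 W = wt r c W := by simp [pw, hW]
    rw [h6]
    have h7 := wt_pos r c W
    calc wt r c W * ∑ α, rate (pw r c 0) W α
        ≤ wt r c W * ((5 / 2) * ((mass r : ℝ) - K + (mass r : ℝ) / 100)) :=
          mul_le_mul_of_nonneg_left h5 h7.le
      _ = _ := by ring
  · simp [h3]

theorem lev_halve (hsum : mass r = mass c) (hreg : ∀ i j, 100 * (r i * c j) ≤ mass r) {K : ℕ}
    (hK : 17 * mass r ≤ 20 * K) : lev r c (K + 1) ≤ (1 / 2) * lev r c K := by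
  have h1 := lev_rec hsum hreg K
  have h2 := lev_nonneg (r := r) (c := c) K
  have h3 : (17 : ℝ) * mass r ≤ 20 * K := by exact_mod_cast hK
  have h4 : (0 : ℝ) < (K : ℝ) + 1 := by positivity
  have h5 : (5 / 2) * ((mass r : ℝ) - K + (mass r : ℝ) / 100) ≤ ((K : ℝ) + 1) * (1 / 2) := by
    have h6 : (0 : ℝ) ≤ K := Nat.cast_nonneg K
    have h7 : (0 : ℝ) ≤ mass r := Nat.cast_nonneg _
    linarith
  have h8 : ((K : ℝ) + 1) * lev r c (K + 1) ≤ ((K : ℝ) + 1) * ((1 / 2) * lev r c K) := by
    calc _ ≤ _ := h1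
      _ ≤ ((K : ℝ) + 1) * (1 / 2) * lev r c K := mul_le_mul_of_nonneg_right h5 h2
      _ = _ := by ring
  exact le_of_mul_le_mul_left h8 h4

theorem lev_iter (hsum : mass r = mass c) (hreg : ∀ i j, 100 * (r i * c j) ≤ mass r) {K : ℕ}
    (hK : 17 * mass r ≤ 20 * K) (d : ℕ) : lev r c (K + d) ≤ lev r c K / 2 ^ d := by
  induction d with
  | zero => simp
  | succ d ih =>
    have h1 := lev_halve hsum hreg (K := K + d) (by omega)
    have h2 : lev r c (K + (d + 1)) = lev r c (K + d + 1) := rfl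
    rw [h2]
    calc _ ≤ (1 / 2) * lev r c (K + d) := h1
      _ ≤ (1 / 2) * (lev r c K / 2 ^ d) := mul_le_mul_of_nonneg_left ih (by norm_num)
      _ = _ := by
          rw [pow_succ]
          ring

theorem lev_le_card (hsum : mass r = mass c) (K : ℕ) : lev r c K ≤ ((Tab r c).card : ℝ) := by
  rw [← sum_wt hsum]
  refine Finset.sum_le_sum (fun W _ => ?_)
  split_ifs
  · exact le_rfl
  · exact (wt_pos r c W).le

theorem tailB_zero_of_lt {K : ℕ} (hK : mass r < K) : tailB r c K = 0 := by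
  refine Finset.sum_eq_zero (fun W hW => ?_)
  have := (mem_regS.1 hW).2.2
  rw [if_neg (by omega)]

theorem tailB_succ (K : ℕ) : tailB r c K = lev r c K + tailB r c (K + 1) := by
  unfold tailB lev
  rw [← Finset.sum_add_distrib]
  refine Finset.sum_congr rfl (fun W _ => ?_)
  by_cases h1 : totS W = K
  · simp [h1]
  · by_cases h2 : K ≤ totS W
    · have h3 : K + 1 ≤ totS W := by omega
      simp [h1, h2, h3]
    · have h3 : ¬ K + 1 ≤ totS W := by omega
      simp [h1, h2, h3]

theorem tailB_le (hsum : mass r = mass c) (hreg : ∀ i j, 100 * (r i * c j) ≤ mass r) (d : ℕ) :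
    ∀ K, mass r < K + d → 17 * mass r ≤ 20 * K → tailB r c K ≤ 2 * lev r c K := by
  induction d with
  | zero =>
    intro K hK _
    rw [tailB_zero_of_lt (by omega)]
    have := lev_nonneg (r := r) (c := c) K
    linarith
  | succ d ih =>
    intro K hK h1
    have h2 := ih (K + 1) (by omega) (by omega)
    have h3 := lev_halve hsum hreg h1
    rw [tailB_succ]
    linarith

/-- The cut mass. -/
theorem cut_eq (N0 : ℕ) (hN0 : N0 ≤ mass r) :
    ∑ W ∈ regS r c 0, wt r c W - ∑ W ∈ regS r c N0, wt r c W = tailB r c (mass r - N0 + 1) := by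
  have hsub : regS r c N0 ⊆ regS r c 0 := by
    intro W hW
    rw [mem_regS] at hW ⊢
    refine ⟨hW.1, hW.2.1, ?_⟩
    have := hW.2.2
    omega
  rw [← Finset.sum_sdiff hsub, add_sub_cancel_right]
  unfold tailB
  rw [← Finset.sum_sdiff hsub]
  have h1 : ∑ W ∈ regS r c N0, (if mass r - N0 + 1 ≤ totS W then wt r c W else 0) = 0 := by
    refine Finset.sum_eq_zero (fun W hW => ?_)
    have := (mem_regS.1 hW).2.2
    rw [if_neg (by omega)]
  rw [h1, add_zero]
  refine Finset.sum_congr rfl (fun W hW => ?_)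
  rw [Finset.mem_sdiff] at hW
  have h2 : mass r - N0 + 1 ≤ totS W := by
    by_contra hcon
    apply hW.2
    have := mem_regS.1 hW.1
    rw [mem_regS]
    refine ⟨this.1, this.2.1, by omega⟩
  rw [if_pos h2]

/-- The tail estimate in final form. -/
theorem cut_le (hsum : mass r = mass c) (hreg : ∀ i j, 100 * (r i * c j) ≤ mass r) :
    ∑ W ∈ regS r c 0, wt r c W - ∑ W ∈ regS r c (mass r / 10), wt r c W ≤
      2 * ((Tab r c).card : ℝ) / 2 ^ (mass r / 20) := by
  set N := mass r with hN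
  rw [cut_eq (N / 10) (by omega)]
  set K1 := (17 * N + 19) / 20 with hK1
  have hK1' : 17 * N ≤ 20 * K1 := by omega
  obtain ⟨d, hd⟩ : ∃ d, N - N / 10 + 1 = K1 + (N / 20 + d) := ⟨N - N / 10 + 1 - K1 - N / 20, by omega⟩
  rw [hd]
  have h1 := tailB_le hsum hreg (N + 1) (K1 + (N / 20 + d)) (by omega) (by omega)
  have h2 := lev_iter hsum hreg hK1' (N / 20 + d)
  have h3 := lev_le_card hsum K1
  have h4 : lev r c K1 / 2 ^ (N / 20 + d) ≤ ((Tab r c).card : ℝ) / 2 ^ (N / 20) := by
    apply div_le_div₀ (Nat.cast_nonneg _) h3 (by positivity)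
    exact pow_le_pow_right₀ (by norm_num) (by omega)
  calc _ ≤ 2 * lev r c (K1 + (N / 20 + d)) := h1
    _ ≤ 2 * (((Tab r c).card : ℝ) / 2 ^ (N / 20)) := by linarith
    _ = _ := by ring

end Vale.Agent.Lib.P328W
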